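import Mathlib

/-!
Abstract operator core of the Thorp shuffle comparison.
-/

open scoped RealInnerProductSpace
open Finset

namespace Vale.Agent.P162

/-- Abstract data: commuting involutions `τ`, pair operators `Z`, a central operator `D`. -/
structure Sys (P E : Type*) [Fintype P] [DecidableEq P] [NormedAddCommGroup E]
    [InnerProductSpace ℝ E] where
  τ : P → E →L[ℝ] E
  Z : P → P → E →L[ℝ] E
  D : E →L[ℝ] E
  τ_sym : ∀ p x y, ⟪τ p x, y⟫ = ⟪x, τ p y⟫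
  τ_sq : ∀ p x, τ p (τ p x) = x
  τ_comm : ∀ p q x, τ p (τ q x) = τ q (τ p x)
  Z_sym : ∀ p q x y, ⟪Z p q x, y⟫ = ⟪x, Z p q y⟫
  Z_norm : ∀ p q x, ‖Z p q x‖ ≤ 4 * ‖x‖
  anti1 : ∀ p q, p ≠ q → ∀ x, τ p (Z p q x) = -(Z p q (τ p x))
  anti2 : ∀ p q, p ≠ q → ∀ x, τ q (Z p q x) = -(Z p q (τ q x))
  comm3 : ∀ p q r, p ≠ q → r ≠ p → r ≠ q → ∀ x, τ r (Z p q x) = Z p q (τ r x)
  D_τ : ∀ p x, D (τ p x) = τ p (D x)
  D_Z : ∀ p q x, D (Z p q x) = Z p q (D x)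
  energy : ∀ w, ∑ x ∈ (univ : Finset P).offDiag, ‖Z x.1 x.2 w‖ ^ 2 ≤ 16 * ⟪w, D w⟫

variable {P E : Type*} [Fintype P] [DecidableEq P] [NormedAddCommGroup E]
  [InnerProductSpace ℝ E] (S : Sys P E)

namespace Sys

/-- The projection onto the `-1` eigenspace of `τ p`. -/
noncomputable def nn (p : P) : E →L[ℝ] E := (1 / 2 : ℝ) • (1 - S.τ p)
/-- The projection onto the `+1` eigenspace of `τ p`. -/
noncomputable def mm (p : P) : E →L[ℝ] E := (1 / 2 : ℝ) • (1 + S.τ p)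
/-- The number operator. -/
noncomputable def Nt : E →L[ℝ] E := ∑ p, S.nn p

lemma nn_apply (p : P) (x : E) : S.nn p x = (1 / 2 : ℝ) • (x - S.τ p x) := by
  simp [nn]

lemma mm_apply (p : P) (x : E) : S.mm p x = (1 / 2 : ℝ) • (x + S.τ p x) := by
  simp [mm]

lemma Nt_apply (x : E) : S.Nt x = ∑ p, S.nn p x := by
  simp [Nt]

lemma nn_add_mm (p : P) (x : E) : S.nn p x + S.mm p x = x := by
  rw [nn_apply, mm_apply]; module

lemma nn_nn (p : P) (x : E) : S.nn p (S.nn p x) = S.nn p x := by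
  simp only [nn_apply, map_smul, map_sub, S.τ_sq]; module

lemma mm_mm (p : P) (x : E) : S.mm p (S.mm p x) = S.mm p x := by
  simp only [mm_apply, map_smul, map_add, S.τ_sq]; module

lemma nn_mm (p : P) (x : E) : S.nn p (S.mm p x) = 0 := by
  simp only [nn_apply, mm_apply, map_smul, map_add, S.τ_sq]; module

lemma mm_nn (p : P) (x : E) : S.mm p (S.nn p x) = 0 := by
  simp only [nn_apply, mm_apply, map_smul, map_sub, S.τ_sq]; module

lemma nn_nn_comm (p q : P) (x : E) : S.nn p (S.nn q x) = S.nn q (S.nn p x) := by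
  simp only [nn_apply, map_smul, map_sub, S.τ_comm p q x]; module

lemma mm_mm_comm (p q : P) (x : E) : S.mm p (S.mm q x) = S.mm q (S.mm p x) := by
  simp only [mm_apply, map_smul, map_add, S.τ_comm p q x]; module

lemma nn_mm_comm (p q : P) (x : E) : S.nn p (S.mm q x) = S.mm q (S.nn p x) := by
  simp only [nn_apply, mm_apply, map_smul, map_add, map_sub, S.τ_comm p q x]; module

lemma τ_mm (p : P) (x : E) : S.τ p (S.mm p x) = S.mm p x := by
  simp only [mm_apply, map_smul, map_add, S.τ_sq]; module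

lemma τ_nn (p : P) (x : E) : S.τ p (S.nn p x) = -S.nn p x := by
  simp only [nn_apply, map_smul, map_sub, S.τ_sq]; module

lemma τ_mm_comm (p q : P) (x : E) : S.τ p (S.mm q x) = S.mm q (S.τ p x) := by
  simp only [mm_apply, map_smul, map_add, S.τ_comm p q x]

lemma τ_nn_comm (p q : P) (x : E) : S.τ p (S.nn q x) = S.nn q (S.τ p x) := by
  simp only [nn_apply, map_smul, map_sub, S.τ_comm p q x]

lemma inner_nn (p : P) (x y : E) : ⟪S.nn p x, y⟫ = ⟪x, S.nn p y⟫ := by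
  simp only [nn_apply, inner_smul_left, inner_smul_right, inner_sub_left, inner_sub_right,
    S.τ_sym]
  simp

lemma inner_mm (p : P) (x y : E) : ⟪S.mm p x, y⟫ = ⟪x, S.mm p y⟫ := by
  simp only [mm_apply, inner_smul_left, inner_smul_right, inner_add_left, inner_add_right,
    S.τ_sym]
  simp

lemma norm_τ (p : P) (x : E) : ‖S.τ p x‖ = ‖x‖ := by
  have : ‖S.τ p x‖ ^ 2 = ‖x‖ ^ 2 := by
    rw [← real_inner_self_eq_norm_sq, ← real_inner_self_eq_norm_sq, S.τ_sym, S.τ_sq]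
  exact (sq_eq_sq₀ (norm_nonneg _) (norm_nonneg _)).mp this

lemma norm_mm_le (p : P) (x : E) : ‖S.mm p x‖ ≤ ‖x‖ := by
  rw [mm_apply, norm_smul]
  have := norm_add_le x (S.τ p x)
  rw [norm_τ] at this
  simp only [Real.norm_eq_abs]
  rw [abs_of_pos (by norm_num)]
  linarith

lemma norm_nn_le (p : P) (x : E) : ‖S.nn p x‖ ≤ ‖x‖ := by
  rw [nn_apply, norm_smul]
  have := norm_sub_le x (S.τ p x)
  rw [norm_τ] at this
  simp only [Real.norm_eq_abs]
  rw [abs_of_pos (by norm_num)]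
  linarith

lemma norm_nn_sq (p : P) (x : E) : ‖S.nn p x‖ ^ 2 = ⟪x, S.nn p x⟫ := by
  rw [← real_inner_self_eq_norm_sq, inner_nn, nn_nn]

lemma sum_norm_nn_sq (x : E) : ∑ p, ‖S.nn p x‖ ^ 2 = ⟪x, S.Nt x⟫ := by
  rw [Nt_apply, inner_sum]
  exact Finset.sum_congr rfl fun p _ => S.norm_nn_sq p x

lemma Z_mm_left (p q : P) (h : p ≠ q) (x : E) : S.Z p q (S.mm p x) = S.nn p (S.Z p q x) := by
  simp only [mm_apply, nn_apply, map_smul, map_add, S.anti1 p q h]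
  module

lemma Z_nn_left (p q : P) (h : p ≠ q) (x : E) : S.Z p q (S.nn p x) = S.mm p (S.Z p q x) := by
  simp only [mm_apply, nn_apply, map_smul, map_sub, S.anti1 p q h]
  module

lemma Z_mm_right (p q : P) (h : p ≠ q) (x : E) : S.Z p q (S.mm q x) = S.nn q (S.Z p q x) := by
  simp only [mm_apply, nn_apply, map_smul, map_add, S.anti2 p q h]
  module

lemma Z_nn_right (p q : P) (h : p ≠ q) (x : E) : S.Z p q (S.nn q x) = S.mm q (S.Z p q x) := by
  simp only [mm_apply, nn_apply, map_smul, map_sub, S.anti2 p q h]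
  module

/-- The commutator of the number operator with `Z p q`. -/
lemma Nt_Z (p q : P) (h : p ≠ q) (x : E) :
    S.Nt (S.Z p q x) = S.Z p q (S.Nt x) + S.Z p q (S.τ p x + S.τ q x) := by
  have key : ∀ r, S.nn r (S.Z p q x) - S.Z p q (S.nn r x) =
      (if r = p then S.Z p q (S.τ p x) else 0) + (if r = q then S.Z p q (S.τ q x) else 0) := by
    intro r
    by_cases hp : r = p
    · subst hp
      have hq : r ≠ q := h
      simp only [if_true, if_neg hq, add_zero, nn_apply, map_smul, map_sub, S.anti1 r q h]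
      module
    · by_cases hq : r = q
      · subst hq
        simp only [if_neg hp, if_true, zero_add, nn_apply, map_smul, map_sub, S.anti2 p r h]
        module
      · simp only [if_neg hp, if_neg hq, add_zero, nn_apply, map_smul, map_sub,
          S.comm3 p q r h hp hq]
        module
  have hs : ∑ r, (S.nn r (S.Z p q x) - S.Z p q (S.nn r x)) =
      S.Z p q (S.τ p x) + S.Z p q (S.τ q x) := by
    simp only [key, Finset.sum_add_distrib, Finset.sum_ite_eq', Finset.mem_univ, if_true]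
  rw [Finset.sum_sub_distrib] at hs
  rw [Nt_apply, Nt_apply, map_sum, map_add]
  rw [sub_eq_iff_eq_add] at hs
  rw [hs]
  abel

lemma Nt_comm_nn (p : P) (x : E) : S.Nt (S.nn p x) = S.nn p (S.Nt x) := by
  simp only [Nt_apply, map_sum]
  exact Finset.sum_congr rfl fun q _ => S.nn_nn_comm q p x

lemma Nt_comm_mm (p : P) (x : E) : S.Nt (S.mm p x) = S.mm p (S.Nt x) := by
  simp only [Nt_apply, map_sum]
  exact Finset.sum_congr rfl fun q _ => S.nn_mm_comm q p x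

lemma D_nn (p : P) (x : E) : S.D (S.nn p x) = S.nn p (S.D x) := by
  simp only [nn_apply, map_smul, map_sub, S.D_τ]

lemma D_mm (p : P) (x : E) : S.D (S.mm p x) = S.mm p (S.D x) := by
  simp only [mm_apply, map_smul, map_add, S.D_τ]


/-- Raising part. -/
noncomputable def Vu (w : E) : E :=
  (1 / 4 : ℝ) • ∑ x ∈ (univ : Finset P).offDiag, S.Z x.1 x.2 (S.mm x.1 (S.mm x.2 w))

/-- Lowering part. -/
noncomputable def Vd (w : E) : E :=
  (1 / 4 : ℝ) • ∑ x ∈ (univ : Finset P).offDiag, S.Z x.1 x.2 (S.nn x.1 (S.nn x.2 w))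

/-- The mixed projection. -/
noncomputable def th (p q : P) (w : E) : E := S.mm p (S.nn q w) + S.nn p (S.mm q w)

/-- Level preserving part. -/
noncomputable def V0 (w : E) : E :=
  (1 / 4 : ℝ) • ∑ x ∈ (univ : Finset P).offDiag, S.Z x.1 x.2 (S.th x.1 x.2 w)

/-- The operator `G`. -/
noncomputable def Gop : E →L[ℝ] E :=
  S.Nt - (1 / 4 : ℝ) • ∑ x ∈ (univ : Finset P).offDiag, S.Z x.1 x.2

lemma split_vec (p q : P) (w : E) :
    w = S.mm p (S.mm q w) + S.nn p (S.nn q w) + S.th p q w := by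
  have h1 := S.nn_add_mm q w
  have h2 := S.nn_add_mm p (S.nn q w)
  have h3 := S.nn_add_mm p (S.mm q w)
  rw [th]
  calc w = S.nn q w + S.mm q w := h1.symm
    _ = (S.nn p (S.nn q w) + S.mm p (S.nn q w)) + (S.nn p (S.mm q w) + S.mm p (S.mm q w)) := by
        rw [h2, h3]
    _ = _ := by abel

lemma Gop_apply (w : E) : S.Gop w = S.Nt w - S.Vu w - S.Vd w - S.V0 w := by
  have hsum : (∑ x ∈ (univ : Finset P).offDiag, S.Z x.1 x.2) w =
      ∑ x ∈ (univ : Finset P).offDiag, S.Z x.1 x.2 (S.mm x.1 (S.mm x.2 w)) +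
      ∑ x ∈ (univ : Finset P).offDiag, S.Z x.1 x.2 (S.nn x.1 (S.nn x.2 w)) +
      ∑ x ∈ (univ : Finset P).offDiag, S.Z x.1 x.2 (S.th x.1 x.2 w) := by
    rw [_root_.sum_apply, ← Finset.sum_add_distrib, ← Finset.sum_add_distrib]
    refine Finset.sum_congr rfl fun x _ => ?_
    rw [← map_add, ← map_add, ← S.split_vec]
  simp only [Gop, Vu, Vd, V0, sub_apply, smul_apply, hsum]
  module

/-- A vector is graded when it is an eigenvector of the number operator and `D`. -/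
def Gr (ρ μ : ℝ) (w : E) : Prop := S.Nt w = ρ • w ∧ S.D w = μ • w

lemma Gr.sum {ρ μ : ℝ} {ι : Type*} (s : Finset ι) (f : ι → E) (hf : ∀ i ∈ s, S.Gr ρ μ (f i)) :
    S.Gr ρ μ (∑ i ∈ s, f i) := by
  constructor
  · rw [map_sum, Finset.smul_sum]
    exact Finset.sum_congr rfl fun i hi => (hf i hi).1
  · rw [map_sum, Finset.smul_sum]
    exact Finset.sum_congr rfl fun i hi => (hf i hi).2

lemma Gr.smul {ρ μ : ℝ} (c : ℝ) {w : E} (h : S.Gr ρ μ w) : S.Gr ρ μ (c • w) := by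
  constructor
  · rw [map_smul, h.1, smul_comm]
  · rw [map_smul, h.2, smul_comm]

lemma Gr.zero (ρ μ : ℝ) : S.Gr ρ μ (0 : E) := by
  constructor <;> simp

lemma Gr.sub {ρ μ : ℝ} {w w' : E} (h : S.Gr ρ μ w) (h' : S.Gr ρ μ w') : S.Gr ρ μ (w - w') := by
  constructor
  · rw [map_sub, h.1, h'.1, smul_sub]
  · rw [map_sub, h.2, h'.2, smul_sub]

lemma Gr.mm {ρ μ : ℝ} {w : E} (h : S.Gr ρ μ w) (p : P) : S.Gr ρ μ (S.mm p w) := by
  constructor
  · rw [Nt_comm_mm, h.1, map_smul]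
  · rw [D_mm, h.2, map_smul]

lemma Gr.nn {ρ μ : ℝ} {w : E} (h : S.Gr ρ μ w) (p : P) : S.Gr ρ μ (S.nn p w) := by
  constructor
  · rw [Nt_comm_nn, h.1, map_smul]
  · rw [D_nn, h.2, map_smul]

lemma Gr.Z {ρ μ : ℝ} {w : E} (h : S.Gr ρ μ w) {p q : P} (hpq : p ≠ q) {c : ℝ}
    (ht : S.τ p w + S.τ q w = c • w) : S.Gr (ρ + c) μ (S.Z p q w) := by
  constructor
  · rw [Nt_Z _ p q hpq, h.1, ht, map_smul, map_smul, add_smul]
  · rw [S.D_Z, h.2, map_smul]

lemma Gr_Vu {ρ μ : ℝ} {w : E} (h : S.Gr ρ μ w) : S.Gr (ρ + 2) μ (S.Vu w) := by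
  refine Gr.smul S _ (Gr.sum S _ _ fun x hx => ?_)
  have hne : x.1 ≠ x.2 := (Finset.mem_offDiag.mp hx).2.2
  refine Gr.Z S (Gr.mm S (Gr.mm S h _) _) hne ?_
  rw [τ_mm, S.τ_mm_comm, τ_mm, S.mm_mm_comm x.1 x.2]
  module

lemma Gr_Vd {ρ μ : ℝ} {w : E} (h : S.Gr ρ μ w) : S.Gr (ρ - 2) μ (S.Vd w) := by
  refine Gr.smul S _ (Gr.sum S _ _ fun x hx => ?_)
  have hne : x.1 ≠ x.2 := (Finset.mem_offDiag.mp hx).2.2
  have := Gr.Z S (ρ := ρ) (μ := μ) (Gr.nn S (Gr.nn S h x.2) x.1) hne (c := -2) ?_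
  · simpa [sub_eq_add_neg] using this
  · rw [τ_nn, S.τ_nn_comm, τ_nn, map_neg, S.nn_nn_comm x.1 x.2]
    module

lemma Gr_th {ρ μ : ℝ} {w : E} (h : S.Gr ρ μ w) {p q : P} (hpq : p ≠ q) :
    S.Gr ρ μ (S.Z p q (S.th p q w)) := by
  have h1 : S.Gr ρ μ (S.th p q w) := by
    constructor
    · rw [th, map_add, (Gr.mm S (Gr.nn S h q) p).1, (Gr.nn S (Gr.mm S h q) p).1, smul_add]
    · rw [th, map_add, (Gr.mm S (Gr.nn S h q) p).2, (Gr.nn S (Gr.mm S h q) p).2, smul_add]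
  have := Gr.Z S (c := 0) h1 hpq ?_
  · simpa using this
  · rw [th, map_add, map_add, τ_mm, τ_nn, S.τ_nn_comm q p, S.τ_mm_comm q p, τ_nn, τ_mm, map_neg]
    simp only [zero_smul]
    abel

lemma Gr_V0 {ρ μ : ℝ} {w : E} (h : S.Gr ρ μ w) : S.Gr ρ μ (S.V0 w) := by
  refine Gr.smul S _ (Gr.sum S _ _ fun x hx => ?_)
  exact S.Gr_th h (Finset.mem_offDiag.mp hx).2.2

/-- The Cauchy-Schwarz cancellation used for all three bounds. -/
lemma cs_cancel {ι : Type*} (s : Finset ι) (a b : ι → ℝ) {z c A B : ℝ} (hz : 0 ≤ z)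
    (hc : 0 ≤ c) (hA : 0 ≤ A) (hB : 0 ≤ B)
    (h : z ^ 2 ≤ c * ∑ i ∈ s, a i * b i)
    (ha : ∑ i ∈ s, a i ^ 2 ≤ A ^ 2 * z ^ 2) (hb : ∑ i ∈ s, b i ^ 2 ≤ B ^ 2) :
    z ≤ c * A * B := by
  have hcs := Finset.sum_mul_sq_le_sq_mul_sq s a b
  have hprod : (∑ i ∈ s, a i * b i) ^ 2 ≤ (A ^ 2 * z ^ 2) * B ^ 2 := by
    refine hcs.trans ?_
    exact mul_le_mul ha hb (Finset.sum_nonneg fun i _ => sq_nonneg _) (by positivity)
  have h4 : (z ^ 2) ^ 2 ≤ (c * ∑ i ∈ s, a i * b i) ^ 2 :=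
    pow_le_pow_left₀ (by positivity) h 2
  have h5 : (z ^ 2) * (z ^ 2) ≤ ((c * A * B) ^ 2) * (z ^ 2) := by
    have : (c * ∑ i ∈ s, a i * b i) ^ 2 ≤ c ^ 2 * ((A ^ 2 * z ^ 2) * B ^ 2) := by
      rw [mul_pow]
      exact mul_le_mul_of_nonneg_left hprod (by positivity)
    nlinarith
  by_cases hz0 : z = 0
  · rw [hz0]; positivity
  · have hpos : 0 < z ^ 2 := by positivity
    have h6 : z ^ 2 ≤ (c * A * B) ^ 2 := le_of_mul_le_mul_right h5 hpos
    exact abs_le_of_sq_le_sq' h6 (by positivity) |>.2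


lemma sum_offDiag_le (f : P × P → ℝ) (hf : ∀ x, 0 ≤ f x) :
    ∑ x ∈ (univ : Finset P).offDiag, f x ≤ ∑ p, ∑ q, f (p, q) := by
  have hsub : (univ : Finset P).offDiag ⊆ (univ : Finset P) ×ˢ (univ : Finset P) := by
    intro x hx
    have := Finset.mem_offDiag.mp hx
    exact Finset.mem_product.mpr ⟨this.1, this.2.1⟩
  calc ∑ x ∈ (univ : Finset P).offDiag, f x
      ≤ ∑ x ∈ (univ : Finset P) ×ˢ (univ : Finset P), f x :=
        Finset.sum_le_sum_of_subset_of_nonneg hsub fun x _ _ => hf x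
    _ = ∑ p, ∑ q, f (p, q) := Finset.sum_product _ _ _

lemma sum_nn_nn_sq {ρ : ℝ} {z : E} (h : S.Nt z = ρ • z) :
    ∑ p, ∑ q, ‖S.nn q (S.nn p z)‖ ^ 2 = ρ ^ 2 * ‖z‖ ^ 2 := by
  have h1 : ∀ p, ∑ q, ‖S.nn q (S.nn p z)‖ ^ 2 = ρ * ‖S.nn p z‖ ^ 2 := by
    intro p
    rw [S.sum_norm_nn_sq, Nt_comm_nn, h, map_smul, inner_smul_right, real_inner_self_eq_norm_sq]
  simp only [h1]
  rw [← Finset.mul_sum, S.sum_norm_nn_sq, h, inner_smul_right, real_inner_self_eq_norm_sq]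
  ring

lemma norm_Vu {ρ μ : ℝ} {w : E} (hρ : 0 ≤ ρ + 2) (hμ : 0 ≤ μ) (h : S.Gr ρ μ w) :
    ‖S.Vu w‖ ≤ (ρ + 2) * Real.sqrt μ * ‖w‖ := by
  have hzgr := S.Gr_Vu h
  obtain ⟨z, hz⟩ : ∃ z, z = S.Vu w := ⟨_, rfl⟩
  rw [← hz] at hzgr ⊢
  have h1 : ‖z‖ ^ 2 ≤ (1 / 4) * ∑ x ∈ (univ : Finset P).offDiag,
      ‖S.nn x.2 (S.nn x.1 z)‖ * ‖S.Z x.1 x.2 w‖ := by
    calc ‖z‖ ^ 2 = ⟪z, S.Vu w⟫ := by rw [← hz, real_inner_self_eq_norm_sq]
      _ = (1 / 4) * ∑ x ∈ (univ : Finset P).offDiag,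
            ⟪z, S.Z x.1 x.2 (S.mm x.1 (S.mm x.2 w))⟫ := by
          rw [Vu, inner_smul_right, inner_sum]
      _ ≤ _ := by
          refine mul_le_mul_of_nonneg_left ?_ (by norm_num)
          refine Finset.sum_le_sum fun x hx => ?_
          have hne : x.1 ≠ x.2 := (Finset.mem_offDiag.mp hx).2.2
          rw [S.Z_mm_left _ _ hne, S.Z_mm_right _ _ hne, ← S.inner_nn, ← S.inner_nn]
          exact real_inner_le_norm _ _
  have ha : ∑ x ∈ (univ : Finset P).offDiag, ‖S.nn x.2 (S.nn x.1 z)‖ ^ 2 ≤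
      (ρ + 2) ^ 2 * ‖z‖ ^ 2 := by
    rw [← S.sum_nn_nn_sq hzgr.1]
    exact sum_offDiag_le (fun x => ‖S.nn x.2 (S.nn x.1 z)‖ ^ 2) fun x => by positivity
  have hb : ∑ x ∈ (univ : Finset P).offDiag, ‖S.Z x.1 x.2 w‖ ^ 2 ≤
      (4 * Real.sqrt μ * ‖w‖) ^ 2 := by
    refine (S.energy w).trans (le_of_eq ?_)
    rw [h.2, inner_smul_right, real_inner_self_eq_norm_sq, mul_pow, mul_pow, Real.sq_sqrt hμ]
    ring
  have := cs_cancel _ (fun x : P × P => ‖S.nn x.2 (S.nn x.1 z)‖)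
    (fun x : P × P => ‖S.Z x.1 x.2 w‖) (norm_nonneg z) (by norm_num : (0 : ℝ) ≤ 1 / 4) hρ
    (by positivity) h1 ha hb
  calc ‖z‖ ≤ _ := this
    _ = _ := by ring

lemma adj_Vd (z w : E) : ⟪z, S.Vd w⟫ = ⟪S.Vu z, w⟫ := by
  simp only [Vd, Vu, inner_smul_right, inner_smul_left, inner_sum, sum_inner, conj_trivial]
  congr 1
  refine Finset.sum_congr rfl fun x hx => ?_
  have hne : x.1 ≠ x.2 := (Finset.mem_offDiag.mp hx).2.2
  rw [← S.Z_sym, S.Z_mm_left _ _ hne, S.Z_mm_right _ _ hne, S.inner_nn, S.inner_nn,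
    S.nn_nn_comm]

lemma norm_Vd {ρ μ : ℝ} {w : E} (hρ : 2 ≤ ρ) (hμ : 0 ≤ μ) (h : S.Gr ρ μ w) :
    ‖S.Vd w‖ ≤ ρ * Real.sqrt μ * ‖w‖ := by
  have hzgr := S.Gr_Vd h
  set z := S.Vd w with hz
  have h1 := S.norm_Vu (ρ := ρ - 2) (by linarith) hμ hzgr
  have h2 : ‖z‖ ^ 2 = ⟪S.Vu z, w⟫ := by
    rw [← adj_Vd, ← hz, real_inner_self_eq_norm_sq]
  have h3 : ‖z‖ ^ 2 ≤ (ρ * Real.sqrt μ * ‖z‖) * ‖w‖ := by
    rw [h2]
    refine (real_inner_le_norm _ _).trans ?_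
    refine mul_le_mul_of_nonneg_right ?_ (norm_nonneg _)
    calc ‖S.Vu z‖ ≤ _ := h1
      _ = _ := by ring
  by_cases hz0 : ‖z‖ = 0
  · rw [hz0]
    have : 0 ≤ ρ := by linarith
    positivity
  · have hpos : 0 < ‖z‖ := lt_of_le_of_ne (norm_nonneg _) (Ne.symm hz0)
    have : ‖z‖ * ‖z‖ ≤ (ρ * Real.sqrt μ * ‖w‖) * ‖z‖ := by nlinarith
    exact le_of_mul_le_mul_right this hpos

lemma Vd_zero_level {μ : ℝ} {w : E} (h : S.Gr 0 μ w) : S.Vd w = 0 := by
  have h0 : ∑ p, ‖S.nn p w‖ ^ 2 = 0 := by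
    rw [S.sum_norm_nn_sq, h.1]; simp
  have h1 : ∀ p, S.nn p w = 0 := by
    intro p
    have := (Finset.sum_eq_zero_iff_of_nonneg (fun p _ => sq_nonneg ‖S.nn p w‖)).mp h0 p
      (Finset.mem_univ _)
    simpa using this
  simp only [Vd]
  rw [Finset.sum_eq_zero, smul_zero]
  intro x _
  rw [S.nn_nn_comm, h1]
  simp

lemma th_inner_zero (p q : P) (w : E) : ⟪S.mm p (S.nn q w), S.nn p (S.mm q w)⟫ = 0 := by
  rw [← S.inner_nn, S.nn_mm]; simp

lemma norm_th_sq_le (p q : P) (w : E) : ‖S.th p q w‖ ^ 2 ≤ ‖S.nn q w‖ ^ 2 + ‖S.nn p w‖ ^ 2 := by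
  rw [th, norm_add_sq_real, th_inner_zero]
  have h1 := S.norm_mm_le p (S.nn q w)
  have h2 : ‖S.nn p (S.mm q w)‖ ≤ ‖S.nn p w‖ := by
    rw [S.nn_mm_comm]; exact S.norm_mm_le _ _
  have h3 := pow_le_pow_left₀ (norm_nonneg _) h1 2
  have h4 := pow_le_pow_left₀ (norm_nonneg _) h2 2
  linarith

lemma sum_th_sq {ρ : ℝ} {w : E} (hρ : 0 ≤ ρ) (h : S.Nt w = ρ • w) :
    ∑ x ∈ (univ : Finset P).offDiag, ‖S.th x.1 x.2 w‖ ^ 2 ≤
      (2 * (Fintype.card P : ℝ) * ρ) * ‖w‖ ^ 2 := by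
  have hsum : ∑ p, ‖S.nn p w‖ ^ 2 = ρ * ‖w‖ ^ 2 := by
    rw [S.sum_norm_nn_sq, h, inner_smul_right, real_inner_self_eq_norm_sq]
  calc ∑ x ∈ (univ : Finset P).offDiag, ‖S.th x.1 x.2 w‖ ^ 2
      ≤ ∑ x ∈ (univ : Finset P).offDiag, (‖S.nn x.2 w‖ ^ 2 + ‖S.nn x.1 w‖ ^ 2) :=
        Finset.sum_le_sum fun x _ => S.norm_th_sq_le _ _ _
    _ ≤ ∑ p, ∑ q, (‖S.nn q w‖ ^ 2 + ‖S.nn p w‖ ^ 2) :=
        sum_offDiag_le (fun x => ‖S.nn x.2 w‖ ^ 2 + ‖S.nn x.1 w‖ ^ 2) fun x => by positivity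
    _ = (2 * (Fintype.card P : ℝ) * ρ) * ‖w‖ ^ 2 := by
        simp only [Finset.sum_add_distrib, Finset.sum_const, Finset.card_univ, nsmul_eq_mul, hsum,
          ← Finset.mul_sum]
        ring

lemma Z_th (p q : P) (h : p ≠ q) (y : E) : S.Z p q (S.th p q y) = S.th p q (S.Z p q y) := by
  rw [th, th, map_add, S.Z_mm_left _ _ h, S.Z_nn_right _ _ h, S.Z_nn_left _ _ h,
    S.Z_mm_right _ _ h]
  abel

lemma th_th (p q : P) (w : E) : S.th p q (S.th p q w) = S.th p q w := by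
  have h1 : S.nn q (S.mm p (S.nn q w)) = S.mm p (S.nn q w) := by
    rw [← S.nn_mm_comm, S.nn_nn]
  have h2 : S.mm q (S.mm p (S.nn q w)) = 0 := by
    rw [S.mm_mm_comm, S.mm_nn, map_zero]
  have h3 : S.nn q (S.nn p (S.mm q w)) = 0 := by
    rw [S.nn_nn_comm, S.nn_mm, map_zero]
  have h4 : S.mm q (S.nn p (S.mm q w)) = S.nn p (S.mm q w) := by
    rw [← S.nn_mm_comm, S.mm_mm]
  simp only [th, map_add, h1, h2, h3, h4, map_zero, add_zero, zero_add, S.mm_mm, S.nn_nn]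

lemma inner_th (p q : P) (x y : E) : ⟪S.th p q x, y⟫ = ⟪x, S.th p q y⟫ := by
  simp only [th, inner_add_left, inner_add_right, S.inner_mm, S.inner_nn]
  rw [S.nn_mm_comm q p y, S.nn_mm_comm p q y]

lemma norm_V0 {ρ μ : ℝ} {w : E} (hρ : 0 ≤ ρ) (h : S.Gr ρ μ w) :
    ‖S.V0 w‖ ≤ (2 * (Fintype.card P : ℝ) * ρ) * ‖w‖ := by
  have hzgr := S.Gr_V0 h
  obtain ⟨z, hz⟩ : ∃ z, z = S.V0 w := ⟨_, rfl⟩
  rw [← hz] at hzgr ⊢
  have hM : 0 ≤ 2 * (Fintype.card P : ℝ) * ρ := by positivity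
  have h1 : ‖z‖ ^ 2 ≤ 1 * ∑ x ∈ (univ : Finset P).offDiag,
      ‖S.th x.1 x.2 z‖ * ‖S.th x.1 x.2 w‖ := by
    calc ‖z‖ ^ 2 = ⟪z, S.V0 w⟫ := by rw [← hz, real_inner_self_eq_norm_sq]
      _ = (1 / 4) * ∑ x ∈ (univ : Finset P).offDiag,
            ⟪z, S.Z x.1 x.2 (S.th x.1 x.2 w)⟫ := by
          rw [V0, inner_smul_right, inner_sum]
      _ ≤ (1 / 4) * ∑ x ∈ (univ : Finset P).offDiag,
            (4 * (‖S.th x.1 x.2 z‖ * ‖S.th x.1 x.2 w‖)) := by
          refine mul_le_mul_of_nonneg_left ?_ (by norm_num)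
          refine Finset.sum_le_sum fun x hx => ?_
          have hne : x.1 ≠ x.2 := (Finset.mem_offDiag.mp hx).2.2
          rw [← S.th_th x.1 x.2 w, S.Z_th _ _ hne, S.th_th, ← S.inner_th]
          refine (real_inner_le_norm _ _).trans ?_
          have := S.Z_norm x.1 x.2 (S.th x.1 x.2 w)
          nlinarith [norm_nonneg (S.th x.1 x.2 z), norm_nonneg (S.th x.1 x.2 w)]
      _ = _ := by
          rw [← Finset.mul_sum]; ring
  have ha : ∑ x ∈ (univ : Finset P).offDiag, ‖S.th x.1 x.2 z‖ ^ 2 ≤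
      (Real.sqrt (2 * (Fintype.card P : ℝ) * ρ)) ^ 2 * ‖z‖ ^ 2 := by
    rw [Real.sq_sqrt hM]
    exact S.sum_th_sq hρ hzgr.1
  have hb : ∑ x ∈ (univ : Finset P).offDiag, ‖S.th x.1 x.2 w‖ ^ 2 ≤
      (Real.sqrt (2 * (Fintype.card P : ℝ) * ρ) * ‖w‖) ^ 2 := by
    rw [mul_pow, Real.sq_sqrt hM]
    exact S.sum_th_sq hρ h.1
  have := cs_cancel _ (fun x : P × P => ‖S.th x.1 x.2 z‖)
    (fun x : P × P => ‖S.th x.1 x.2 w‖) (norm_nonneg z) (by norm_num : (0 : ℝ) ≤ 1)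
    (Real.sqrt_nonneg _) (by positivity) h1 ha hb
  calc ‖z‖ ≤ _ := this
    _ = _ := by
      have : Real.sqrt (2 * (Fintype.card P : ℝ) * ρ) * Real.sqrt (2 * (Fintype.card P : ℝ) * ρ) =
          2 * (Fintype.card P : ℝ) * ρ := Real.mul_self_sqrt hM
      rw [one_mul, ← mul_assoc, this]


lemma Vu_zero : S.Vu (0 : E) = 0 := by simp [Vu]
lemma Vd_zero : S.Vd (0 : E) = 0 := by simp [Vd]
lemma V0_zero : S.V0 (0 : E) = 0 := by simp [V0, th]

/-- Graded components of `G ^ k v`. -/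
noncomputable def gr (v : E) : ℕ → ℕ → E
  | 0, 0 => v
  | 0, _ + 1 => 0
  | k + 1, 0 => -S.V0 (gr v k 0) - S.Vd (gr v k 1)
  | k + 1, i + 1 => ((2 : ℝ) * ((i : ℝ) + 1)) • gr v k (i + 1) - S.V0 (gr v k (i + 1))
      - S.Vd (gr v k (i + 2)) - S.Vu (gr v k i)

lemma gr_graded {μ : ℝ} {v : E} (hv : S.Gr 0 μ v) :
    ∀ (k i : ℕ), S.Gr (2 * (i : ℝ)) μ (S.gr v k i) := by
  intro k
  induction k with
  | zero =>
    intro i
    cases i with
    | zero => simpa [gr] using hv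
    | succ i => simpa [gr] using Gr.zero S _ _
  | succ k ih =>
    intro i
    cases i with
    | zero =>
      have h1 := S.Gr_V0 (ih 0)
      have h2 := S.Gr_Vd (ih 1)
      have h3 : S.Gr 0 μ (S.V0 (S.gr v k 0)) := by simpa using h1
      have h4 : S.Gr 0 μ (S.Vd (S.gr v k 1)) := by
        have : (2 * (((1 : ℕ) : ℝ)) - 2 : ℝ) = 0 := by norm_num
        rwa [this] at h2
      have : -S.V0 (S.gr v k 0) - S.Vd (S.gr v k 1) =
          ((-1 : ℝ) • S.V0 (S.gr v k 0)) - S.Vd (S.gr v k 1) := by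
        simp
      simp only [gr]
      rw [this]
      simpa using Gr.sub S (Gr.smul S (-1) h3) h4
    | succ i =>
      have h1 := ih (i + 1)
      have h2 := S.Gr_V0 h1
      have h3 := S.Gr_Vd (ih (i + 2))
      have h4 := S.Gr_Vu (ih i)
      have e3 : (2 * (((i + 2 : ℕ) : ℝ)) - 2 : ℝ) = 2 * (((i + 1 : ℕ) : ℝ)) := by
        push_cast; ring
      have e4 : (2 * ((i : ℕ) : ℝ) + 2 : ℝ) = 2 * (((i + 1 : ℕ) : ℝ)) := by
        push_cast; ring
      rw [e3] at h3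
      rw [e4] at h4
      simp only [gr]
      exact Gr.sub S (Gr.sub S (Gr.sub S (Gr.smul S _ h1) h2) h3) h4

lemma gr_zero_of_lt (v : E) : ∀ k i, k < i → S.gr v k i = 0 := by
  intro k
  induction k with
  | zero =>
    intro i hi
    cases i with
    | zero => omega
    | succ i => simp [gr]
  | succ k ih =>
    intro i hi
    cases i with
    | zero => omega
    | succ i =>
      simp only [gr]
      rw [ih (i + 1) (by omega), ih (i + 2) (by omega), ih i (by omega), V0_zero, Vd_zero, Vu_zero]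
      simp

lemma Nt_sym (x y : E) : ⟪S.Nt x, y⟫ = ⟪x, S.Nt y⟫ := by
  simp only [Nt_apply, sum_inner, inner_sum, S.inner_nn]

lemma gr_sum {μ : ℝ} {v : E} (hv : S.Gr 0 μ v) :
    ∀ k, (S.Gop ^ k) v = ∑ i ∈ Finset.range (k + 1), S.gr v k i := by
  intro k
  induction k with
  | zero => simp [gr]
  | succ k ih =>
    rw [pow_succ', mul_apply_eq_comp, ih, map_sum]
    simp only [Gop_apply]
    have hN : ∀ i, S.Nt (S.gr v k i) = (2 * (i : ℝ)) • S.gr v k i := fun i =>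
      (S.gr_graded hv k i).1
    simp only [hN]
    simp only [Finset.sum_sub_distrib]
    -- right side
    rw [Finset.sum_range_succ' _ (k + 1)]
    have hstep : ∀ i, S.gr v (k + 1) (i + 1) = ((2 : ℝ) * ((i : ℝ) + 1)) • S.gr v k (i + 1)
        - S.V0 (S.gr v k (i + 1)) - S.Vd (S.gr v k (i + 2)) - S.Vu (S.gr v k i) := fun i => rfl
    simp only [hstep, Finset.sum_sub_distrib]
    have h0 : S.gr v (k + 1) 0 = -S.V0 (S.gr v k 0) - S.Vd (S.gr v k 1) := rfl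
    rw [h0]
    have hk1 : S.gr v k (k + 1) = 0 := S.gr_zero_of_lt v k (k + 1) (by omega)
    have hk2 : S.gr v k (k + 2) = 0 := S.gr_zero_of_lt v k (k + 2) (by omega)
    -- first sum
    have e1 : ∑ i ∈ Finset.range (k + 1), ((2 : ℝ) * ((i : ℝ) + 1)) • S.gr v k (i + 1) =
        ∑ i ∈ Finset.range (k + 1), (2 * (i : ℝ)) • S.gr v k i := by
      have := Finset.sum_range_succ' (fun i => (2 * (i : ℝ)) • S.gr v k i) (k + 1)
      rw [Finset.sum_range_succ, hk1] at this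
      simp only [smul_zero, add_zero, Nat.cast_zero, mul_zero, zero_smul, Nat.cast_add,
        Nat.cast_one] at this
      exact this.symm
    -- the V0 sum
    have e2 : ∑ i ∈ Finset.range (k + 1), S.V0 (S.gr v k (i + 1)) + S.V0 (S.gr v k 0) =
        ∑ i ∈ Finset.range (k + 1), S.V0 (S.gr v k i) := by
      have := Finset.sum_range_succ' (fun i => S.V0 (S.gr v k i)) (k + 1)
      rw [Finset.sum_range_succ, hk1, V0_zero, add_zero] at this
      exact this.symm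
    -- the Vd sum
    have hd0 : S.Vd (S.gr v k 0) = 0 := by
      apply Vd_zero_level (μ := μ)
      simpa using S.gr_graded hv k 0
    have e3 : ∑ i ∈ Finset.range (k + 1), S.Vd (S.gr v k (i + 2)) + S.Vd (S.gr v k 1) =
        ∑ i ∈ Finset.range (k + 1), S.Vd (S.gr v k i) := by
      have h1 := Finset.sum_range_succ' (fun i => S.Vd (S.gr v k (i + 1))) (k + 1)
      rw [Finset.sum_range_succ, hk2, Vd_zero, add_zero] at h1
      have h2 := Finset.sum_range_succ' (fun i => S.Vd (S.gr v k i)) (k + 1)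
      rw [Finset.sum_range_succ, hk1, Vd_zero, add_zero, hd0, add_zero] at h2
      simp only [zero_add] at h1
      rw [h2]
      exact h1.symm
    rw [e1, ← e2, ← e3]
    abel

/-- The majorant sequence. -/
noncomputable def Jm (δ γ : ℝ) : ℕ → ℕ → ℝ
  | 0, 0 => 1
  | 0, _ + 1 => 0
  | k + 1, 0 => γ * Jm δ γ k 1
  | k + 1, i + 1 => δ * ((i : ℝ) + 1) * Jm δ γ k (i + 1) + γ * ((i : ℝ) + 1) * Jm δ γ k i
      + γ * ((i : ℝ) + 2) * Jm δ γ k (i + 2)

lemma gr_norm_le {μ : ℝ} (hμ : 0 ≤ μ) {v : E} (hv : S.Gr 0 μ v) :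
    ∀ k i, ‖S.gr v k i‖ ≤
      Jm (4 * (Fintype.card P : ℝ) + 2) (2 * Real.sqrt μ) k i * ‖v‖ := by
  intro k
  induction k with
  | zero =>
    intro i
    cases i with
    | zero => simp [gr, Jm]
    | succ i => simp [gr, Jm]
  | succ k ih =>
    intro i
    have hm : (0 : ℝ) ≤ Fintype.card P := by positivity
    have hsq := Real.sqrt_nonneg μ
    cases i with
    | zero =>
      simp only [gr, Jm]
      have h1 : ‖S.V0 (S.gr v k 0)‖ = 0 := by
        have := S.norm_V0 (ρ := 0) le_rfl (by simpa using S.gr_graded hv k 0 :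
          S.Gr 0 μ (S.gr v k 0))
        simp only [mul_zero, zero_mul] at this
        exact le_antisymm this (norm_nonneg _)
      have h2 : ‖S.Vd (S.gr v k 1)‖ ≤ 2 * Real.sqrt μ * ‖S.gr v k 1‖ := by
        have := S.norm_Vd (ρ := 2) le_rfl hμ (by simpa using S.gr_graded hv k 1 :
          S.Gr 2 μ (S.gr v k 1))
        simpa using this
      have h3 := ih 1
      calc ‖-S.V0 (S.gr v k 0) - S.Vd (S.gr v k 1)‖
          ≤ ‖-S.V0 (S.gr v k 0)‖ + ‖S.Vd (S.gr v k 1)‖ := norm_sub_le _ _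
        _ ≤ 2 * Real.sqrt μ * (Jm (4 * (Fintype.card P : ℝ) + 2) (2 * Real.sqrt μ) k 1 * ‖v‖) := by
            rw [norm_neg, h1, zero_add]
            refine h2.trans (mul_le_mul_of_nonneg_left h3 (by positivity))
        _ = _ := by ring
    | succ i =>
      simp only [gr, Jm]
      have hi : (0 : ℝ) ≤ i := by positivity
      have hw1 : S.Gr (2 * ((i : ℝ) + 1)) μ (S.gr v k (i + 1)) := by
        simpa using S.gr_graded hv k (i + 1)
      have hw2 : S.Gr (2 * ((i : ℝ) + 2)) μ (S.gr v k (i + 2)) := by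
        have := S.gr_graded hv k (i + 2)
        push_cast at this
        exact this
      have hw0 := S.gr_graded hv k i
      have b1 : ‖S.V0 (S.gr v k (i + 1))‖ ≤
          (2 * (Fintype.card P : ℝ) * (2 * ((i : ℝ) + 1))) * ‖S.gr v k (i + 1)‖ :=
        S.norm_V0 (by positivity) hw1
      have b2 : ‖S.Vd (S.gr v k (i + 2))‖ ≤
          (2 * ((i : ℝ) + 2)) * Real.sqrt μ * ‖S.gr v k (i + 2)‖ :=
        S.norm_Vd (by linarith) hμ hw2
      have b3 : ‖S.Vu (S.gr v k i)‖ ≤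
          (2 * (i : ℝ) + 2) * Real.sqrt μ * ‖S.gr v k i‖ :=
        S.norm_Vu (by positivity) hμ hw0
      have b4 : ‖((2 : ℝ) * ((i : ℝ) + 1)) • S.gr v k (i + 1)‖ =
          (2 * ((i : ℝ) + 1)) * ‖S.gr v k (i + 1)‖ := by
        rw [norm_smul, Real.norm_eq_abs, abs_of_nonneg (by positivity)]
      have t1 := norm_sub_le (((2 : ℝ) * ((i : ℝ) + 1)) • S.gr v k (i + 1) -
        S.V0 (S.gr v k (i + 1)) - S.Vd (S.gr v k (i + 2))) (S.Vu (S.gr v k i))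
      have t2 := norm_sub_le (((2 : ℝ) * ((i : ℝ) + 1)) • S.gr v k (i + 1) -
        S.V0 (S.gr v k (i + 1))) (S.Vd (S.gr v k (i + 2)))
      have t3 := norm_sub_le (((2 : ℝ) * ((i : ℝ) + 1)) • S.gr v k (i + 1))
        (S.V0 (S.gr v k (i + 1)))
      have i1 := ih (i + 1)
      have i2 := ih (i + 2)
      have i0 := ih i
      set J := Jm (4 * (Fintype.card P : ℝ) + 2) (2 * Real.sqrt μ) k with hJ
      have c1 : (2 * ((i : ℝ) + 1)) * (1 + 2 * (Fintype.card P : ℝ)) * ‖S.gr v k (i + 1)‖ ≤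
          (2 * ((i : ℝ) + 1)) * (1 + 2 * (Fintype.card P : ℝ)) * (J (i + 1) * ‖v‖) :=
        mul_le_mul_of_nonneg_left i1 (by positivity)
      have c2 : (2 * ((i : ℝ) + 2)) * Real.sqrt μ * ‖S.gr v k (i + 2)‖ ≤
          (2 * ((i : ℝ) + 2)) * Real.sqrt μ * (J (i + 2) * ‖v‖) :=
        mul_le_mul_of_nonneg_left i2 (by positivity)
      have c3 : (2 * (i : ℝ) + 2) * Real.sqrt μ * ‖S.gr v k i‖ ≤
          (2 * (i : ℝ) + 2) * Real.sqrt μ * (J i * ‖v‖) :=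
        mul_le_mul_of_nonneg_left i0 (by positivity)
      have : ‖((2 : ℝ) * ((i : ℝ) + 1)) • S.gr v k (i + 1) - S.V0 (S.gr v k (i + 1))
          - S.Vd (S.gr v k (i + 2)) - S.Vu (S.gr v k i)‖ ≤
          (2 * ((i : ℝ) + 1)) * (1 + 2 * (Fintype.card P : ℝ)) * ‖S.gr v k (i + 1)‖ +
          (2 * ((i : ℝ) + 2)) * Real.sqrt μ * ‖S.gr v k (i + 2)‖ +
          (2 * (i : ℝ) + 2) * Real.sqrt μ * ‖S.gr v k i‖ := by
        nlinarith
      refine this.trans ?_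
      calc _ ≤ (2 * ((i : ℝ) + 1)) * (1 + 2 * (Fintype.card P : ℝ)) * (J (i + 1) * ‖v‖) +
            (2 * ((i : ℝ) + 2)) * Real.sqrt μ * (J (i + 2) * ‖v‖) +
            (2 * (i : ℝ) + 2) * Real.sqrt μ * (J i * ‖v‖) := by linarith
        _ = _ := by ring

lemma inner_G_pow {μ : ℝ} {v : E} (hv : S.Gr 0 μ v) (k : ℕ) :
    ⟪v, (S.Gop ^ k) v⟫ = ⟪v, S.gr v k 0⟫ := by
  rw [S.gr_sum hv, inner_sum, Finset.sum_range_succ']
  have : ∀ i, ⟪v, S.gr v k (i + 1)⟫ = 0 := by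
    intro i
    have h1 := (S.gr_graded hv k (i + 1)).1
    have h2 : ⟪v, S.Nt (S.gr v k (i + 1))⟫ = 0 := by
      rw [← Nt_sym, hv.1]; simp
    rw [h1, inner_smul_right] at h2
    have h3 : (2 * (((i + 1 : ℕ) : ℝ))) ≠ 0 := by positivity
    exact (mul_eq_zero.mp h2).resolve_left h3
  simp [this]

end Sys

end Vale.Agent.P162
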