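import Vale.Agent.P162.Core1

/-!
The majorant comparison and the exponential bound.
-/

open scoped RealInnerProductSpace
open Finset

namespace Vale.Agent.P162

/-- Partial exponential sums of the majorant. -/
noncomputable def FK (δ γ : ℝ) (K i : ℕ) (t : ℝ) : ℝ :=
  ∑ k ∈ Finset.range (K + 1), t ^ k / (k.factorial : ℝ) * Sys.Jm δ γ k i

/-- The supersolution. -/
noncomputable def YY (γ : ℝ) (i : ℕ) (t : ℝ) : ℝ :=
  (2 * γ * t) ^ i * Real.exp (4 * γ ^ 2 * t ^ 2)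

lemma hasDerivAt_FK (δ γ : ℝ) (K i : ℕ) (t : ℝ) :
    HasDerivAt (FK δ γ (K + 1) i)
      (∑ k ∈ Finset.range (K + 1), t ^ k / (k.factorial : ℝ) * Sys.Jm δ γ (k + 1) i) t := by
  have h : ∀ k ∈ Finset.range (K + 1 + 1), HasDerivAt
      (fun t : ℝ => t ^ k / (k.factorial : ℝ) * Sys.Jm δ γ k i)
      ((k : ℝ) * t ^ (k - 1) / (k.factorial : ℝ) * Sys.Jm δ γ k i) t := by
    intro k _
    have := ((hasDerivAt_pow k t).div_const (k.factorial : ℝ)).mul_const (Sys.Jm δ γ k i)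
    simpa using this
  have h2 := HasDerivAt.fun_sum h
  have e : (fun t => FK δ γ (K + 1) i t) =
      fun t => ∑ k ∈ Finset.range (K + 1 + 1), t ^ k / (k.factorial : ℝ) * Sys.Jm δ γ k i := rfl
  have e2 : ∑ k ∈ Finset.range (K + 1 + 1),
      ((k : ℝ) * t ^ (k - 1) / (k.factorial : ℝ) * Sys.Jm δ γ k i) =
      ∑ k ∈ Finset.range (K + 1), t ^ k / (k.factorial : ℝ) * Sys.Jm δ γ (k + 1) i := by
    rw [Finset.sum_range_succ']
    simp only [Nat.cast_zero, zero_mul, zero_div, add_zero]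
    refine Finset.sum_congr rfl fun k _ => ?_
    have hk : ((k + 1).factorial : ℝ) = (k + 1) * (k.factorial : ℝ) := by
      rw [Nat.factorial_succ]; push_cast; ring
    have hk0 : (k.factorial : ℝ) ≠ 0 := by positivity
    have hk1 : ((k : ℝ) + 1) ≠ 0 := by positivity
    simp only [Nat.add_sub_cancel, Nat.cast_add, Nat.cast_one]
    rw [hk]
    field_simp
  rw [e2] at h2
  exact h2

lemma FK_rec_zero (δ γ : ℝ) (K : ℕ) (t : ℝ) :
    ∑ k ∈ Finset.range (K + 1), t ^ k / (k.factorial : ℝ) * Sys.Jm δ γ (k + 1) 0 =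
      γ * FK δ γ K 1 t := by
  simp only [FK, Sys.Jm, Finset.mul_sum]
  refine Finset.sum_congr rfl fun k _ => ?_
  ring

lemma FK_rec_succ (δ γ : ℝ) (K i : ℕ) (t : ℝ) :
    ∑ k ∈ Finset.range (K + 1), t ^ k / (k.factorial : ℝ) * Sys.Jm δ γ (k + 1) (i + 1) =
      δ * ((i : ℝ) + 1) * FK δ γ K (i + 1) t + γ * ((i : ℝ) + 1) * FK δ γ K i t
        + γ * ((i : ℝ) + 2) * FK δ γ K (i + 2) t := by
  simp only [FK, Sys.Jm, Finset.mul_sum, ← Finset.sum_add_distrib]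
  refine Finset.sum_congr rfl fun k _ => ?_
  ring

lemma hasDerivAt_E (γ t : ℝ) :
    HasDerivAt (fun t : ℝ => Real.exp (4 * γ ^ 2 * t ^ 2))
      (Real.exp (4 * γ ^ 2 * t ^ 2) * (8 * γ ^ 2 * t)) t := by
  have h1 : HasDerivAt (fun t : ℝ => 4 * γ ^ 2 * t ^ 2) (8 * γ ^ 2 * t) t := by
    have := (hasDerivAt_pow 2 t).const_mul (4 * γ ^ 2)
    refine this.congr_deriv ?_
    simp only [Nat.cast_ofNat, Nat.add_one_sub_one, pow_one]
    ring
  exact h1.exp

lemma hasDerivAt_YY_zero (γ t : ℝ) :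
    HasDerivAt (YY γ 0) (Real.exp (4 * γ ^ 2 * t ^ 2) * (8 * γ ^ 2 * t)) t := by
  have e : YY γ 0 = fun t : ℝ => Real.exp (4 * γ ^ 2 * t ^ 2) := by
    funext r; simp [YY]
  rw [e]
  exact hasDerivAt_E γ t

lemma hasDerivAt_YY_succ (γ t : ℝ) (i : ℕ) :
    HasDerivAt (YY γ (i + 1))
      (((i : ℝ) + 1) * (2 * γ * t) ^ i * (2 * γ) * Real.exp (4 * γ ^ 2 * t ^ 2) +
        (2 * γ * t) ^ (i + 1) * (Real.exp (4 * γ ^ 2 * t ^ 2) * (8 * γ ^ 2 * t))) t := by
  have h1 : HasDerivAt (fun t : ℝ => 2 * γ * t) (2 * γ) t := by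
    simpa using (hasDerivAt_id t).const_mul (2 * γ)
  have h2 := h1.pow (i + 1)
  have h3 := h2.mul (hasDerivAt_E γ t)
  have e : YY γ (i + 1) =
      ((fun t : ℝ => 2 * γ * t) ^ (i + 1)) * fun t : ℝ => Real.exp (4 * γ ^ 2 * t ^ 2) := by
    funext r; simp [YY]
  rw [e]
  refine h3.congr_deriv ?_
  simp only [Nat.cast_add, Nat.cast_one, Nat.add_sub_cancel, Pi.pow_apply]

lemma YY_zero_at_zero (γ : ℝ) : YY γ 0 0 = 1 := by simp [YY]
lemma YY_succ_at_zero (γ : ℝ) (i : ℕ) : YY γ (i + 1) 0 = 0 := by simp [YY]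

lemma super_zero {γ t : ℝ} (ht : 0 ≤ t) :
    γ * YY γ 1 t ≤ Real.exp (4 * γ ^ 2 * t ^ 2) * (8 * γ ^ 2 * t) := by
  have hE := Real.exp_pos (4 * γ ^ 2 * t ^ 2)
  have : γ * YY γ 1 t = Real.exp (4 * γ ^ 2 * t ^ 2) * (2 * γ ^ 2 * t) := by
    simp only [YY]; ring
  rw [this]
  refine mul_le_mul_of_nonneg_left ?_ hE.le
  nlinarith [mul_nonneg (sq_nonneg γ) ht]

lemma super_succ {δ γ t : ℝ} (hγ : 0 ≤ γ) (ht : 0 ≤ t)
    (h : 2 * δ * t + 4 * γ ^ 2 * t ^ 2 ≤ 1) (i : ℕ) :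
    δ * ((i : ℝ) + 1) * YY γ (i + 1) t + γ * ((i : ℝ) + 1) * YY γ i t
        + γ * ((i : ℝ) + 2) * YY γ (i + 2) t ≤
      ((i : ℝ) + 1) * (2 * γ * t) ^ i * (2 * γ) * Real.exp (4 * γ ^ 2 * t ^ 2) +
        (2 * γ * t) ^ (i + 1) * (Real.exp (4 * γ ^ 2 * t ^ 2) * (8 * γ ^ 2 * t)) := by
  have hE := Real.exp_pos (4 * γ ^ 2 * t ^ 2)
  set E := Real.exp (4 * γ ^ 2 * t ^ 2) with hEdef
  set x := 2 * γ * t with hx
  have hx0 : 0 ≤ x := by positivity
  have hi : (0 : ℝ) ≤ i := by positivity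
  have key : δ * ((i : ℝ) + 1) * x + γ * ((i : ℝ) + 1) + γ * ((i : ℝ) + 2) * x ^ 2 ≤
      ((i : ℝ) + 1) * (2 * γ) + x * (8 * γ ^ 2 * t) := by
    have e1 : x * (8 * γ ^ 2 * t) = 4 * γ * x ^ 2 := by rw [hx]; ring
    have e2 : γ * (1 - x ^ 2) - δ * x = γ * (1 - (2 * δ * t + 4 * γ ^ 2 * t ^ 2)) := by
      rw [hx]; ring
    have e3 : 0 ≤ γ * (1 - x ^ 2) - δ * x := by
      rw [e2]; exact mul_nonneg hγ (by linarith)
    rw [e1]
    have e4 : 0 ≤ ((i : ℝ) + 1) * (γ * (1 - x ^ 2) - δ * x) := by positivity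
    have e5 : 0 ≤ 3 * γ * x ^ 2 := by positivity
    nlinarith
  have hp : 0 ≤ x ^ i * E := by positivity
  have := mul_le_mul_of_nonneg_left key hp
  simp only [YY]
  rw [← hx, ← hEdef]
  calc _ = x ^ i * E * (δ * ((i : ℝ) + 1) * x + γ * ((i : ℝ) + 1) + γ * ((i : ℝ) + 2) * x ^ 2) := by
        ring
    _ ≤ _ := this
    _ = _ := by ring

lemma FK_le_YY {δ γ s : ℝ} (hδ : 0 ≤ δ) (hγ : 0 ≤ γ) (hs : 0 ≤ s)
    (h : 2 * δ * s + 4 * γ ^ 2 * s ^ 2 ≤ 1) :
    ∀ (K i : ℕ), ∀ t ∈ Set.Icc 0 s, FK δ γ K i t ≤ YY γ i t := by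
  have hpt : ∀ t ∈ Set.Icc 0 s, 2 * δ * t + 4 * γ ^ 2 * t ^ 2 ≤ 1 := by
    intro t ht
    have h1 : 2 * δ * t ≤ 2 * δ * s := mul_le_mul_of_nonneg_left ht.2 (by positivity)
    have h2 : t ^ 2 ≤ s ^ 2 := pow_le_pow_left₀ ht.1 ht.2 2
    have h3 : 4 * γ ^ 2 * t ^ 2 ≤ 4 * γ ^ 2 * s ^ 2 :=
      mul_le_mul_of_nonneg_left h2 (by positivity)
    linarith
  intro K
  induction K with
  | zero =>
    intro i t ht
    have hF : FK δ γ 0 i t = Sys.Jm δ γ 0 i := by simp [FK]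
    rw [hF]
    have ht0 := ht.1
    cases i with
    | zero =>
      simp only [Sys.Jm, YY, pow_zero, one_mul]
      exact Real.one_le_exp (by positivity)
    | succ i =>
      simp only [Sys.Jm, YY]
      positivity
  | succ K ih =>
    intro i t ht
    -- the derivative comparison
    cases i with
    | zero =>
      have hd : ∀ r, HasDerivAt (fun t => YY γ 0 t - FK δ γ (K + 1) 0 t)
          (Real.exp (4 * γ ^ 2 * r ^ 2) * (8 * γ ^ 2 * r) - γ * FK δ γ K 1 r) r := by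
        intro r
        have h1 := hasDerivAt_YY_zero γ r
        have h2 := hasDerivAt_FK δ γ K 0 r
        rw [FK_rec_zero] at h2
        exact h1.sub h2
      have hmono : MonotoneOn (fun t => YY γ 0 t - FK δ γ (K + 1) 0 t) (Set.Icc 0 s) := by
        refine monotoneOn_of_deriv_nonneg (convex_Icc 0 s)
          (fun r _ => (hd r).continuousAt.continuousWithinAt)
          (fun r _ => (hd r).differentiableAt.differentiableWithinAt) ?_
        intro r hr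
        rw [interior_Icc] at hr
        have hr' : r ∈ Set.Icc 0 s := ⟨hr.1.le, hr.2.le⟩
        rw [(hd r).deriv]
        have h1 := ih 1 r hr'
        have h2 := super_zero (γ := γ) hr'.1
        have h3 : γ * FK δ γ K 1 r ≤ γ * YY γ 1 r := mul_le_mul_of_nonneg_left h1 hγ
        linarith
      have h0 := hmono ⟨le_rfl, hs⟩ ht ht.1
      have hz : YY γ 0 0 - FK δ γ (K + 1) 0 0 = 0 := by
        rw [YY_zero_at_zero]
        simp only [FK]
        rw [Finset.sum_range_succ']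
        simp [Sys.Jm]
      simp only at h0
      linarith
    | succ i =>
      have hd : ∀ r, HasDerivAt (fun t => YY γ (i + 1) t - FK δ γ (K + 1) (i + 1) t)
          ((((i : ℝ) + 1) * (2 * γ * r) ^ i * (2 * γ) * Real.exp (4 * γ ^ 2 * r ^ 2) +
            (2 * γ * r) ^ (i + 1) * (Real.exp (4 * γ ^ 2 * r ^ 2) * (8 * γ ^ 2 * r))) -
            (δ * ((i : ℝ) + 1) * FK δ γ K (i + 1) r + γ * ((i : ℝ) + 1) * FK δ γ K i r
              + γ * ((i : ℝ) + 2) * FK δ γ K (i + 2) r)) r := by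
        intro r
        have h1 := hasDerivAt_YY_succ γ r i
        have h2 := hasDerivAt_FK δ γ K (i + 1) r
        rw [FK_rec_succ] at h2
        exact h1.sub h2
      have hmono : MonotoneOn (fun t => YY γ (i + 1) t - FK δ γ (K + 1) (i + 1) t)
          (Set.Icc 0 s) := by
        refine monotoneOn_of_deriv_nonneg (convex_Icc 0 s)
          (fun r _ => (hd r).continuousAt.continuousWithinAt)
          (fun r _ => (hd r).differentiableAt.differentiableWithinAt) ?_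
        intro r hr
        rw [interior_Icc] at hr
        have hr' : r ∈ Set.Icc 0 s := ⟨hr.1.le, hr.2.le⟩
        rw [(hd r).deriv]
        have h2 := super_succ hγ hr'.1 (hpt r hr') i
        have hi : (0 : ℝ) ≤ i := by positivity
        have h3 := mul_le_mul_of_nonneg_left (ih (i + 1) r hr')
          (by positivity : 0 ≤ δ * ((i : ℝ) + 1))
        have h4 := mul_le_mul_of_nonneg_left (ih i r hr')
          (by positivity : 0 ≤ γ * ((i : ℝ) + 1))
        have h5 := mul_le_mul_of_nonneg_left (ih (i + 2) r hr')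
          (by positivity : 0 ≤ γ * ((i : ℝ) + 2))
        linarith
      have h0 := hmono ⟨le_rfl, hs⟩ ht ht.1
      have hz : YY γ (i + 1) 0 - FK δ γ (K + 1) (i + 1) 0 = 0 := by
        rw [YY_succ_at_zero]
        simp only [FK]
        rw [Finset.sum_range_succ']
        simp [Sys.Jm]
      simp only at h0
      linarith

variable {P E : Type*} [Fintype P] [DecidableEq P] [NormedAddCommGroup E]
  [InnerProductSpace ℝ E] [CompleteSpace E] (S : Sys P E)

/-- **Lemma M.** The heart of the argument: the exponential of `G` on a `τ`-invariant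
eigenvector of `D` has a Gaussian bound. -/
theorem Sys.lemmaM {μ s : ℝ} {v : E} (hμ : 0 ≤ μ) (hs : 0 ≤ s)
    (hτ : ∀ p, S.τ p v = v) (hD : S.D v = μ • v)
    (hcond : (8 * (Fintype.card P : ℝ) + 4) * s + 16 * μ * s ^ 2 ≤ 1) :
    ⟪v, NormedSpace.exp (s • S.Gop) v⟫ ≤ Real.exp (16 * μ * s ^ 2) * ‖v‖ ^ 2 := by
  have hv : S.Gr 0 μ v := by
    constructor
    · rw [S.Nt_apply, zero_smul]
      refine Finset.sum_eq_zero fun p _ => ?_
      rw [S.nn_apply, hτ]; simp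
    · exact hD
  set δ : ℝ := 4 * (Fintype.card P : ℝ) + 2 with hδ
  set γ : ℝ := 2 * Real.sqrt μ with hγ
  have hδ0 : 0 ≤ δ := by positivity
  have hγ0 : 0 ≤ γ := by positivity
  have hγ2 : 4 * γ ^ 2 = 16 * μ := by
    rw [hγ, mul_pow, Real.sq_sqrt hμ]; ring
  have hc : 2 * δ * s + 4 * γ ^ 2 * s ^ 2 ≤ 1 := by
    rw [hγ2, hδ]; linarith
  -- the functional
  let φ : (E →L[ℝ] E) →L[ℝ] ℝ := (innerSL ℝ v).comp (ContinuousLinearMap.apply ℝ E v)
  have hφ : ∀ X, φ X = ⟪v, X v⟫ := fun X => rfl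
  have hsum := φ.hasSum (NormedSpace.exp_series_hasSum_exp' (𝕂 := ℝ) (s • S.Gop))
  have hterm : ∀ k : ℕ, φ ((k.factorial⁻¹ : ℝ) • (s • S.Gop) ^ k) =
      s ^ k / (k.factorial : ℝ) * ⟪v, S.gr v k 0⟫ := by
    intro k
    rw [hφ, smul_pow]
    simp only [smul_apply, inner_smul_right, S.inner_G_pow hv k]
    field_simp
  have hpart : ∀ K : ℕ, ∑ k ∈ Finset.range (K + 1),
      φ ((k.factorial⁻¹ : ℝ) • (s • S.Gop) ^ k) ≤ Real.exp (16 * μ * s ^ 2) * ‖v‖ ^ 2 := by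
    intro K
    calc ∑ k ∈ Finset.range (K + 1), φ ((k.factorial⁻¹ : ℝ) • (s • S.Gop) ^ k)
        ≤ ∑ k ∈ Finset.range (K + 1), s ^ k / (k.factorial : ℝ) * (Sys.Jm δ γ k 0 * ‖v‖ ^ 2) := by
          refine Finset.sum_le_sum fun k _ => ?_
          rw [hterm]
          refine mul_le_mul_of_nonneg_left ?_ (by positivity)
          have h1 := real_inner_le_norm v (S.gr v k 0)
          have h2 := S.gr_norm_le hμ hv k 0
          calc ⟪v, S.gr v k 0⟫ ≤ ‖v‖ * ‖S.gr v k 0‖ := h1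
            _ ≤ ‖v‖ * (Sys.Jm δ γ k 0 * ‖v‖) := mul_le_mul_of_nonneg_left h2 (norm_nonneg _)
            _ = _ := by ring
      _ = FK δ γ K 0 s * ‖v‖ ^ 2 := by
          simp only [FK, Finset.sum_mul]
          refine Finset.sum_congr rfl fun k _ => ?_
          ring
      _ ≤ YY γ 0 s * ‖v‖ ^ 2 :=
          mul_le_mul_of_nonneg_right (FK_le_YY hδ0 hγ0 hs hc K 0 s ⟨hs, le_rfl⟩) (by positivity)
      _ = _ := by
          simp only [YY, pow_zero, one_mul, hγ2]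
  have hlim := hsum.tendsto_sum_nat
  have h1 : Filter.Tendsto (fun K => ∑ k ∈ Finset.range (K + 1),
      φ ((k.factorial⁻¹ : ℝ) • (s • S.Gop) ^ k)) Filter.atTop
      (nhds (φ (NormedSpace.exp (s • S.Gop)))) := hlim.comp (Filter.tendsto_add_atTop_nat 1)
  rw [← hφ]
  exact le_of_tendsto' h1 hpart

end Vale.Agent.P162
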