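import Vale.Agent.P162.Heat

/-!
The regular representation and the L2 estimate at the identity.
-/

open scoped RealInnerProductSpace
open Finset Equiv

namespace Vale.Agent.P162

set_option linter.unusedSectionVars false

variable {I : Type*} [Fintype I] [DecidableEq I]

/-- Functions on the permutation group with the Euclidean norm. -/
abbrev GS (I : Type*) [Fintype I] [DecidableEq I] := EuclideanSpace ℝ (Perm I)

/-- Translation of functions along a bijection of the group. -/
noncomputable def translate (e : Perm I ≃ Perm I) : GS I →L[ℝ] GS I :=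
  ((LinearIsometryEquiv.piLpCongrLeft 2 ℝ ℝ e).toContinuousLinearEquiv : GS I →L[ℝ] GS I)

lemma translate_apply (e : Perm I ≃ Perm I) (f : GS I) (h : Perm I) :
    translate e f h = f (e.symm h) := by
  simp [translate]

lemma norm_translate (e : Perm I ≃ Perm I) (f : GS I) : ‖translate e f‖ = ‖f‖ :=
  (LinearIsometryEquiv.piLpCongrLeft 2 ℝ ℝ e).norm_map f

lemma inner_translate (e : Perm I ≃ Perm I) (x y : GS I) :
    ⟪translate e x, y⟫ = ⟪x, translate e.symm y⟫ := by
  simp only [PiLp.inner_apply, translate_apply]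
  rw [← Equiv.sum_comp e]
  simp

lemma translate_mulLeft (g : Perm I) (f : GS I) (h : Perm I) :
    translate (Equiv.mulLeft g) f h = f (g⁻¹ * h) := by
  rw [translate_apply]; rfl

/-- The left regular representation. -/
noncomputable def regRep (I : Type*) [Fintype I] [DecidableEq I] : ORep I (GS I) where
  ρ :=
    { toFun := fun g => translate (Equiv.mulLeft g)
      map_one' := by
        ext f h
        rw [translate_mulLeft]
        simp
      map_mul' := by
        intro g g'
        ext f h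
        show translate (Equiv.mulLeft (g * g')) f h = translate (Equiv.mulLeft g)
          (translate (Equiv.mulLeft g') f) h
        rw [translate_mulLeft, translate_mulLeft, translate_mulLeft, mul_inv_rev, mul_assoc] }
  adj := by
    intro g x y
    show ⟪translate (Equiv.mulLeft g) x, y⟫ = ⟪x, translate (Equiv.mulLeft g⁻¹) y⟫
    rw [inner_translate]
    congr 2

lemma regRep_apply (g : Perm I) (f : GS I) (h : Perm I) :
    (regRep I).ρ g f h = f (g⁻¹ * h) := by
  exact translate_mulLeft g f h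

/-- Right translation. -/
noncomputable def rgt (g : Perm I) : GS I →L[ℝ] GS I := translate (Equiv.mulRight g⁻¹)

lemma rgt_apply (g : Perm I) (f : GS I) (h : Perm I) : rgt g f h = f (h * g) := by
  simp [rgt, translate_apply]

lemma inner_rgt (g : Perm I) (x y : GS I) : ⟪rgt g x, y⟫ = ⟪x, rgt g⁻¹ y⟫ := by
  rw [rgt, inner_translate, rgt]
  congr 2

lemma norm_rgt (g : Perm I) (f : GS I) : ‖rgt g f‖ = ‖f‖ := norm_translate _ _

lemma regRep_rgt (a g : Perm I) (f : GS I) :
    (regRep I).ρ a (rgt g f) = rgt g ((regRep I).ρ a f) := by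
  ext h
  simp [regRep_apply, rgt_apply, mul_assoc]

/-- Right translations preserve the filtration. -/
lemma rgt_mem_SubL {Z : Finset I} {j : ℕ} (g : Perm I) {v : GS I}
    (hv : v ∈ (regRep I).SubL Z j) : rgt g v ∈ (regRep I).SubL Z j := by
  have hle : (regRep I).SubL Z j ≤ ((regRep I).SubL Z j).comap (rgt g : GS I →ₗ[ℝ] GS I) := by
    refine (regRep I).SubL_le fun W hW hc x hx => ?_
    refine (regRep I).FixS_le_SubL hW hc ?_
    intro a ha b hb
    show (regRep I).ρ (swap a b) (rgt g x) = rgt g x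
    rw [regRep_rgt]
    have := hx a ha b hb
    have h2 : (regRep I).ρ (swap a b) x = x := this
    rw [h2]
  exact hle hv

/-- Orthogonal maps preserving a subspace commute with its projection. -/
lemma proj_orth {H : Type*} [NormedAddCommGroup H] [InnerProductSpace ℝ H] [FiniteDimensional ℝ H]
    (U U' : H →L[ℝ] H) (hU : ∀ x y, ⟪U x, y⟫ = ⟪x, U' y⟫) (K : Submodule ℝ H)
    (hK : ∀ v ∈ K, U v ∈ K) (hK' : ∀ v ∈ K, U' v ∈ K) (x : H) :
    K.starProjection (U x) = U (K.starProjection x) := by
  have h1 : U (x - K.starProjection x) ∈ Kᗮ := by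
    rw [Submodule.mem_orthogonal]
    intro k hk
    rw [real_inner_comm, hU, real_inner_comm]
    exact (Submodule.mem_orthogonal K _).mp (Submodule.sub_starProjection_mem_orthogonal x) _
      (hK' k hk)
  have h2 : K.starProjection (U (x - K.starProjection x)) = 0 :=
    (Submodule.starProjection_apply_eq_zero_iff K).mpr h1
  rw [map_sub, map_sub] at h2
  have h3 : K.starProjection (U (K.starProjection x)) = U (K.starProjection x) :=
    Submodule.starProjection_eq_self_iff.mpr (hK _ (Submodule.starProjection_apply_mem K x))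
  rw [h3] at h2
  exact sub_eq_zero.mp h2

/-- The point mass. -/
noncomputable def dl (h : Perm I) : GS I := EuclideanSpace.single h (1 : ℝ)

lemma rgt_dl (h : Perm I) : rgt h⁻¹ (dl (1 : Perm I)) = dl h := by
  ext x
  simp only [rgt_apply, dl, PiLp.single_apply]
  by_cases hx : x = h
  · subst hx; simp
  · rw [if_neg hx, if_neg]
    intro e
    apply hx
    have : x * h⁻¹ * h = 1 * h := by rw [e]
    simpa using this

lemma norm_proj_dl {Z : Finset I} {j : ℕ} (h : Perm I) :
    ‖((regRep I).SubL Z j).starProjection (dl h)‖ =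
      ‖((regRep I).SubL Z j).starProjection (dl (1 : Perm I))‖ := by
  rw [← rgt_dl h, proj_orth (rgt h⁻¹) (rgt h⁻¹⁻¹) (inner_rgt h⁻¹) _
    (fun v hv => rgt_mem_SubL _ hv) (fun v hv => rgt_mem_SubL _ hv), norm_rgt]

lemma sum_norm_proj_single (K : Submodule ℝ (GS I)) :
    ∑ h : Perm I, ‖K.starProjection (dl h)‖ ^ 2 = Module.finrank ℝ K := by
  let b := stdOrthonormalBasis ℝ K
  have h1 : ∀ x : GS I, ‖K.starProjection x‖ ^ 2 = ∑ i, ⟪(b i : GS I), x⟫ ^ 2 := by
    intro x
    have e1 := b.sum_sq_norm_inner_right (K.orthogonalProjectionOnto x)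
    have e2 : ‖K.starProjection x‖ = ‖K.orthogonalProjectionOnto x‖ := rfl
    rw [e2, ← e1]
    refine Finset.sum_congr rfl fun i _ => ?_
    have e3 : ⟪b i, K.orthogonalProjectionOnto x⟫ = ⟪(b i : GS I), x⟫ :=
      Submodule.inner_orthogonalProjectionOnto_eq_of_mem_left _ _
    rw [e3, Real.norm_eq_abs, sq_abs]
  simp only [h1]
  rw [Finset.sum_comm]
  have h2 : ∀ i, ∑ h : Perm I, ⟪(b i : GS I), dl h⟫ ^ 2 = 1 := by
    intro i
    have e1 : ‖(b i : GS I)‖ = 1 := b.orthonormal.1 i
    have e2 := EuclideanSpace.norm_sq_eq (b i : GS I)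
    rw [e1] at e2
    have e3 : ∀ h : Perm I, ⟪(b i : GS I), dl h⟫ ^ 2 = ‖(b i : GS I) h‖ ^ 2 := by
      intro h
      rw [dl, EuclideanSpace.inner_single_right]
      simp
    simp only [e3]
    rw [← e2]
    norm_num
  simp only [h2]
  simp

/-- Transpositions inside `W` generate all permutations supported in `W`. -/
lemma ORep.fix_of_support {H : Type*} [NormedAddCommGroup H] [InnerProductSpace ℝ H]
    (R : ORep I H) {W : Finset I} {v : H} (hv : v ∈ R.FixS W) (g : Perm I)
    (hg : ∀ y, y ∉ W → g y = y) : R.ρ g v = v := by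
  have hp : ∀ z, z ∈ W ↔ g z ∈ W := by
    intro z
    constructor
    · intro hz
      by_contra hcon
      have h1 := hg _ hcon
      have h2 : g z = z := g.injective h1
      rw [h2] at hcon
      exact hcon hz
    · intro hz
      by_contra hcon
      rw [hg z hcon] at hz
      exact hcon hz
  have key : ∀ τ : Perm {z // z ∈ W}, R.ρ (Perm.ofSubtype τ) v = v := by
    intro τ
    induction τ using Perm.swap_induction_on with
    | one => simp
    | swap_mul f x y _ ih =>
      rw [map_mul, map_mul, Perm.ofSubtype_swap_eq]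
      show R.S (x : I) (y : I) (R.ρ (Perm.ofSubtype f) v) = v
      rw [ih]
      exact hv _ x.2 _ y.2
  have hge : Perm.ofSubtype (g.subtypePerm (fun z => (hp z).symm)) = g := by
    apply Perm.ofSubtype_subtypePerm
    intro z hz
    by_contra hcon
    exact hz (hg z hcon)
  have := key (g.subtypePerm (fun z => (hp z).symm))
  rwa [hge] at this

/-- The indicator of a signature. -/
noncomputable def sigInd {j : ℕ} (φ : Fin j → I × I) : GS I :=
  WithLp.toLp 2 (fun h : Perm I => if ∀ i, h⁻¹ (φ i).1 = (φ i).2 then (1 : ℝ) else 0)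

lemma sigInd_apply {j : ℕ} (φ : Fin j → I × I) (h : Perm I) :
    sigInd φ h = if ∀ i, h⁻¹ (φ i).1 = (φ i).2 then (1 : ℝ) else 0 := rfl

/-- The levels are spanned by few functions. -/
lemma SubL_le_span {j : ℕ} : (regRep I).SubL univ j ≤
    Submodule.span ℝ (Set.range (sigInd (I := I) (j := j))) := by
  refine (regRep I).SubL_le fun W _ hc x hx => ?_
  set Y := (univ : Finset I) \ W with hY
  have hYc : Y.card = j := by
    rw [hY, Finset.card_sdiff_of_subset (Finset.subset_univ _)]
    omega
  let e : Y ≃ Fin j := Y.equivFinOfCardEq hYc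
  let Sig : Perm I → (Y → I) := fun h y => h⁻¹ y
  have hinv : ∀ h h' : Perm I, Sig h = Sig h' → x h = x h' := by
    intro h h' hs
    have hfix : ∀ y, y ∉ W → (h * h'⁻¹) y = y := by
      intro y hy
      have hyY : y ∈ Y := by
        rw [hY]; simp [hy]
      have h1 : h⁻¹ y = h'⁻¹ y := congrFun hs ⟨y, hyY⟩
      rw [Perm.mul_apply, ← h1]
      simp
    have h2 := (regRep I).fix_of_support hx (h * h'⁻¹) hfix
    have h3 : (regRep I).ρ (h * h'⁻¹) x h = x h := by rw [h2]
    rw [regRep_apply] at h3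
    have h4 : (h * h'⁻¹)⁻¹ * h = h' := by
      simp [mul_assoc]
    rw [h4] at h3
    exact h3.symm
  classical
  let F : (Y → I) → ℝ := fun π => if hp : ∃ h, Sig h = π then x hp.choose else 0
  have hF : ∀ h, F (Sig h) = x h := by
    intro h
    have hp : ∃ h', Sig h' = Sig h := ⟨h, rfl⟩
    simp only [F, dif_pos hp]
    exact hinv _ _ hp.choose_spec
  let φ : (Y → I) → (Fin j → I × I) := fun π i => ((e.symm i : I), π (e.symm i))
  have hsum : x = ∑ π : Y → I, F π • sigInd (φ π) := by
    ext h
    rw [WithLp.ofLp_sum, Finset.sum_apply]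
    have hterm : ∀ π : Y → I, (F π • sigInd (φ π)).ofLp h = if Sig h = π then F π else 0 := by
      intro π
      have hiff : (∀ i, h⁻¹ (φ π i).1 = (φ π i).2) ↔ Sig h = π := by
        constructor
        · intro hall
          funext y
          have := hall (e y)
          simpa [φ, Sig] using this
        · intro hs i
          exact congrFun hs (e.symm i)
      simp only [WithLp.ofLp_smul, Pi.smul_apply, sigInd_apply, hiff, smul_eq_mul]
      split_ifs <;> simp
    simp only [hterm]
    rw [Finset.sum_ite_eq]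
    simp [hF]
  rw [hsum]
  exact Submodule.sum_mem _ fun π _ => Submodule.smul_mem _ _
    (Submodule.subset_span ⟨φ π, rfl⟩)

lemma finrank_SubL_le (j : ℕ) : Module.finrank ℝ ((regRep I).SubL univ j) ≤
    (Fintype.card I) ^ (2 * j) := by
  have h1 := Submodule.finrank_mono (SubL_le_span (I := I) (j := j))
  have h2 := finrank_range_le_card (R := ℝ) (sigInd (I := I) (j := j))
  have h3 : Fintype.card (Fin j → I × I) = (Fintype.card I) ^ (2 * j) := by
    simp [Fintype.card_prod, pow_mul, sq]
  rw [h3] at h2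
  exact h1.trans h2

lemma norm_proj_dl_sq (j : ℕ) :
    (Fintype.card (Perm I) : ℝ) * ‖((regRep I).SubL univ j).starProjection (dl (1 : Perm I))‖ ^ 2 ≤
      (Fintype.card I : ℝ) ^ (2 * j) := by
  have h1 := sum_norm_proj_single ((regRep I).SubL univ j)
  simp only [norm_proj_dl] at h1
  rw [Finset.sum_const, Finset.card_univ, nsmul_eq_mul] at h1
  rw [h1]
  exact_mod_cast finrank_SubL_le j

lemma norm_dl (h : Perm I) : ‖dl h‖ = 1 := by
  simp [dl]

/-- **The L2 estimate for the heat kernel at the identity.** -/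
theorem regular_heat {m : ℕ} (hm : 1 ≤ m) (hcard : Fintype.card I = 2 * m) {τ : ℝ} (hτ : 0 ≤ τ)
    (hε : Real.exp (-τ * ((Fintype.card I : ℝ) / 2)) * (Fintype.card I : ℝ) ^ 6 ≤ 1) :
    (Fintype.card (Perm I) : ℝ) *
      ⟪dl (1 : Perm I), NormedSpace.exp ((-τ) • (regRep I).Lap) (dl (1 : Perm I))⟫ ≤ 5 / 4 := by
  set n : ℝ := (Fintype.card I : ℝ) with hn
  set N : ℝ := (Fintype.card (Perm I) : ℝ) with hN
  set ε := Real.exp (-τ * (n / 2)) with hεdef
  have hε0 : 0 < ε := Real.exp_pos _
  have hn2 : (2 : ℝ) ≤ n := by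
    rw [hn, hcard]; push_cast
    have : (1 : ℝ) ≤ m := by exact_mod_cast hm
    linarith
  have hNpos : 0 < N := by
    rw [hN]
    have : 0 < Fintype.card (Perm I) := Fintype.card_pos
    exact_mod_cast this
  have hf := (regRep I).heat_filtration hτ (dl (1 : Perm I))
  rw [norm_dl] at hf
  have hJ : Fintype.card I / 2 = m := by rw [hcard]; simp
  rw [hJ] at hf
  have h1 : N * ∑ i ∈ Finset.range m,
      ε ^ i * ‖((regRep I).SubL univ i).starProjection (dl (1 : Perm I))‖ ^ 2 ≤
      ∑ i ∈ Finset.range m, (ε * n ^ 2) ^ i := by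
    rw [Finset.mul_sum]
    refine Finset.sum_le_sum fun i _ => ?_
    have := norm_proj_dl_sq (I := I) i
    rw [← hN, ← hn] at this
    calc N * (ε ^ i * ‖((regRep I).SubL univ i).starProjection (dl (1 : Perm I))‖ ^ 2)
        = ε ^ i * (N * ‖((regRep I).SubL univ i).starProjection (dl (1 : Perm I))‖ ^ 2) := by ring
      _ ≤ ε ^ i * n ^ (2 * i) := mul_le_mul_of_nonneg_left this (by positivity)
      _ = (ε * n ^ 2) ^ i := by rw [mul_pow, pow_mul]
  -- the geometric sum
  have hx : ε * n ^ 2 ≤ 1 / 16 := by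
    have h4 : n ^ 4 ≥ 16 := by
      have : (2 : ℝ) ^ 4 ≤ n ^ 4 := pow_le_pow_left₀ (by norm_num) hn2 4
      linarith
    have hn6 : ε * n ^ 6 = (ε * n ^ 2) * n ^ 4 := by ring
    rw [hn6] at hε
    have hp : 0 ≤ ε * n ^ 2 := by positivity
    nlinarith
  have hgeom : ∑ i ∈ Finset.range m, (ε * n ^ 2) ^ i ≤ 16 / 15 := by
    set x := ε * n ^ 2 with hxdef
    have hx0 : 0 ≤ x := by positivity
    have h5 := mul_neg_geom_sum x m
    have h6 : (1 - x) * ∑ i ∈ Finset.range m, x ^ i ≤ 1 := by
      rw [h5]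
      have : 0 ≤ x ^ m := by positivity
      linarith
    have h7 : 0 ≤ ∑ i ∈ Finset.range m, x ^ i := Finset.sum_nonneg fun i _ => by positivity
    nlinarith
  -- the last term
  have hlast : N * (ε ^ m * 1 ^ 2) ≤ 1 / 16 := by
    have hNle : N ≤ n ^ (2 * m) := by
      rw [hN, hn, Fintype.card_perm, hcard]
      push_cast
      exact_mod_cast Nat.factorial_le_pow (2 * m)
    have h8 : n ^ (2 * m) * ε ^ m = (n ^ 2 * ε) ^ m := by rw [mul_pow, pow_mul]
    have h9 : n ^ 2 * ε ≤ 1 / 16 := by linarith [mul_comm (n ^ 2) ε]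
    have h10 : (n ^ 2 * ε) ^ m ≤ n ^ 2 * ε := by
      have h0 : 0 ≤ n ^ 2 * ε := by positivity
      calc (n ^ 2 * ε) ^ m ≤ (n ^ 2 * ε) ^ 1 :=
            pow_le_pow_of_le_one h0 (by linarith) hm
        _ = _ := pow_one _
    calc N * (ε ^ m * 1 ^ 2) ≤ n ^ (2 * m) * ε ^ m := by
          rw [one_pow, mul_one]
          exact mul_le_mul_of_nonneg_right hNle (by positivity)
      _ ≤ 1 / 16 := by rw [h8]; linarith
  calc N * ⟪dl (1 : Perm I), NormedSpace.exp ((-τ) • (regRep I).Lap) (dl (1 : Perm I))⟫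
      ≤ N * (∑ i ∈ Finset.range m,
          ε ^ i * ‖((regRep I).SubL univ i).starProjection (dl (1 : Perm I))‖ ^ 2 +
          ε ^ m * 1 ^ 2) := mul_le_mul_of_nonneg_left hf hNpos.le
    _ = N * ∑ i ∈ Finset.range m,
          ε ^ i * ‖((regRep I).SubL univ i).starProjection (dl (1 : Perm I))‖ ^ 2 +
          N * (ε ^ m * 1 ^ 2) := by ring
    _ ≤ 16 / 15 + 1 / 16 := add_le_add (h1.trans hgeom) hlast
    _ ≤ 5 / 4 := by norm_num

end Vale.Agent.P162
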