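import Vale.Agent.P162.Rec

/-!
The layers of the butterfly and the rotation identity.
-/

open scoped RealInnerProductSpace
open Finset Equiv

namespace Vale.Agent.P162

set_option linter.unusedSectionVars false

variable {H : Type*} [NormedAddCommGroup H] [InnerProductSpace ℝ H]

/-- Flip coordinate `j` according to a coin depending on the other coordinates. -/
def flipAt {k : ℕ} (j : Fin k) (c : Cube k → Bool) : Perm (Cube k) :=
  Function.Involutive.toPerm
    (fun x => Function.update x j (xor (x j) (c (Function.update x j false)))) (by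
      intro x
      simp only [Function.update_self, Function.update_idem]
      rw [Bool.xor_assoc, Bool.xor_self, Bool.xor_false, Function.update_eq_self])

lemma flipAt_apply {k : ℕ} (j : Fin k) (c : Cube k → Bool) (x : Cube k) :
    flipAt j c x = Function.update x j (xor (x j) (c (Function.update x j false))) := rfl

/-- A layer of the butterfly. -/
noncomputable def Lay {k : ℕ} (j : Fin k) (R : ORep (Cube k) H) : H →L[ℝ] H :=
  ((Fintype.card (Cube k → Bool) : ℝ)⁻¹) • ∑ c : Cube k → Bool, R.ρ (flipAt j c)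

/-- Coordinate permutations acting on the cube. -/
def coordPerm {k : ℕ} (π : Perm (Fin k)) : Perm (Cube k) where
  toFun x := x ∘ π
  invFun x := x ∘ π.symm
  left_inv x := by funext i; simp
  right_inv x := by funext i; simp

lemma coordPerm_apply {k : ℕ} (π : Perm (Fin k)) (x : Cube k) : coordPerm π x = x ∘ π := rfl

lemma coordPerm_symm_apply {k : ℕ} (π : Perm (Fin k)) (x : Cube k) :
    (coordPerm π).symm x = x ∘ π.symm := rfl

lemma coord_flip {k : ℕ} (π : Perm (Fin k)) (j : Fin k) (c : Cube k → Bool) :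
    coordPerm π * flipAt j c =
      flipAt (π.symm j) (c ∘ (coordPerm π).symm) * coordPerm π := by
  ext1 x
  rw [Perm.mul_apply, Perm.mul_apply, flipAt_apply, flipAt_apply, coordPerm_apply, coordPerm_apply,
    Function.update_comp_equiv]
  congr 1
  have e1 : (x ∘ ⇑π) (π.symm j) = x j := by simp
  rw [e1]
  congr 1
  show c (x j |> fun _ => Function.update x j false) = c ((coordPerm π).symm
    (Function.update (x ∘ ⇑π) (π.symm j) false))
  congr 1
  rw [coordPerm_symm_apply, Function.update_comp_equiv]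
  simp [Function.comp_assoc]

/-- The coin bijection for coordinate permutations. -/
def coinCoord {k : ℕ} (r : Perm (Cube k)) : Perm (Cube k → Bool) where
  toFun c := c ∘ r.symm
  invFun c := c ∘ r
  left_inv c := by funext x; simp
  right_inv c := by funext x; simp

lemma Lay_conj {k : ℕ} (π : Perm (Fin k)) (j : Fin k) (R : ORep (Cube k) H) :
    R.ρ (coordPerm π) * Lay j R = Lay (π.symm j) R * R.ρ (coordPerm π) := by
  simp only [Lay, mul_smul_comm, smul_mul_assoc, Finset.mul_sum, Finset.sum_mul]
  congr 1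
  have h : ∀ c : Cube k → Bool, R.ρ (coordPerm π) * R.ρ (flipAt j c) =
      R.ρ (flipAt (π.symm j) (coinCoord (coordPerm π) c)) * R.ρ (coordPerm π) := by
    intro c
    rw [← map_mul, ← map_mul, coord_flip]
    rfl
  simp only [h]
  exact Equiv.sum_comp (coinCoord (coordPerm π))
    (fun c => R.ρ (flipAt (π.symm j) c) * R.ρ (coordPerm π))

/-- Splitting a coin for the cube into two coins for the two halves. -/
def coinSplit (k : ℕ) : (Cube (k + 1) → Bool) ≃ (Cube k → Bool) × (Cube k → Bool) where
  toFun c := (fun p => c (Fin.cons false p), fun p => c (Fin.cons true p))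
  invFun ab := fun x => if x 0 then ab.2 (Fin.tail x) else ab.1 (Fin.tail x)
  left_inv c := by
    funext x
    obtain ⟨b, p, rfl⟩ : ∃ b p, x = Fin.cons b p :=
      ⟨x 0, Fin.tail x, (Fin.cons_self_tail x).symm⟩
    cases b <;> simp
  right_inv ab := by
    ext p <;> simp

lemma card_coin_succ (k : ℕ) : Fintype.card (Cube (k + 1) → Bool) =
    Fintype.card (Cube k → Bool) * Fintype.card (Cube k → Bool) := by
  rw [Fintype.card_congr (coinSplit k), Fintype.card_prod]

lemma consE_symm_cons {k : ℕ} (b : Bool) (p : Cube k) :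
    (consE k).symm (Fin.cons b p) = (b, p) := by
  rw [Equiv.symm_apply_eq]; rfl

lemma permCongrHom_cons {k : ℕ} (g : Perm (Bool × Cube k)) (b : Bool) (p : Cube k) :
    (consE k).permCongrHom g (Fin.cons b p) =
      Fin.cons (g (b, p)).1 (g (b, p)).2 := by
  show consE k (g ((consE k).symm (Fin.cons b p))) = _
  rw [consE_symm_cons]
  rfl

lemma flipAt_succ {k : ℕ} (j : Fin k) (c : Cube (k + 1) → Bool) :
    flipAt j.succ c = (consE k).permCongrHom
      (halfHom false (flipAt j ((coinSplit k c).1)) *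
        halfHom true (flipAt j ((coinSplit k c).2))) := by
  ext1 x
  obtain ⟨b, p, rfl⟩ : ∃ b p, x = Fin.cons b p := ⟨x 0, Fin.tail x, (Fin.cons_self_tail x).symm⟩
  rw [permCongrHom_cons, flipAt_apply, Fin.cons_succ, ← Fin.cons_update, ← Fin.cons_update]
  cases b
  · have e1 : (halfHom false (flipAt j ((coinSplit k c).1)) *
        halfHom true (flipAt j ((coinSplit k c).2))) (false, p) =
        (false, flipAt j ((coinSplit k c).1) p) := by
      rw [Perm.mul_apply, halfHom_ne (b := true) (c := false) (by simp), halfHom_eq]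
    rw [e1]
    rfl
  · have e1 : (halfHom false (flipAt j ((coinSplit k c).1)) *
        halfHom true (flipAt j ((coinSplit k c).2))) (true, p) =
        (true, flipAt j ((coinSplit k c).2) p) := by
      rw [Perm.mul_apply, halfHom_eq, halfHom_ne (b := false) (c := true) (by simp)]
    rw [e1]
    rfl

lemma flipAt_zero {k : ℕ} (c : Cube (k + 1) → Bool) :
    flipAt 0 c = (consE k).permCongrHom (flipPerm ((coinSplit k c).1)) := by
  ext1 x
  obtain ⟨b, p, rfl⟩ : ∃ b p, x = Fin.cons b p := ⟨x 0, Fin.tail x, (Fin.cons_self_tail x).symm⟩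
  rw [permCongrHom_cons, flipAt_apply, Fin.cons_zero, Fin.update_cons_zero, Fin.update_cons_zero]
  rfl

namespace ORep

lemma sub_ρ {k : ℕ} (R : ORep (Cube (k + 1)) H) (b : Bool) (g : Perm (Cube k)) :
    (R.sub b).ρ g = R.ρ ((consE k).permCongrHom (halfHom b g)) := rfl

lemma pull_ρ {k : ℕ} (R : ORep (Cube (k + 1)) H) (g : Perm (Bool × Cube k)) :
    R.pull.ρ g = R.ρ ((consE k).permCongrHom g) := rfl

lemma sub_commute {k : ℕ} (R : ORep (Cube (k + 1)) H) (g g' : Perm (Cube k)) :
    Commute ((R.sub false).ρ g) ((R.sub true).ρ g') :=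
  R.pull.half_commute g g'

end ORep

lemma Lay_succ {k : ℕ} (j : Fin k) (R : ORep (Cube (k + 1)) H) :
    Lay j.succ R = Lay j (R.sub false) * Lay j (R.sub true) := by
  have hM : 0 < (Fintype.card (Cube k → Bool) : ℝ) := by
    have : 0 < Fintype.card (Cube k → Bool) := Fintype.card_pos
    exact_mod_cast this
  simp only [Lay]
  rw [smul_mul_smul_comm, Finset.sum_mul_sum, card_coin_succ]
  push_cast
  rw [mul_inv]
  congr 1
  have h : ∀ c : Cube (k + 1) → Bool, R.ρ (flipAt j.succ c) =
      (R.sub false).ρ (flipAt j (coinSplit k c).1) * (R.sub true).ρ (flipAt j (coinSplit k c).2) := by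
    intro c
    rw [flipAt_succ, map_mul, map_mul]
    rfl
  simp only [h]
  rw [← Finset.sum_product']
  exact Equiv.sum_comp (coinSplit k)
    (fun ab => (R.sub false).ρ (flipAt j ab.1) * (R.sub true).ρ (flipAt j ab.2))

lemma Lay_zero {k : ℕ} (R : ORep (Cube (k + 1)) H) : Lay 0 R = R.pull.PiOp := by
  have hM : 0 < (Fintype.card (Cube k → Bool) : ℝ) := by
    have : 0 < Fintype.card (Cube k → Bool) := Fintype.card_pos
    exact_mod_cast this
  simp only [Lay, ORep.PiOp]
  have h : ∀ c : Cube (k + 1) → Bool, R.ρ (flipAt 0 c) = R.pull.ρ (flipPerm (coinSplit k c).1) := by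
    intro c
    rw [flipAt_zero]
    rfl
  simp only [h]
  have h2 : ∑ c : Cube (k + 1) → Bool, R.pull.ρ (flipPerm (coinSplit k c).1) =
      (Fintype.card (Cube k → Bool) : ℝ) • ∑ a : Cube k → Bool, R.pull.ρ (flipPerm a) := by
    have := Equiv.sum_comp (coinSplit k) (fun ab => R.pull.ρ (flipPerm ab.1))
    rw [this, Fintype.sum_prod_type]
    simp only [Finset.sum_const, Finset.card_univ]
    rw [← Finset.smul_sum, Nat.cast_smul_eq_nsmul]
  rw [h2, card_coin_succ, smul_smul]
  push_cast
  congr 1
  field_simp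

/-- Layer by natural number index. -/
noncomputable def layN {k : ℕ} (i : ℕ) (R : ORep (Cube k) H) : H →L[ℝ] H :=
  if h : i < k then Lay ⟨i, h⟩ R else 1

/-- Product of the first `m` layers, the layer number zero acting first. -/
noncomputable def QL {k : ℕ} (R : ORep (Cube k) H) : ℕ → (H →L[ℝ] H)
  | 0 => 1
  | m + 1 => layN m R * QL R m

lemma layN_succ {k i : ℕ} (hi : i < k) (R : ORep (Cube (k + 1)) H) :
    layN (i + 1) R = layN i (R.sub false) * layN i (R.sub true) := by
  have h1 : i + 1 < k + 1 := by omega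
  simp only [layN, dif_pos h1, dif_pos hi]
  exact Lay_succ ⟨i, hi⟩ R

lemma layN_zero {k : ℕ} (R : ORep (Cube (k + 1)) H) : layN 0 R = R.pull.PiOp := by
  simp only [layN, dif_pos (Nat.succ_pos k)]
  exact Lay_zero R

lemma commute_layN {k : ℕ} (R : ORep (Cube k) H) (C : H →L[ℝ] H)
    (hC : ∀ g, Commute C (R.ρ g)) (i : ℕ) : Commute C (layN i R) := by
  unfold layN
  split_ifs with h
  · exact Commute.smul_right (Commute.sum_right _ _ _ fun c _ => hC _) _
  · exact Commute.one_right C

lemma commute_QL {k : ℕ} (R : ORep (Cube k) H) (C : H →L[ℝ] H)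
    (hC : ∀ g, Commute C (R.ρ g)) (m : ℕ) : Commute C (QL R m) := by
  induction m with
  | zero => exact Commute.one_right C
  | succ m ih => exact (commute_layN R C hC m).mul_right ih

lemma QL_rec {k : ℕ} (R : ORep (Cube (k + 1)) H) (m : ℕ) (hm : m ≤ k) :
    QL R (m + 1) = QL (R.sub false) m * QL (R.sub true) m * R.pull.PiOp := by
  induction m with
  | zero =>
    show layN 0 R * 1 = 1 * 1 * _
    rw [layN_zero]; simp
  | succ m ih =>
    show layN (m + 1) R * QL R (m + 1) = (layN m (R.sub false) * QL (R.sub false) m) *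
      (layN m (R.sub true) * QL (R.sub true) m) * _
    rw [ih (by omega), layN_succ (by omega)]
    have hc : Commute (layN m (R.sub true)) (QL (R.sub false) m) := by
      apply commute_QL
      intro g
      apply Commute.symm
      apply commute_layN
      intro g'
      exact R.sub_commute g g'
    have := hc.eq
    calc _ = layN m (R.sub false) * (layN m (R.sub true) * QL (R.sub false) m) *
          QL (R.sub true) m * R.pull.PiOp := by noncomm_ring
      _ = layN m (R.sub false) * (QL (R.sub false) m * layN m (R.sub true)) *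
          QL (R.sub true) m * R.pull.PiOp := by rw [this]
      _ = _ := by noncomm_ring

lemma QL_eq_RR : ∀ (k : ℕ) (R : ORep (Cube k) H), QL R k = RR k R := by
  intro k
  induction k with
  | zero => intro R; rfl
  | succ k ih =>
    intro R
    rw [QL_rec R k le_rfl, ih, ih]
    rfl

/-- The rotation of the coordinates. -/
def rot (k : ℕ) : Perm (Cube k) := coordPerm (finRotate k)

lemma rot_cons {k : ℕ} (b : Bool) (p : Cube k) : rot (k + 1) (Fin.cons b p) = Fin.snoc p b := by
  rw [rot, coordPerm_apply, Fin.snoc_eq_cons_rotate]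
  rfl

lemma rot_pow_apply (k m : ℕ) (x : Cube (k + 1)) (i : Fin (k + 1)) :
    ((rot (k + 1)) ^ m) x i = x (i + m • (1 : Fin (k + 1))) := by
  induction m generalizing x with
  | zero => simp
  | succ m ih =>
    rw [pow_succ, Perm.mul_apply, ih]
    show (x ∘ finRotate (k + 1)) _ = _
    rw [Function.comp_apply, finRotate_apply, succ_nsmul, add_assoc]

lemma rot_pow_self (k : ℕ) : (rot (k + 1)) ^ (k + 1) = 1 := by
  ext1 x
  funext i
  rw [rot_pow_apply]
  have : (k + 1) • (1 : Fin (k + 1)) = 0 := by
    have h := card_nsmul_eq_zero (G := Fin (k + 1)) (x := 1)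
    simpa using h
  rw [this, add_zero]
  rfl

lemma rot_layN_succ {n i : ℕ} (hi : i + 1 < n + 1) (R : ORep (Cube (n + 1)) H) :
    R.ρ (rot (n + 1)) * layN (i + 1) R = layN i R * R.ρ (rot (n + 1)) := by
  have hi' : i < n + 1 := by omega
  simp only [layN, dif_pos hi, dif_pos hi']
  have := Lay_conj (finRotate (n + 1)) ⟨i + 1, hi⟩ R
  rw [show (finRotate (n + 1)).symm ⟨i + 1, hi⟩ = ⟨i, hi'⟩ from ?_] at this
  · exact this
  · rw [Equiv.symm_apply_eq]
    exact (finRotate_of_lt (by omega)).symm

lemma rot_layN_zero {n : ℕ} (R : ORep (Cube (n + 1)) H) :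
    R.ρ (rot (n + 1)) * layN 0 R = layN n R * R.ρ (rot (n + 1)) := by
  simp only [layN, dif_pos (Nat.succ_pos n), dif_pos (Nat.lt_succ_self n)]
  have := Lay_conj (finRotate (n + 1)) ⟨0, Nat.succ_pos n⟩ R
  rw [show (finRotate (n + 1)).symm ⟨0, Nat.succ_pos n⟩ = ⟨n, Nat.lt_succ_self n⟩ from ?_] at this
  · exact this
  · rw [Equiv.symm_apply_eq]
    exact (finRotate_last' (n := n)).symm

lemma rot_pow_lay {n : ℕ} (R : ORep (Cube (n + 1)) H) (t : ℕ) (ht : t ≤ n) :
    R.ρ (rot (n + 1)) ^ (t + 1) * layN 0 R = layN (n - t) R * R.ρ (rot (n + 1)) ^ (t + 1) := by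
  induction t with
  | zero =>
    simpa using rot_layN_zero R
  | succ t ih =>
    have h1 := ih (by omega)
    have e : n - t = (n - (t + 1)) + 1 := by omega
    rw [e] at h1
    have h2 := rot_layN_succ (i := n - (t + 1)) (n := n) (by omega) R
    calc R.ρ (rot (n + 1)) ^ (t + 1 + 1) * layN 0 R
        = R.ρ (rot (n + 1)) * (R.ρ (rot (n + 1)) ^ (t + 1) * layN 0 R) := by
          rw [pow_succ' _ (t + 1), mul_assoc]
      _ = R.ρ (rot (n + 1)) * (layN (n - (t + 1) + 1) R * R.ρ (rot (n + 1)) ^ (t + 1)) := by rw [h1]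
      _ = (R.ρ (rot (n + 1)) * layN (n - (t + 1) + 1) R) * R.ρ (rot (n + 1)) ^ (t + 1) := by
          rw [mul_assoc]
      _ = (layN (n - (t + 1)) R * R.ρ (rot (n + 1))) * R.ρ (rot (n + 1)) ^ (t + 1) := by rw [h2]
      _ = _ := by rw [mul_assoc, ← pow_succ']

/-- A block of layers. -/
noncomputable def Bl {k : ℕ} (R : ORep (Cube k) H) (a : ℕ) : ℕ → (H →L[ℝ] H)
  | 0 => 1
  | b + 1 => layN (a + b) R * Bl R a b

lemma Bl_succ' {k : ℕ} (R : ORep (Cube k) H) (a b : ℕ) :
    Bl R a (b + 1) = Bl R (a + 1) b * layN a R := by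
  induction b with
  | zero => simp [Bl]
  | succ b ih =>
    show layN (a + (b + 1)) R * Bl R a (b + 1) = (layN (a + 1 + b) R * Bl R (a + 1) b) * layN a R
    rw [ih, mul_assoc]
    congr 2
    omega

lemma Bl_zero_eq_QL {k : ℕ} (R : ORep (Cube k) H) (m : ℕ) : Bl R 0 m = QL R m := by
  induction m with
  | zero => rfl
  | succ m ih =>
    show layN (0 + m) R * Bl R 0 m = layN m R * QL R m
    rw [ih, zero_add]

/-- The rotation identity: `d` shuffles equal the product of all layers. -/
theorem thorp_power {n : ℕ} (R : ORep (Cube (n + 1)) H) :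
    (R.ρ (rot (n + 1)) * R.pull.PiOp) ^ (n + 1) = RR (n + 1) R := by
  have key : ∀ m, m ≤ n + 1 → (R.ρ (rot (n + 1)) * layN 0 R) ^ m =
      Bl R (n + 1 - m) m * R.ρ (rot (n + 1)) ^ m := by
    intro m
    induction m with
    | zero => intro _; simp [Bl]
    | succ m ih =>
      intro hm
      rw [pow_succ, ih (by omega)]
      have h1 := rot_pow_lay R m (by omega)
      have e : n + 1 - m = (n + 1 - (m + 1)) + 1 := by omega
      have e2 : n - m = n + 1 - (m + 1) := by omega
      rw [e2] at h1
      calc Bl R (n + 1 - m) m * R.ρ (rot (n + 1)) ^ m * (R.ρ (rot (n + 1)) * layN 0 R)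
          = Bl R (n + 1 - m) m * (R.ρ (rot (n + 1)) ^ (m + 1) * layN 0 R) := by
            rw [pow_succ]; noncomm_ring
        _ = Bl R (n + 1 - m) m * (layN (n + 1 - (m + 1)) R * R.ρ (rot (n + 1)) ^ (m + 1)) := by
            rw [h1]
        _ = (Bl R ((n + 1 - (m + 1)) + 1) m * layN (n + 1 - (m + 1)) R) *
              R.ρ (rot (n + 1)) ^ (m + 1) := by
            rw [← e, mul_assoc]
        _ = _ := by rw [← Bl_succ']
  have h := key (n + 1) le_rfl
  rw [layN_zero, Nat.sub_self, Bl_zero_eq_QL, QL_eq_RR, ← map_pow, rot_pow_self, map_one, mul_one]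
    at h
  exact h

end Vale.Agent.P162
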