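import Vale.Agent.P162.Defs
import Vale.Agent.P162.Thorp
import Vale.Agent.P162.Reg

/-!
From the operator comparison to the total variation bound on an actual deck.
-/

open scoped RealInnerProductSpace
open Finset Equiv

namespace Vale.Agent.P162

set_option linter.unusedSectionVars false

/-- The big endian value of a binary word. -/
def cval : (k : ℕ) → Cube k → ℕ
  | 0, _ => 0
  | k + 1, x => (if x 0 then 2 ^ k else 0) + cval k (Fin.tail x)

lemma cval_cons (k : ℕ) (b : Bool) (p : Cube k) :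
    cval (k + 1) (Fin.cons b p) = (if b then 2 ^ k else 0) + cval k p := by
  simp [cval]

lemma cval_lt : ∀ (k : ℕ) (x : Cube k), cval k x < 2 ^ k := by
  intro k
  induction k with
  | zero => intro x; simp [cval]
  | succ k ih =>
    intro x
    have := ih (Fin.tail x)
    simp only [cval, pow_succ]
    split_ifs <;> omega

lemma cval_injective : ∀ k, Function.Injective (cval k) := by
  intro k
  induction k with
  | zero => intro x y _; exact Subsingleton.elim _ _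
  | succ k ih =>
    intro x y h
    obtain ⟨b, p, rfl⟩ : ∃ b p, x = Fin.cons b p :=
      ⟨x 0, Fin.tail x, (Fin.cons_self_tail x).symm⟩
    obtain ⟨b', p', rfl⟩ : ∃ b p, y = Fin.cons b p :=
      ⟨y 0, Fin.tail y, (Fin.cons_self_tail y).symm⟩
    rw [cval_cons, cval_cons] at h
    have h1 := cval_lt k p
    have h2 := cval_lt k p'
    cases b <;> cases b' <;> simp at h <;> first
      | (have : p = p' := ih h; rw [this])
      | omega

lemma cval_snoc : ∀ (k : ℕ) (p : Cube k) (b : Bool),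
    cval (k + 1) (Fin.snoc (α := fun _ => Bool) p b) = 2 * cval k p + (if b then 1 else 0) := by
  intro k
  induction k with
  | zero =>
    intro p b
    have : (Fin.snoc (α := fun _ => Bool) p b : Cube 1) = Fin.cons b p := by
      funext i
      have : i = 0 := Fin.ext (by have := i.2; simp)
      subst this
      rfl
    rw [this, cval_cons]
    simp [cval]
  | succ k ih =>
    intro p b
    obtain ⟨b', p', rfl⟩ : ∃ b p', p = Fin.cons b p' :=
      ⟨p 0, Fin.tail p, (Fin.cons_self_tail p).symm⟩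
    have e : (Fin.snoc (α := fun _ => Bool) (Fin.cons b' p' : Cube (k + 1)) b : Cube (k + 2)) =
        Fin.cons b' (Fin.snoc (α := fun _ => Bool) p' b : Cube (k + 1)) :=
      (Fin.cons_snoc_eq_snoc_cons b' p' b).symm
    rw [e, cval_cons, ih, cval_cons, pow_succ]
    cases b' <;> simp <;> ring

/-- Words of length `d` versus numbers below `2 ^ d`. -/
noncomputable def Ed (d : ℕ) : Cube d ≃ Fin (2 ^ d) :=
  Equiv.ofBijective (fun x => ⟨cval d x, cval_lt d x⟩)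
    ((Fintype.bijective_iff_injective_and_card _).mpr
      ⟨fun x y h => cval_injective d (Fin.mk.inj_iff.mp h), by simp⟩)

lemma Ed_val (d : ℕ) (x : Cube d) : ((Ed d x : Fin (2 ^ d)) : ℕ) = cval d x := rfl

/-- Words of length `d + 1` versus positions in the deck. -/
noncomputable def EE (d : ℕ) : Cube (d + 1) ≃ Fin (2 * 2 ^ d) :=
  Equiv.ofBijective
    (fun x => ⟨cval (d + 1) x, by
      have := cval_lt (d + 1) x
      rwa [pow_succ'] at this⟩)
    ((Fintype.bijective_iff_injective_and_card _).mpr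
      ⟨fun x y h => cval_injective (d + 1) (Fin.mk.inj_iff.mp h), by
        simp [pow_succ']⟩)

lemma EE_val (d : ℕ) (x : Cube (d + 1)) : ((EE d x : Fin (2 * 2 ^ d)) : ℕ) = cval (d + 1) x := rfl

/-- One Thorp shuffle as an explicit permutation of positions. -/
noncomputable def gc (d : ℕ) (c : Fin (2 ^ d) → Bool) : Perm (Fin (2 * 2 ^ d)) :=
  (EE d).permCongrHom (rot (d + 1) * (consE d).permCongrHom (flipPerm (c ∘ Ed d)))

lemma gc_EE (d : ℕ) (c : Fin (2 ^ d) → Bool) (b : Bool) (p : Cube d) :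
    gc d c (EE d (Fin.cons b p)) =
      EE d (Fin.snoc (α := fun _ => Bool) p (xor b (c (Ed d p)))) := by
  show EE d ((rot (d + 1) * (consE d).permCongrHom (flipPerm (c ∘ Ed d)))
    ((EE d).symm (EE d (Fin.cons b p)))) = _
  rw [Equiv.symm_apply_apply, Perm.mul_apply, permCongrHom_cons, flipPerm_apply]
  show EE d (rot (d + 1) (Fin.cons (xor b ((c ∘ Ed d) p)) p)) = _
  rw [rot_cons]
  rfl

lemma gc_val (d : ℕ) (c : Fin (2 ^ d) → Bool) (x : Fin (2 * 2 ^ d)) :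
    ((gc d c x : Fin (2 * 2 ^ d)) : ℕ) = thorpDest (2 ^ d) c x := by
  obtain ⟨y, rfl⟩ := (EE d).surjective x
  obtain ⟨b, p, rfl⟩ : ∃ b p, y = Fin.cons b p :=
    ⟨y 0, Fin.tail y, (Fin.cons_self_tail y).symm⟩
  rw [gc_EE, EE_val, cval_snoc]
  have hx : ((EE d (Fin.cons b p) : Fin (2 * 2 ^ d)) : ℕ) =
      (if b then 2 ^ d else 0) + cval d p := by
    rw [EE_val, cval_cons]
  have hlt := cval_lt d p
  have hE : ∀ h : cval d p < 2 ^ d, (⟨cval d p, h⟩ : Fin (2 ^ d)) = Ed d p := fun _ => rfl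
  cases b
  · have hx' : ((EE d (Fin.cons false p) : Fin (2 * 2 ^ d)) : ℕ) = cval d p := by
      simpa using hx
    have h1 : ((EE d (Fin.cons false p) : Fin (2 * 2 ^ d)) : ℕ) < 2 ^ d := by omega
    unfold thorpDest
    rw [dif_pos h1]
    have e : (⟨((EE d (Fin.cons false p) : Fin (2 * 2 ^ d)) : ℕ), h1⟩ : Fin (2 ^ d)) = Ed d p :=
      Fin.ext hx'
    rw [e, hx']
    simp
  · have hx' : ((EE d (Fin.cons true p) : Fin (2 * 2 ^ d)) : ℕ) = 2 ^ d + cval d p := by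
      simpa using hx
    have h1 : ¬ ((EE d (Fin.cons true p) : Fin (2 * 2 ^ d)) : ℕ) < 2 ^ d := by omega
    have h2 : ((EE d (Fin.cons true p) : Fin (2 * 2 ^ d)) : ℕ) - 2 ^ d < 2 ^ d := by omega
    have h3 : ((EE d (Fin.cons true p) : Fin (2 * 2 ^ d)) : ℕ) - 2 ^ d = cval d p := by omega
    unfold thorpDest
    rw [dif_neg h1, dif_pos h2]
    have e : (⟨((EE d (Fin.cons true p) : Fin (2 * 2 ^ d)) : ℕ) - 2 ^ d, h2⟩ : Fin (2 ^ d)) =
        Ed d p := Fin.ext h3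
    rw [e, h3]
    cases c (Ed d p) <;> simp

lemma thorp_iff (d : ℕ) (c : Fin (2 ^ d) → Bool) (g : Perm (Fin (2 * 2 ^ d))) :
    (∀ x, ((g x : Fin (2 * 2 ^ d)) : ℕ) = thorpDest (2 ^ d) c x) ↔ gc d c = g := by
  constructor
  · intro h
    ext1 x
    apply Fin.ext
    rw [h x, gc_val]
  · rintro rfl x
    exact gc_val d c x

lemma thorpLaw_eq (d : ℕ) (g : Perm (Fin (2 * 2 ^ d))) :
    thorpLaw (2 ^ d) g =
      ((Finset.univ.filter fun c : Fin (2 ^ d) → Bool => gc d c = g).card : ℝ) / 2 ^ (2 ^ d) := by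
  simp only [thorpLaw, thorp_iff]

/-- The transition operator of one shuffle on functions. -/
noncomputable def Lq (d : ℕ) : GS (Fin (2 * 2 ^ d)) →L[ℝ] GS (Fin (2 * 2 ^ d)) :=
  ((2 : ℝ) ^ (2 ^ d))⁻¹ • ∑ c : Fin (2 ^ d) → Bool, (regRep (Fin (2 * 2 ^ d))).ρ (gc d c)

lemma Lq_apply (d : ℕ) (f : GS (Fin (2 * 2 ^ d))) (g : Perm (Fin (2 * 2 ^ d))) :
    Lq d f g = ((2 : ℝ) ^ (2 ^ d))⁻¹ * ∑ c : Fin (2 ^ d) → Bool, f ((gc d c)⁻¹ * g) := by
  have h : (Lq d f) = ((2 : ℝ) ^ (2 ^ d))⁻¹ •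
      ∑ c : Fin (2 ^ d) → Bool, (regRep (Fin (2 * 2 ^ d))).ρ (gc d c) f := by
    simp [Lq, _root_.sum_apply]
  rw [h]
  simp only [WithLp.ofLp_smul, Pi.smul_apply, WithLp.ofLp_sum, Finset.sum_apply, regRep_apply,
    smul_eq_mul]

lemma norm_Lq_le (d : ℕ) (f : GS (Fin (2 * 2 ^ d))) : ‖Lq d f‖ ≤ ‖f‖ := by
  have h : (Lq d f) = ((2 : ℝ) ^ (2 ^ d))⁻¹ •
      ∑ c : Fin (2 ^ d) → Bool, (regRep (Fin (2 * 2 ^ d))).ρ (gc d c) f := by
    simp [Lq, _root_.sum_apply]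
  rw [h, norm_smul, norm_inv, Real.norm_of_nonneg (by positivity)]
  have h1 : ‖∑ c : Fin (2 ^ d) → Bool, (regRep (Fin (2 * 2 ^ d))).ρ (gc d c) f‖ ≤
      ∑ _c : Fin (2 ^ d) → Bool, ‖f‖ := by
    refine (norm_sum_le _ _).trans (le_of_eq ?_)
    simp only [ORep.norm_ρ]
  simp only [Finset.sum_const, Finset.card_univ, nsmul_eq_mul] at h1
  have hc : (Fintype.card (Fin (2 ^ d) → Bool) : ℝ) = (2 : ℝ) ^ (2 ^ d) := by
    simp
  rw [hc] at h1
  calc ((2 : ℝ) ^ (2 ^ d))⁻¹ * ‖∑ c : Fin (2 ^ d) → Bool, (regRep (Fin (2 * 2 ^ d))).ρ (gc d c) f‖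
      ≤ ((2 : ℝ) ^ (2 ^ d))⁻¹ * ((2 : ℝ) ^ (2 ^ d) * ‖f‖) :=
        mul_le_mul_of_nonneg_left h1 (by positivity)
    _ = ‖f‖ := by field_simp

/-- The vector of the law after `T` shuffles. -/
noncomputable def uu (d T : ℕ) : GS (Fin (2 * 2 ^ d)) := ((Lq d) ^ T) (dl 1)

lemma uu_succ (d T : ℕ) : uu d (T + 1) = Lq d (uu d T) := by
  simp only [uu, pow_succ']
  rfl

lemma conv_law (d : ℕ) (f : Perm (Fin (2 * 2 ^ d)) → ℝ) (g : Perm (Fin (2 * 2 ^ d))) :
    conv (thorpLaw (2 ^ d)) f g =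
      ((2 : ℝ) ^ (2 ^ d))⁻¹ * ∑ c : Fin (2 ^ d) → Bool, f ((gc d c)⁻¹ * g) := by
  simp only [conv, thorpLaw_eq]
  have h : ∀ h : Perm (Fin (2 * 2 ^ d)),
      ((Finset.univ.filter fun c : Fin (2 ^ d) → Bool => gc d c = h).card : ℝ) / 2 ^ (2 ^ d) *
        f (h⁻¹ * g) = ((2 : ℝ) ^ (2 ^ d))⁻¹ *
        ∑ c ∈ Finset.univ.filter (fun c : Fin (2 ^ d) → Bool => gc d c = h),
          f ((gc d c)⁻¹ * g) := by
    intro h
    have : ∀ c ∈ Finset.univ.filter (fun c : Fin (2 ^ d) → Bool => gc d c = h),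
        f ((gc d c)⁻¹ * g) = f (h⁻¹ * g) := by
      intro c hc
      rw [(Finset.mem_filter.mp hc).2]
    rw [Finset.sum_congr rfl this, Finset.sum_const, nsmul_eq_mul]
    field_simp
  simp only [h]
  rw [← Finset.mul_sum, Finset.sum_fiberwise]

lemma uu_apply (d T : ℕ) (g : Perm (Fin (2 * 2 ^ d))) :
    uu d T g = convPow (thorpLaw (2 ^ d)) T g := by
  induction T generalizing g with
  | zero =>
    simp only [uu, pow_zero, convPow]
    show (dl (1 : Perm (Fin (2 * 2 ^ d)))) g = _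
    simp [dl, PiLp.single_apply]
  | succ T ih =>
    rw [uu_succ, Lq_apply]
    simp only [convPow]
    rw [conv_law]
    simp only [ih]

lemma sum_uu (d T : ℕ) : ∑ g, uu d T g = 1 := by
  induction T with
  | zero =>
    simp only [uu, pow_zero]
    show ∑ g, (dl (1 : Perm (Fin (2 * 2 ^ d)))) g = 1
    simp [dl, PiLp.single_apply]
  | succ T ih =>
    rw [uu_succ]
    simp only [Lq_apply]
    rw [← Finset.mul_sum, Finset.sum_comm]
    have h : ∀ c : Fin (2 ^ d) → Bool,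
        ∑ g, uu d T ((gc d c)⁻¹ * g) = 1 := by
      intro c
      have := Equiv.sum_comp (Equiv.mulLeft (gc d c)⁻¹) (fun g => (uu d T) g)
      exact this.trans ih
    simp only [h]
    simp

/-- The representation of the cube obtained from the regular representation. -/
noncomputable def Rcube (d : ℕ) : ORep (Cube (d + 1)) (GS (Fin (2 * 2 ^ d))) :=
  (regRep (Fin (2 * 2 ^ d))).comp ((EE d).permCongrHom : Perm (Cube (d + 1)) →* _)

lemma Rcube_Lap (d : ℕ) : (Rcube d).Lap = (regRep (Fin (2 * 2 ^ d))).Lap :=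
  (regRep (Fin (2 * 2 ^ d))).Lap_comp_equiv (EE d)

/-- The coin reindexing. -/
noncomputable def coinE (d : ℕ) : (Fin (2 ^ d) → Bool) ≃ (Cube d → Bool) :=
  Equiv.arrowCongr (Ed d).symm (Equiv.refl Bool)

lemma coinE_apply (d : ℕ) (c : Fin (2 ^ d) → Bool) : coinE d c = c ∘ Ed d := rfl

lemma Lq_eq (d : ℕ) : Lq d = (Rcube d).ρ (rot (d + 1)) * (Rcube d).pull.PiOp := by
  have hc : (Fintype.card (Cube d → Bool) : ℝ) = (2 : ℝ) ^ (2 ^ d) := by
    simp
  simp only [Lq, ORep.PiOp, hc, mul_smul_comm, Finset.mul_sum]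
  congr 1
  rw [← Equiv.sum_comp (coinE d)]
  refine Finset.sum_congr rfl fun c _ => ?_
  rw [ORep.pull_ρ, ← map_mul]
  rfl

lemma Lq_pow (d : ℕ) : (Lq d) ^ (d + 1) = RR (d + 1) (Rcube d) := by
  rw [Lq_eq]
  exact thorp_power _

lemma uu_mul (d t : ℕ) : uu d ((d + 1) * t) = ((RR (d + 1) (Rcube d)) ^ t) (dl 1) := by
  rw [uu, pow_mul, Lq_pow]

/-- The L2 norm of the law is nonincreasing along the shuffles. -/
lemma norm_uu_mono (d : ℕ) {T T' : ℕ} (h : T ≤ T') : ‖uu d T'‖ ≤ ‖uu d T‖ := by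
  induction T', h using Nat.le_induction with
  | base => exact le_rfl
  | succ T' _ ih =>
    rw [uu_succ]
    exact (norm_Lq_le d _).trans ih

lemma sig_lower (k : ℕ) : 1 / 256 ≤ sig k * 2 ^ k := by
  obtain ⟨_, _, h⟩ := sig_bounds k
  have : (0 : ℝ) ≤ 1 / 2 ^ (k + 1) := by positivity
  nlinarith

/-- The L2 norm after `3072 (d + 1) ^ 2` shuffles. -/
lemma L2_bound (d t : ℕ) (ht : 3072 * ((d : ℝ) + 1) ≤ t) :
    (Fintype.card (Perm (Fin (2 * 2 ^ d))) : ℝ) * ‖uu d ((d + 1) * t)‖ ^ 2 ≤ 5 / 4 := by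
  have h1 := iterate_bound (d + 1) (Rcube d) t (dl 1)
  rw [← uu_mul, Rcube_Lap] at h1
  have hτ : (0 : ℝ) ≤ (t : ℝ) * sig (d + 1) := by
    have := (sig_bounds (d + 1)).1
    positivity
  have hcard : Fintype.card (Fin (2 * 2 ^ d)) = 2 * 2 ^ d := by simp
  have hε : Real.exp (-((t : ℝ) * sig (d + 1)) * ((Fintype.card (Fin (2 * 2 ^ d)) : ℝ) / 2)) *
      (Fintype.card (Fin (2 * 2 ^ d)) : ℝ) ^ 6 ≤ 1 := by
    have hn : (Fintype.card (Fin (2 * 2 ^ d)) : ℝ) = 2 ^ (d + 1) := by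
      rw [hcard, pow_succ']
      push_cast
      ring
    rw [hn]
    have hk0 : (0 : ℝ) ≤ (d : ℝ) + 1 := by positivity
    have h2 : (6 : ℝ) * ((d : ℝ) + 1) ≤ (t : ℝ) * sig (d + 1) * (2 ^ (d + 1) / 2) := by
      have h3 := sig_lower (d + 1)
      have ht0 : (0 : ℝ) ≤ t := by positivity
      have h4 : (t : ℝ) * (1 / 256) ≤ (t : ℝ) * (sig (d + 1) * 2 ^ (d + 1)) :=
        mul_le_mul_of_nonneg_left h3 ht0
      have h5 : (t : ℝ) * sig (d + 1) * (2 ^ (d + 1) / 2) =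
          ((t : ℝ) * (sig (d + 1) * 2 ^ (d + 1))) / 2 := by ring
      rw [h5]
      linarith
    have h5 : Real.exp (-((t : ℝ) * sig (d + 1)) * (2 ^ (d + 1) / 2)) ≤
        Real.exp (-(6 * ((d : ℝ) + 1))) := by
      apply Real.exp_le_exp.mpr
      linarith
    have h6 : ((2 : ℝ) ^ (d + 1)) ^ 6 ≤ Real.exp (6 * ((d : ℝ) + 1)) := by
      have h7 : (2 : ℝ) ≤ Real.exp 1 := by
        have := Real.add_one_le_exp (1 : ℝ)
        linarith
      have h8 : (2 : ℝ) ^ ((d + 1) * 6) ≤ (Real.exp 1) ^ ((d + 1) * 6) :=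
        pow_le_pow_left₀ (by norm_num) h7 _
      rw [Real.exp_one_pow] at h8
      rw [← pow_mul]
      refine h8.trans (le_of_eq ?_)
      push_cast
      ring_nf
    calc Real.exp (-((t : ℝ) * sig (d + 1)) * (2 ^ (d + 1) / 2)) * ((2 : ℝ) ^ (d + 1)) ^ 6
        ≤ Real.exp (-(6 * ((d : ℝ) + 1))) * Real.exp (6 * ((d : ℝ) + 1)) :=
          mul_le_mul h5 h6 (by positivity) (Real.exp_pos _).le
      _ = 1 := by rw [← Real.exp_add]; simp
  have h9 := regular_heat (I := Fin (2 * 2 ^ d)) (m := 2 ^ d) Nat.one_le_two_pow hcard hτ hε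
  have hpos : (0 : ℝ) ≤ (Fintype.card (Perm (Fin (2 * 2 ^ d))) : ℝ) := by positivity
  exact (mul_le_mul_of_nonneg_left h1 hpos).trans h9

/-- L2 bound to total variation. -/
lemma tv_of_L2 {G : Type*} [Fintype G] (f : G → ℝ) (hsum : ∑ g, f g = 1) [Nonempty G]
    (hL2 : (Fintype.card G : ℝ) * ∑ g, f g ^ 2 ≤ 5 / 4) : tvUniform f ≤ 1 / 4 := by
  set N : ℝ := (Fintype.card G : ℝ) with hN
  have hNpos : 0 < N := by
    rw [hN]
    have : 0 < Fintype.card G := Fintype.card_pos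
    exact_mod_cast this
  have h1 : (∑ g, |f g - 1 / N|) ^ 2 ≤ N * ∑ g, |f g - 1 / N| ^ 2 := by
    have := sq_sum_le_card_mul_sum_sq (s := (Finset.univ : Finset G)) (f := fun g => |f g - 1 / N|)
    simpa [hN] using this
  have h2 : ∑ g, |f g - 1 / N| ^ 2 = ∑ g, f g ^ 2 - 1 / N := by
    have h3 : ∀ g, |f g - 1 / N| ^ 2 = f g ^ 2 - (2 / N) * f g + 1 / N ^ 2 := by
      intro g
      rw [sq_abs]
      field_simp
      ring
    simp only [h3]
    rw [Finset.sum_add_distrib, Finset.sum_sub_distrib, ← Finset.mul_sum, hsum, Finset.sum_const,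
      Finset.card_univ, nsmul_eq_mul, ← hN]
    field_simp
    ring
  rw [h2, mul_sub, mul_one_div_cancel hNpos.ne'] at h1
  have h4 : (∑ g, |f g - 1 / N|) ^ 2 ≤ (1 / 2) ^ 2 := by
    have : (1 / 2 : ℝ) ^ 2 = 5 / 4 - 1 := by norm_num
    rw [this]
    linarith
  have h5 : ∑ g, |f g - 1 / N| ≤ 1 / 2 :=
    abs_le_of_sq_le_sq' h4 (by norm_num) |>.2
  rw [tvUniform, ← hN]
  linarith

/-- **Main theorem**: the mixing time of the Thorp shuffle on `2 ^ (d + 1)` cards is at most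
`3072 (d + 1) ^ 2`. -/
theorem thorp_tv_bound (d T : ℕ) (hT : 3072 * (d + 1) ^ 2 ≤ T) :
    tvUniform (convPow (thorpLaw (2 ^ d)) T) ≤ 1 / 4 := by
  obtain ⟨t, ht⟩ : ∃ t, t = 3072 * (d + 1) := ⟨_, rfl⟩
  have hT' : (d + 1) * t ≤ T := by
    rw [ht]; nlinarith
  have hmono := norm_uu_mono d hT'
  have hL := L2_bound d t (by rw [ht]; push_cast; exact le_rfl)
  have hfun : convPow (thorpLaw (2 ^ d)) T = fun g => uu d T g := by
    funext g
    exact (uu_apply d T g).symm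
  rw [hfun]
  refine tv_of_L2 _ (sum_uu d T) ?_
  have h1 : ∑ g, (uu d T g) ^ 2 = ‖uu d T‖ ^ 2 := by
    rw [EuclideanSpace.norm_sq_eq]
    simp
  rw [h1]
  refine le_trans ?_ hL
  refine mul_le_mul_of_nonneg_left ?_ (by positivity)
  exact pow_le_pow_left₀ (norm_nonneg _) hmono 2

end Vale.Agent.P162
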