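import Mathlib

/-!
The Thorp shuffle: definitions used in the statement.
Positions are numbered from `0` to `2 * m - 1`.
-/

namespace Vale.Agent.P162

/-- One Thorp shuffle of a deck of `2 * m` cards, with coins `c`, positions numbered from `0`:
for `i < m` the cards at positions `i` and `m + i` go to the positions `2 * i` and `2 * i + 1`,
in an order given by the coin `c i`. This is the new position of the card at position `x`. -/
def thorpDest (m : ℕ) (c : Fin m → Bool) (x : Fin (2 * m)) : ℕ :=
  if h : x.val < m then
    2 * x.val + (if c ⟨x.val, h⟩ then 1 else 0)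
  else if h' : x.val - m < m then
    2 * (x.val - m) + (if c ⟨x.val - m, h'⟩ then 0 else 1)
  else 0

/-- The law of the permutation of positions produced by one Thorp shuffle of `2 * m` cards with
`m` independent fair coins: the probability of `g` is the fraction of coin vectors producing `g`. -/
noncomputable def thorpLaw (m : ℕ) (g : Equiv.Perm (Fin (2 * m))) : ℝ :=
  ((Finset.univ.filter fun c : Fin m → Bool => ∀ x, ((g x : Fin (2 * m)) : ℕ) = thorpDest m c x).card : ℝ)
    / 2 ^ m

/-- Convolution of two functions on a finite group. -/
noncomputable def conv {G : Type*} [Group G] [Fintype G] (μ ν : G → ℝ) (g : G) : ℝ :=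
  ∑ h, μ h * ν (h⁻¹ * g)

/-- Convolution powers of a function on a finite group. -/
noncomputable def convPow {G : Type*} [Group G] [Fintype G] [DecidableEq G] (μ : G → ℝ) :
    ℕ → G → ℝ
  | 0 => fun g => if g = 1 then 1 else 0
  | t + 1 => conv μ (convPow μ t)

/-- Total variation distance between `μ` and the uniform law on a finite type. -/
noncomputable def tvUniform {G : Type*} [Fintype G] (μ : G → ℝ) : ℝ :=
  (1 / 2) * ∑ g, |μ g - 1 / (Fintype.card G : ℝ)|

end Vale.Agent.P162
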