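import Vale.Agent.P162.Rep

/-!
A representation free spectral gap filtration for the transposition Laplacian.
-/

open scoped RealInnerProductSpace
open Finset Equiv

namespace Vale.Agent.P162

set_option linter.unusedSectionVars false

variable {I H : Type*} [Fintype I] [DecidableEq I] [NormedAddCommGroup H]
  [InnerProductSpace ℝ H] [FiniteDimensional ℝ H]

/-- A symmetric operator preserving a subspace commutes with the orthogonal projection. -/
lemma commute_proj (X : H →L[ℝ] H) (hX : ∀ x y, ⟪X x, y⟫ = ⟪x, X y⟫) (K : Submodule ℝ H)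
    (hK : ∀ v ∈ K, X v ∈ K) : Commute X K.starProjection := by
  ext x
  show X (K.starProjection x) = K.starProjection (X x)
  have h1 : X (x - K.starProjection x) ∈ Kᗮ := by
    rw [Submodule.mem_orthogonal]
    intro u hu
    rw [real_inner_comm, hX, real_inner_comm]
    exact (Submodule.mem_orthogonal K _).mp (Submodule.sub_starProjection_mem_orthogonal x) _ (hK u hu)
  have h2 : K.starProjection (X (x - K.starProjection x)) = 0 :=
    (Submodule.starProjection_apply_eq_zero_iff K).mpr h1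
  rw [map_sub, map_sub] at h2
  have h3 : K.starProjection (X (K.starProjection x)) = X (K.starProjection x) :=
    Submodule.starProjection_eq_self_iff.mpr (hK _ (Submodule.starProjection_apply_mem K x))
  rw [h3] at h2
  exact (sub_eq_zero.mp h2).symm

namespace ORep

variable (R : ORep I H)

/-- The Laplacian on a subset. -/
noncomputable def LapOn (Z : Finset I) : H →L[ℝ] H := (1 / 2 : ℝ) • ∑ a ∈ Z, ∑ b ∈ Z, (1 - R.S a b)

lemma LapOn_apply (Z : Finset I) (w : H) :
    R.LapOn Z w = (1 / 2 : ℝ) • ∑ a ∈ Z, ∑ b ∈ Z, (w - R.S a b w) := by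
  simp [LapOn, _root_.sum_apply, sub_apply]

lemma Lap_eq_LapOn : R.Lap = R.LapOn univ := rfl

lemma inner_LapOn (Z : Finset I) (w : H) :
    ⟪w, R.LapOn Z w⟫ = (1 / 2) * ∑ a ∈ Z, ∑ b ∈ Z, ⟪w, w - R.S a b w⟫ := by
  rw [LapOn_apply, inner_smul_right, inner_sum]
  simp only [inner_sum]

lemma LapOn_sym (Z : Finset I) (x y : H) : ⟪R.LapOn Z x, y⟫ = ⟪x, R.LapOn Z y⟫ := by
  simp only [LapOn_apply, inner_smul_left, inner_smul_right, sum_inner, inner_sum,
    inner_sub_left, inner_sub_right, R.S_sym]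
  simp

lemma LapOn_nonneg (Z : Finset I) (w : H) : 0 ≤ ⟪w, R.LapOn Z w⟫ := by
  rw [inner_LapOn]
  have : 0 ≤ ∑ a ∈ Z, ∑ b ∈ Z, ⟪w, w - R.S a b w⟫ :=
    Finset.sum_nonneg fun a _ => Finset.sum_nonneg fun b _ => R.form_nonneg a b w
  linarith

/-- The vectors fixed by all transpositions inside `W`. -/
def FixS (W : Finset I) : Submodule ℝ H where
  carrier := {v | ∀ a ∈ W, ∀ b ∈ W, R.S a b v = v}
  add_mem' := by
    intro x y hx hy a ha b hb
    rw [map_add, hx a ha b hb, hy a ha b hb]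
  zero_mem' := by intro a _ b _; simp
  smul_mem' := by
    intro c x hx a ha b hb
    rw [map_smul, hx a ha b hb]

lemma mem_FixS {W : Finset I} {v : H} : v ∈ R.FixS W ↔ ∀ a ∈ W, ∀ b ∈ W, R.S a b v = v := Iff.rfl

lemma FixS_anti {W W' : Finset I} (h : W' ⊆ W) : R.FixS W ≤ R.FixS W' :=
  fun _ hv a ha b hb => hv a (h ha) b (h hb)

lemma FixS_image (g : Perm I) {W : Finset I} {v : H} (hv : v ∈ R.FixS W) :
    R.ρ g v ∈ R.FixS (W.map g.toEmbedding) := by
  intro a ha b hb
  obtain ⟨a', ha', rfl⟩ := Finset.mem_map.mp ha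
  obtain ⟨b', hb', rfl⟩ := Finset.mem_map.mp hb
  show R.S (g a') (g b') (R.ρ g v) = R.ρ g v
  rw [← R.ρ_S, hv a' ha' b' hb']

/-- The subspace of level `j` for the subset `Z`. -/
def SubL (Z : Finset I) (j : ℕ) : Submodule ℝ H :=
  ⨆ (W : Finset I) (_ : W ⊆ Z ∧ W.card + j = Z.card), R.FixS W

lemma FixS_le_SubL {Z W : Finset I} {j : ℕ} (h : W ⊆ Z) (hc : W.card + j = Z.card) :
    R.FixS W ≤ R.SubL Z j :=
  le_iSup₂_of_le W ⟨h, hc⟩ le_rfl

/-- To bound `SubL` from above it is enough to look at the generators. -/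
lemma SubL_le {Z : Finset I} {j : ℕ} {K : Submodule ℝ H}
    (h : ∀ W, W ⊆ Z → W.card + j = Z.card → R.FixS W ≤ K) : R.SubL Z j ≤ K :=
  iSup₂_le fun W hW => h W hW.1 hW.2

/-- Transpositions inside `Z` preserve `SubL Z j`. -/
lemma S_mem_SubL {Z : Finset I} {j : ℕ} {a b : I} (ha : a ∈ Z) (hb : b ∈ Z) {v : H}
    (hv : v ∈ R.SubL Z j) : R.S a b v ∈ R.SubL Z j := by
  have hle : R.SubL Z j ≤ (R.SubL Z j).comap (R.S a b : H →ₗ[ℝ] H) := by
    refine R.SubL_le fun W hW hc x hx => ?_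
    have h1 := R.FixS_image (swap a b) hx
    have h2 : W.map (swap a b).toEmbedding ⊆ Z := by
      intro y hy
      obtain ⟨y', hy', rfl⟩ := Finset.mem_map.mp hy
      show swap a b y' ∈ Z
      by_cases e1 : y' = a
      · subst e1; simpa using hb
      · by_cases e2 : y' = b
        · subst e2; simpa using ha
        · rw [swap_apply_of_ne_of_ne e1 e2]; exact hW hy'
    exact R.FixS_le_SubL h2 (by rw [Finset.card_map]; exact hc) h1
  exact hle hv

lemma LapOn_mem_SubL {Z Y : Finset I} (hY : Y ⊆ Z) {j : ℕ} {v : H} (hv : v ∈ R.SubL Z j) :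
    R.LapOn Y v ∈ R.SubL Z j := by
  rw [LapOn_apply]
  refine Submodule.smul_mem _ _ (Submodule.sum_mem _ fun a ha => Submodule.sum_mem _ fun b hb => ?_)
  exact Submodule.sub_mem _ hv (R.S_mem_SubL (hY ha) (hY hb) hv)

/-- The projection onto `SubL Z j` commutes with transpositions inside `Z`. -/
lemma commute_S_proj {Z : Finset I} {j : ℕ} {a b : I} (ha : a ∈ Z) (hb : b ∈ Z) :
    Commute (R.S a b) (R.SubL Z j).starProjection :=
  commute_proj _ (R.S_sym a b) _ fun _ hv => R.S_mem_SubL ha hb hv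

lemma commute_LapOn_proj {Z Y : Finset I} (hY : Y ⊆ Z) {j : ℕ} :
    Commute (R.LapOn Y) (R.SubL Z j).starProjection :=
  commute_proj _ (R.LapOn_sym Y) _ fun _ hv => R.LapOn_mem_SubL hY hv

/-- The coset sum lies in the next fixed space. -/
lemma coset_sum_mem {W : Finset I} {y : I} (hy : y ∉ W) {v : H} (hv : v ∈ R.FixS W) :
    v + ∑ z ∈ W, R.S y z v ∈ R.FixS (insert y W) := by
  have hyz : ∀ z ∈ W, y ≠ z := fun z hz h => hy (h ▸ hz)
  -- the case of a transposition inside `W`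
  have h1 : ∀ a ∈ W, ∀ b ∈ W, R.S a b (v + ∑ z ∈ W, R.S y z v) = v + ∑ z ∈ W, R.S y z v := by
    intro a ha b hb
    rw [map_add, map_sum, hv a ha b hb]
    congr 1
    refine Finset.sum_equiv (swap a b) ?_ ?_
    · intro z
      by_cases e1 : z = a
      · subst e1; simp [ha, hb]
      · by_cases e2 : z = b
        · subst e2; simp [ha, hb]
        · rw [swap_apply_of_ne_of_ne e1 e2]
    · intro z hz
      have e0 : swap a b y = y :=
        swap_apply_of_ne_of_ne (hyz a ha) (hyz b hb)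
      have := R.ρ_S (swap a b) y z v
      show R.S a b (R.S y z v) = _
      rw [S, this, e0]
      congr 1
      exact hv a ha b hb
  -- the case of a transposition with `y`
  have h2 : ∀ b ∈ W, R.S y b (v + ∑ z ∈ W, R.S y z v) = v + ∑ z ∈ W, R.S y z v := by
    intro b hb
    rw [map_add, map_sum, ← Finset.add_sum_erase W _ hb, ← Finset.add_sum_erase W _ hb, R.S_sq]
    have h3 : ∀ z ∈ W.erase b, R.S y b (R.S y z v) = R.S y z v := by
      intro z hz
      have hzb : z ≠ b := Finset.ne_of_mem_erase hz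
      have hzW : z ∈ W := Finset.mem_of_mem_erase hz
      have e1 : swap y b z = z := swap_apply_of_ne_of_ne (hyz z hzW).symm hzb
      have e2 : swap y b y = b := swap_apply_left y b
      have s1 : R.S y b (R.S y z v) = R.S b z (R.S y b v) := by
        have := R.ρ_S (swap y b) y z v
        rw [e1, e2] at this
        exact this
      have e3 : swap b z y = y := swap_apply_of_ne_of_ne (hyz b hb) (hyz z hzW)
      have e4 : swap b z b = z := swap_apply_left b z
      have s2 : R.S b z (R.S y b v) = R.S y z (R.S b z v) := by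
        have := R.ρ_S (swap b z) y b v
        rw [e3, e4] at this
        exact this
      rw [s1, s2, hv b hb z hzW]
    rw [Finset.sum_congr rfl h3]
    abel
  intro a ha b hb
  rcases Finset.mem_insert.mp ha with rfl | ha'
  · rcases Finset.mem_insert.mp hb with rfl | hb'
    · rw [R.S_self]; rfl
    · exact h2 b hb'
  · rcases Finset.mem_insert.mp hb with rfl | hb'
    · rw [R.S_comm]; exact h2 a ha'
    · exact h1 a ha' b hb'

/-- The projection onto the orthogonal complement. -/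
noncomputable def QQ (Z : Finset I) (j : ℕ) (x : H) : H := x - (R.SubL Z j).starProjection x

lemma S_QQ {Z : Finset I} {j : ℕ} {a b : I} (ha : a ∈ Z) (hb : b ∈ Z) (x : H) :
    R.S a b (R.QQ Z j x) = R.QQ Z j (R.S a b x) := by
  have : R.S a b ((R.SubL Z j).starProjection x) = (R.SubL Z j).starProjection (R.S a b x) :=
    congrArg (fun T : H →L[ℝ] H => T x) (R.commute_S_proj (j := j) ha hb)
  rw [QQ, QQ, map_sub, this]

lemma QQ_add (Z : Finset I) (j : ℕ) (x y : H) : R.QQ Z j (x + y) = R.QQ Z j x + R.QQ Z j y := by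
  simp only [QQ, map_add]; abel

lemma QQ_sum {ι : Type*} (Z : Finset I) (j : ℕ) (s : Finset ι) (f : ι → H) :
    R.QQ Z j (∑ i ∈ s, f i) = ∑ i ∈ s, R.QQ Z j (f i) := by
  simp only [QQ, map_sum, Finset.sum_sub_distrib]

lemma QQ_mem (Z : Finset I) (j : ℕ) (x : H) : R.QQ Z j x ∈ (R.SubL Z j)ᗮ :=
  Submodule.sub_starProjection_mem_orthogonal x

lemma QQ_of_mem {Z : Finset I} {j : ℕ} {x : H} (hx : x ∈ R.SubL Z j) : R.QQ Z j x = 0 := by
  rw [QQ, Submodule.starProjection_eq_self_iff.mpr hx, sub_self]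

lemma QQ_of_orth {Z : Finset I} {j : ℕ} {x : H} (hx : x ∈ (R.SubL Z j)ᗮ) : R.QQ Z j x = x := by
  rw [QQ, (Submodule.starProjection_apply_eq_zero_iff _).mpr hx, sub_zero]

lemma LapOn_QQ {Z Y : Finset I} (hY : Y ⊆ Z) {j : ℕ} (x : H) :
    R.LapOn Y (R.QQ Z j x) = R.QQ Z j (R.LapOn Y x) := by
  have : R.LapOn Y ((R.SubL Z j).starProjection x) = (R.SubL Z j).starProjection (R.LapOn Y x) :=
    congrArg (fun T : H →L[ℝ] H => T x) (R.commute_LapOn_proj hY (j := j))
  rw [QQ, QQ, map_sub, this]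

/-- **The pure formula.** -/
lemma pure_formula {Z W : Finset I} {j : ℕ} (hW : W ⊆ Z) (hc : W.card + (j + 1) = Z.card)
    {v : H} (hv : v ∈ R.FixS W) :
    R.LapOn Z (R.QQ Z j v) = (((j : ℝ) + 1) * ((W.card : ℝ) + 1)) • R.QQ Z j v +
      R.LapOn (Z \ W) (R.QQ Z j v) := by
  set v' := R.QQ Z j v with hv'
  set Y := Z \ W with hY
  have hYZ : Y ⊆ Z := Finset.sdiff_subset
  have hZ : Z = W ∪ Y := (Finset.union_sdiff_of_subset hW).symm
  have hdisj : Disjoint W Y := Finset.disjoint_sdiff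
  have hYcard : Y.card = j + 1 := by
    rw [hY, Finset.card_sdiff_of_subset hW]; omega
  -- inside `W` nothing happens
  have h1 : ∀ a ∈ W, ∀ b ∈ W, R.S a b v' = v' := by
    intro a ha b hb
    rw [hv', R.S_QQ (hW ha) (hW hb), hv a ha b hb]
  -- the coset relation
  have h2 : ∀ y ∈ Y, ∑ z ∈ W, R.S y z v' = -v' := by
    intro y hy
    have hyW : y ∉ W := (Finset.mem_sdiff.mp hy).2
    have hmem := R.coset_sum_mem hyW hv
    have hsub : insert y W ⊆ Z := Finset.insert_subset (hYZ hy) hW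
    have hle : R.FixS (insert y W) ≤ R.SubL Z j :=
      R.FixS_le_SubL hsub (by rw [Finset.card_insert_of_notMem hyW]; omega)
    have h0 := R.QQ_of_mem (hle hmem)
    rw [QQ_add, QQ_sum] at h0
    have h3 : ∀ z ∈ W, R.QQ Z j (R.S y z v) = R.S y z v' := by
      intro z hz
      rw [hv', R.S_QQ (hYZ hy) (hW hz)]
    rw [Finset.sum_congr rfl h3] at h0
    exact eq_neg_of_add_eq_zero_right h0
  -- the mixed sums
  have h4 : ∀ y ∈ Y, ∑ z ∈ W, (v' - R.S y z v') = ((W.card : ℝ) + 1) • v' := by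
    intro y hy
    rw [Finset.sum_sub_distrib, h2 y hy, Finset.sum_const, add_smul, one_smul, sub_neg_eq_add]
    congr 1
    rw [Nat.cast_smul_eq_nsmul]
  have h5 : ∑ a ∈ W, ∑ b ∈ W, (v' - R.S a b v') = 0 := by
    refine Finset.sum_eq_zero fun a ha => Finset.sum_eq_zero fun b hb => ?_
    rw [h1 a ha b hb, sub_self]
  have h6 : ∑ a ∈ Y, ∑ b ∈ W, (v' - R.S a b v') = (((j : ℝ) + 1) * ((W.card : ℝ) + 1)) • v' := by
    rw [Finset.sum_congr rfl h4, Finset.sum_const, hYcard, ← Nat.cast_smul_eq_nsmul ℝ, smul_smul]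
    push_cast
    ring_nf
  have h7 : ∑ a ∈ W, ∑ b ∈ Y, (v' - R.S a b v') = (((j : ℝ) + 1) * ((W.card : ℝ) + 1)) • v' := by
    rw [Finset.sum_comm, ← h6]
    refine Finset.sum_congr rfl fun a _ => Finset.sum_congr rfl fun b _ => ?_
    rw [R.S_comm]
  have hsplit : ∑ a ∈ Z, ∑ b ∈ Z, (v' - R.S a b v') =
      ∑ a ∈ W, ∑ b ∈ W, (v' - R.S a b v') + ∑ a ∈ W, ∑ b ∈ Y, (v' - R.S a b v') +
      ∑ a ∈ Y, ∑ b ∈ W, (v' - R.S a b v') + ∑ a ∈ Y, ∑ b ∈ Y, (v' - R.S a b v') := by
    conv_lhs => rw [hZ]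
    rw [Finset.sum_union hdisj]
    simp only [Finset.sum_union hdisj, Finset.sum_add_distrib]
    abel
  rw [LapOn_apply, LapOn_apply, hsplit, h5, h6, h7]
  module

/-- Transpositions in `W` commute with the Laplacian on a disjoint set. -/
lemma S_LapOn_disjoint {W Y : Finset I} (h : Disjoint W Y) {a b : I} (ha : a ∈ W) (hb : b ∈ W)
    (w : H) : R.S a b (R.LapOn Y w) = R.LapOn Y (R.S a b w) := by
  rw [LapOn_apply, LapOn_apply, map_smul, map_sum]
  congr 1
  refine Finset.sum_congr rfl fun c hc => ?_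
  rw [map_sum]
  refine Finset.sum_congr rfl fun d hd => ?_
  rw [map_sub]
  congr 1
  have hac : c ≠ a := fun e => (Finset.disjoint_left.mp h ha) (e ▸ hc)
  have hbc : c ≠ b := fun e => (Finset.disjoint_left.mp h hb) (e ▸ hc)
  have had : d ≠ a := fun e => (Finset.disjoint_left.mp h ha) (e ▸ hd)
  have hbd : d ≠ b := fun e => (Finset.disjoint_left.mp h hb) (e ▸ hd)
  have := R.ρ_S (swap a b) c d w
  rw [swap_apply_of_ne_of_ne hac hbc, swap_apply_of_ne_of_ne had hbd] at this
  exact this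

lemma LapOn_mem_FixS {W Y : Finset I} (h : Disjoint W Y) {w : H} (hw : w ∈ R.FixS W) :
    R.LapOn Y w ∈ R.FixS W := by
  intro a ha b hb
  rw [R.S_LapOn_disjoint h ha hb, hw a ha b hb]

/-- **Pure level bound.** -/
lemma pure_bound {Z : Finset I} {j : ℕ} {u : H} (hu1 : u ∈ R.SubL Z (j + 1))
    (hu2 : u ∈ (R.SubL Z j)ᗮ) :
    (((j : ℝ) + 1) * ((Z.card : ℝ) - j)) * ‖u‖ ^ 2 ≤ ⟪u, R.LapOn Z u⟫ := by
  set g : ℝ := ((j : ℝ) + 1) * ((Z.card : ℝ) - j) with hg
  let K' : Submodule ℝ H := R.SubL Z (j + 1) ⊓ (R.SubL Z j)ᗮ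
  have hK' : ∀ v ∈ K', R.LapOn Z v ∈ K' := by
    intro v hv
    refine ⟨R.LapOn_mem_SubL (Finset.Subset.refl Z) hv.1, ?_⟩
    show R.LapOn Z v ∈ (R.SubL Z j)ᗮ
    rw [Submodule.mem_orthogonal]
    intro k hk
    rw [← R.LapOn_sym]
    exact (Submodule.mem_orthogonal _ _).mp hv.2 _ (R.LapOn_mem_SubL (Finset.Subset.refl Z) hk)
  let B : H →L[ℝ] H := R.LapOn Z - g • 1
  have hB : ∀ x, B (R.LapOn Z x) = R.LapOn Z (B x) := by
    intro x
    simp [B, map_sub, map_smul]
  have key := quad_nonneg_of_eigen (R.LapOn Z) B (R.LapOn_sym Z) hB K' hK' ?_ u ⟨hu1, hu2⟩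
  · simp only [B, sub_apply, smul_apply, one_apply_eq_self, inner_sub_right, inner_smul_right,
      real_inner_self_eq_norm_sq] at key
    linarith
  · intro μ v hv hD
    have hval : ⟪v, B v⟫ = (μ - g) * ‖v‖ ^ 2 := by
      simp only [B, sub_apply, smul_apply, one_apply_eq_self, inner_sub_right, inner_smul_right, hD,
        real_inner_self_eq_norm_sq]
      ring
    rw [hval]
    by_cases hμ : g ≤ μ
    · exact mul_nonneg (by linarith) (by positivity)
    · push Not at hμ
      -- `v` vanishes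
      have hv1 : R.SubL Z (j + 1) ≤ (ℝ ∙ v)ᗮ := by
        refine R.SubL_le fun W hW hc x hx => ?_
        rw [Submodule.mem_orthogonal_singleton_iff_inner_right]
        have hxQ : ⟪v, x⟫ = ⟪v, R.QQ Z j x⟫ := by
          have h1 : ⟪v, (R.SubL Z j).starProjection x⟫ = 0 := by
            rw [real_inner_comm]
            exact (Submodule.mem_orthogonal _ _).mp hv.2 _
              (Submodule.starProjection_apply_mem _ x)
          rw [QQ, inner_sub_right, h1, sub_zero]
        rw [hxQ]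
        set Y := Z \ W with hY
        have hYZ : Y ⊆ Z := Finset.sdiff_subset
        have hdisj : Disjoint W Y := Finset.disjoint_sdiff
        let T : H →L[ℝ] H := ContinuousLinearMap.id ℝ H - (R.SubL Z j).starProjection
        have hT : ∀ y, T y = R.QQ Z j y := fun y => rfl
        let U : Submodule ℝ H := (R.FixS W).map (T : H →ₗ[ℝ] H)
        have hU : ∀ w ∈ U, R.LapOn Y w ∈ U := by
          intro w hw
          obtain ⟨w', hw', rfl⟩ := Submodule.mem_map.mp hw
          refine Submodule.mem_map.mpr ⟨R.LapOn Y w', R.LapOn_mem_FixS hdisj hw', ?_⟩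
          show T (R.LapOn Y w') = R.LapOn Y (T w')
          rw [hT, hT, R.LapOn_QQ hYZ]
        have hxU : R.QQ Z j x ∈ U := Submodule.mem_map.mpr ⟨x, hx, rfl⟩
        obtain ⟨F, f, hsum, hf⟩ := exists_eigen_sum (R.LapOn Y) (R.LapOn_sym Y) U hU _ hxU
        rw [hsum, inner_sum]
        refine Finset.sum_eq_zero fun ν _ => ?_
        obtain ⟨hf1, hf2⟩ := hf ν
        obtain ⟨w', hw', hw'e⟩ := Submodule.mem_map.mp hf1
        have hw'e' : R.QQ Z j w' = f ν := hw'e
        by_cases hf0 : f ν = 0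
        · rw [hf0, inner_zero_right]
        have hpf := R.pure_formula hW hc hw'
        rw [hw'e', hf2, ← add_smul] at hpf
        have hν : 0 ≤ ν := by
          have h1 := R.LapOn_nonneg Y (f ν)
          rw [hf2, inner_smul_right, real_inner_self_eq_norm_sq] at h1
          have hpos : 0 < ‖f ν‖ ^ 2 := by
            have : f ν ≠ 0 := hf0
            positivity
          exact nonneg_of_mul_nonneg_left h1 hpos
        have hgW : ((j : ℝ) + 1) * ((W.card : ℝ) + 1) = g := by
          rw [hg]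
          have : (Z.card : ℝ) = (W.card : ℝ) + (j + 1) := by
            rw [← hc]; push_cast; ring
          rw [this]; ring
        rw [hgW] at hpf
        exact inner_eq_zero_of_eigen (R.LapOn Z) (R.LapOn_sym Z) hD hpf (by linarith)
      have hv2 := hv1 hv.1
      rw [Submodule.mem_orthogonal_singleton_iff_inner_right, real_inner_self_eq_norm_sq] at hv2
      rw [hv2]
      simp

/-- Splitting a quadratic lower bound along an invariant pair of subspaces. -/
lemma split_bound (X : H →L[ℝ] H) (hX : ∀ x y, ⟪X x, y⟫ = ⟪x, X y⟫) {K K' : Submodule ℝ H}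
    (hKK' : K ≤ K') (hX' : ∀ v ∈ K', X v ∈ K') {g : ℝ}
    (h1 : ∀ w ∈ K', w ∈ Kᗮ → g * ‖w‖ ^ 2 ≤ ⟪w, X w⟫)
    (h2 : ∀ w ∈ K'ᗮ, g * ‖w‖ ^ 2 ≤ ⟪w, X w⟫) {u : H} (hu : u ∈ Kᗮ) :
    g * ‖u‖ ^ 2 ≤ ⟪u, X u⟫ := by
  set w := K'.starProjection u with hw
  set u' := u - w with hu'
  have hwK' : w ∈ K' := Submodule.starProjection_apply_mem _ _
  have hu'K' : u' ∈ K'ᗮ := Submodule.sub_starProjection_mem_orthogonal u
  have hsym : ∀ x y, ⟪K'.starProjection x, y⟫ = ⟪x, K'.starProjection y⟫ :=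
    fun x y => Submodule.starProjection_isSymmetric K' x y
  have hwK : w ∈ Kᗮ := by
    rw [Submodule.mem_orthogonal]
    intro k hk
    rw [hw, ← hsym, Submodule.starProjection_eq_self_iff.mpr (hKK' hk)]
    exact (Submodule.mem_orthogonal _ _).mp hu k hk
  have hue : u = w + u' := by rw [hu']; abel
  have i0 : ⟪w, u'⟫ = 0 := (Submodule.mem_orthogonal _ _).mp hu'K' w hwK'
  have i1 : ⟪X w, u'⟫ = 0 := (Submodule.mem_orthogonal _ _).mp hu'K' _ (hX' w hwK')
  have i2 : ⟪w, X u'⟫ = 0 := by rw [← hX]; exact i1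
  have i3 : ⟪u', X w⟫ = 0 := by rw [real_inner_comm]; exact i1
  have hnorm : ‖u‖ ^ 2 = ‖w‖ ^ 2 + ‖u'‖ ^ 2 := by
    rw [hue, norm_add_sq_real, i0]; ring
  have hform : ⟪u, X u⟫ = ⟪w, X w⟫ + ⟪u', X u'⟫ := by
    rw [hue, map_add, inner_add_left, inner_add_right, inner_add_right, i2, i3]
    ring
  rw [hnorm, hform, mul_add]
  exact add_le_add (h1 w hwK' hwK) (h2 u' hu'K')

/-- Averaging the Laplacian over the deletion of one point. -/
lemma sum_erase_form (Z : Finset I) (w : H) :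
    ∑ y ∈ Z, ⟪w, R.LapOn (Z.erase y) w⟫ = ((Z.card : ℝ) - 2) * ⟪w, R.LapOn Z w⟫ := by
  simp only [inner_LapOn]
  rw [← Finset.mul_sum]
  have hq : ∀ a : I, ⟪w, w - R.S a a w⟫ = 0 := by
    intro a; rw [R.S_self]; simp
  have h1 : ∀ y ∈ Z, ∑ a ∈ Z.erase y, ∑ b ∈ Z.erase y, ⟪w, w - R.S a b w⟫ =
      ∑ a ∈ Z, ∑ b ∈ Z, (if y ≠ a ∧ y ≠ b then ⟪w, w - R.S a b w⟫ else 0) := by
    intro y _
    have e : ∀ f : I → ℝ, ∑ a ∈ Z.erase y, f a = ∑ a ∈ Z, if y ≠ a then f a else 0 := by
      intro f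
      rw [← Finset.sum_filter]
      congr 1
      ext a
      simp [Finset.mem_erase, ne_comm, and_comm]
    rw [e]
    refine Finset.sum_congr rfl fun a _ => ?_
    rw [e]
    by_cases h : y = a
    · simp [h]
    · simp [h]
  rw [Finset.sum_congr rfl h1, Finset.sum_comm]
  have h2 : ∀ a ∈ Z, ∑ y ∈ Z, ∑ b ∈ Z, (if y ≠ a ∧ y ≠ b then ⟪w, w - R.S a b w⟫ else 0) =
      ((Z.card : ℝ) - 2) * ∑ b ∈ Z, ⟪w, w - R.S a b w⟫ := by
    intro a ha
    rw [Finset.sum_comm, Finset.mul_sum]
    refine Finset.sum_congr rfl fun b hb => ?_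
    by_cases hab : a = b
    · subst hab
      simp [hq]
    · rw [← Finset.sum_filter, Finset.sum_const, nsmul_eq_mul]
      congr 1
      have : Z.filter (fun y => y ≠ a ∧ y ≠ b) = (Z.erase a).erase b := by
        ext y
        simp only [Finset.mem_filter, Finset.mem_erase]
        tauto
      rw [this, Finset.card_erase_of_mem (Finset.mem_erase.mpr ⟨Ne.symm hab, hb⟩),
        Finset.card_erase_of_mem ha]
      have hk : 2 ≤ Z.card := by
        have : ({a, b} : Finset I) ⊆ Z := by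
          intro x hx
          rcases Finset.mem_insert.mp hx with rfl | hx
          · exact ha
          · rw [Finset.mem_singleton.mp hx]; exact hb
        have h3 := Finset.card_le_card this
        rwa [Finset.card_pair hab] at h3
      rw [Nat.sub_sub, Nat.cast_sub (by omega)]
      push_cast
      ring
  rw [Finset.sum_congr rfl h2, ← Finset.mul_sum]
  ring

/-- Levels for different sets are comparable. -/
lemma SubL_erase_le {Z : Finset I} {y : I} (hy : y ∈ Z) {j j' : ℕ} (hj : j' ≤ j)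
    (hjc : j + 1 ≤ Z.card) : R.SubL (Z.erase y) j' ≤ R.SubL Z (j + 1) := by
  refine R.SubL_le fun W hW hc => ?_
  have hcard : (Z.erase y).card = Z.card - 1 := Finset.card_erase_of_mem hy
  have hle : Z.card - (j + 1) ≤ W.card := by omega
  obtain ⟨W', hW', hc'⟩ := Finset.exists_subset_card_eq hle
  refine (R.FixS_anti hW').trans (R.FixS_le_SubL ?_ ?_)
  · exact hW'.trans (hW.trans (Finset.erase_subset _ _))
  · omega

/-- Monotonicity of the levels. -/
lemma SubL_mono {Z : Finset I} {i : ℕ} (h : i + 1 ≤ Z.card) : R.SubL Z i ≤ R.SubL Z (i + 1) := by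
  refine R.SubL_le fun W hW hc => ?_
  have hle : Z.card - (i + 1) ≤ W.card := by omega
  obtain ⟨W', hW', hc'⟩ := Finset.exists_subset_card_eq hle
  exact (R.FixS_anti hW').trans (R.FixS_le_SubL (hW'.trans hW) (by omega))

lemma FixS_singleton_top (a : I) : R.FixS {a} = ⊤ := by
  rw [eq_top_iff]
  intro v _ x hx y hy
  rw [Finset.mem_singleton.mp hx, Finset.mem_singleton.mp hy, R.S_self]
  rfl

/-- **The half way bound.** -/
theorem half_bound : ∀ (k : ℕ), 2 ≤ k → ∀ (Z : Finset I), Z.card = k →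
    ∀ u ∈ (R.SubL Z (k / 2 - 1))ᗮ, ((k : ℝ) ^ 2 / 4) * ‖u‖ ^ 2 ≤ ⟪u, R.LapOn Z u⟫ := by
  intro k hk
  induction k, hk using Nat.le_induction with
  | base =>
    intro Z hZ u hu
    have hsplit := split_bound (R.LapOn Z) (R.LapOn_sym Z) (K := R.SubL Z 0) (K' := R.SubL Z 1)
      (g := 1) (R.SubL_mono (by omega)) (fun v hv => R.LapOn_mem_SubL (Finset.Subset.refl Z) hv)
      ?_ ?_ (u := u) (by simpa using hu)
    · have e : (((2 : ℕ) : ℝ) ^ 2 / 4) = 1 := by norm_num
      rw [e]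
      exact hsplit
    · intro w hw1 hw2
      have := R.pure_bound (j := 0) (u := w) hw1 hw2
      rw [hZ] at this
      have hw : 0 ≤ ‖w‖ ^ 2 := by positivity
      norm_num at this
      linarith
    · intro w hw
      obtain ⟨a, ha⟩ : Z.Nonempty := by
        rw [← Finset.card_pos]; omega
      have htop : R.SubL Z 1 = ⊤ := by
        rw [eq_top_iff, ← R.FixS_singleton_top a]
        exact R.FixS_le_SubL (Finset.singleton_subset_iff.mpr ha) (by simp [hZ])
      rw [htop, Submodule.top_orthogonal_eq_bot] at hw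
      have : w = 0 := hw
      simp [this]
  | succ k hk ih =>
    intro Z hZ u hu
    obtain ⟨J, hJ⟩ : ∃ J, (k + 1) / 2 = J + 1 := ⟨(k + 1) / 2 - 1, by omega⟩
    rw [hJ, Nat.add_sub_cancel] at hu
    have hsplit := split_bound (R.LapOn Z) (R.LapOn_sym Z) (K := R.SubL Z J) (K' := R.SubL Z (J + 1))
      (g := (((k + 1 : ℕ) : ℝ) ^ 2 / 4)) (R.SubL_mono (by omega))
      (fun v hv => R.LapOn_mem_SubL (Finset.Subset.refl Z) hv) ?_ ?_ hu
    · exact hsplit
    · intro w hw1 hw2
      have := R.pure_bound (j := J) (u := w) hw1 hw2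
      rw [hZ] at this
      refine le_trans ?_ this
      refine mul_le_mul_of_nonneg_right ?_ (by positivity)
      push_cast
      have hk1 : ((k : ℝ) + 1) = 2 * ((J : ℝ) + 1) ∨ ((k : ℝ) + 1) = 2 * ((J : ℝ) + 1) + 1 := by
        have : k + 1 = 2 * (J + 1) ∨ k + 1 = 2 * (J + 1) + 1 := by omega
        rcases this with h | h
        · left; exact_mod_cast h
        · right; exact_mod_cast h
      have hJ0 : (0 : ℝ) ≤ J := by positivity
      rcases hk1 with h | h
      · rw [h]; nlinarith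
      · rw [h]; nlinarith
    · intro w hw
      have hne : Z.Nonempty := by rw [← Finset.card_pos]; omega
      have hbound : ∀ y ∈ Z, ((k : ℝ) ^ 2 / 4) * ‖w‖ ^ 2 ≤ ⟪w, R.LapOn (Z.erase y) w⟫ := by
        intro y hy
        refine ih (Z.erase y) (by rw [Finset.card_erase_of_mem hy, hZ]; simp) w ?_
        have hle : R.SubL (Z.erase y) (k / 2 - 1) ≤ R.SubL Z (J + 1) :=
          R.SubL_erase_le hy (by omega) (by omega)
        exact Submodule.orthogonal_le hle hw
      have hsum := Finset.sum_le_sum hbound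
      rw [R.sum_erase_form, Finset.sum_const, hZ, nsmul_eq_mul] at hsum
      have hk2 : (2 : ℝ) ≤ k := by exact_mod_cast hk
      have hw0 : 0 ≤ ‖w‖ ^ 2 := by positivity
      push_cast at hsum ⊢
      have hform : 0 < (k : ℝ) - 1 := by linarith
      have e : ((k : ℝ) + 1 - 2) = (k : ℝ) - 1 := by ring
      rw [e] at hsum
      have h3 : ((k : ℝ) - 1) * (((k : ℝ) + 1) ^ 2 / 4 * ‖w‖ ^ 2) ≤
          ((k : ℝ) - 1) * ⟪w, R.LapOn Z w⟫ := by
        refine le_trans ?_ hsum
        have : ((k : ℝ) - 1) * (((k : ℝ) + 1) ^ 2 / 4 * ‖w‖ ^ 2) =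
            ((k : ℝ) + 1) * (((k : ℝ) ^ 2 - 1) / 4 * ‖w‖ ^ 2) := by ring
        rw [this]
        refine mul_le_mul_of_nonneg_left ?_ (by positivity)
        refine mul_le_mul_of_nonneg_right ?_ hw0
        linarith
      exact le_of_mul_le_mul_left h3 hform

/-- **The spectral gap filtration.** -/
theorem star_bound {Z : Finset I} : ∀ (m j : ℕ), j + m = Z.card / 2 → 1 ≤ j →
    ∀ u ∈ (R.SubL Z (j - 1))ᗮ, (((j : ℝ) * (Z.card : ℝ)) / 2) * ‖u‖ ^ 2 ≤ ⟪u, R.LapOn Z u⟫ := by
  intro m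
  induction m with
  | zero =>
    intro j hj hj1 u hu
    have hj' : j = Z.card / 2 := by omega
    have hk : 2 ≤ Z.card := by omega
    subst hj'
    refine le_trans ?_ (R.half_bound Z.card hk Z rfl u hu)
    refine mul_le_mul_of_nonneg_right ?_ (by positivity)
    have h2 : ((Z.card / 2 : ℕ) : ℝ) ≤ (Z.card : ℝ) / 2 := Nat.cast_div_le
    have h3 : (0 : ℝ) ≤ Z.card := by positivity
    nlinarith
  | succ m ih =>
    intro j hj hj1 u hu
    obtain ⟨i, rfl⟩ : ∃ i, j = i + 1 := ⟨j - 1, by omega⟩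
    rw [Nat.add_sub_cancel] at hu
    have hcard : i + 1 + 1 ≤ Z.card := by omega
    refine split_bound (R.LapOn Z) (R.LapOn_sym Z) (K := R.SubL Z i) (K' := R.SubL Z (i + 1))
      (R.SubL_mono (by omega)) (fun v hv => R.LapOn_mem_SubL (Finset.Subset.refl Z) hv) ?_ ?_ hu
    · intro w hw1 hw2
      have := R.pure_bound (j := i) (u := w) hw1 hw2
      refine le_trans ?_ this
      refine mul_le_mul_of_nonneg_right ?_ (by positivity)
      push_cast
      have h1 : 2 * (i + 1 + m + 1) ≤ Z.card := by omega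
      have h2 : (2 : ℝ) * ((i : ℝ) + 1) ≤ (Z.card : ℝ) := by
        have : 2 * (i + 1) ≤ Z.card := by omega
        exact_mod_cast this
      have hi : (0 : ℝ) ≤ i := by positivity
      nlinarith
    · intro w hw
      have := ih (i + 1 + 1) (by omega) (by omega) w (by simpa using hw)
      refine le_trans ?_ this
      refine mul_le_mul_of_nonneg_right ?_ (by positivity)
      push_cast
      have h3 : (0 : ℝ) ≤ Z.card := by positivity
      nlinarith

end ORep

end Vale.Agent.P162
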