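import Vale.Agent.P162.Inst

/-!
The key comparison lemma and the one-step recursion.
-/

open scoped RealInnerProductSpace
open Finset Equiv

namespace Vale.Agent.P162

set_option linter.unusedSectionVars false

variable {P H : Type*} [Fintype P] [DecidableEq P] [NormedAddCommGroup H]
  [InnerProductSpace ℝ H] [CompleteSpace H]

/-- The exponential of a symmetric operator is symmetric. -/
lemma exp_sym (X : H →L[ℝ] H) (hX : ∀ x y, ⟪X x, y⟫ = ⟪x, X y⟫) (x y : H) :
    ⟪NormedSpace.exp X x, y⟫ = ⟪x, NormedSpace.exp X y⟫ := by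
  have hs : IsSelfAdjoint X := by
    rw [ContinuousLinearMap.isSelfAdjoint_iff_isSymmetric]
    exact fun a b => hX a b
  have h2 : IsSelfAdjoint (NormedSpace.exp X) := hs.exp
  rw [ContinuousLinearMap.isSelfAdjoint_iff_isSymmetric] at h2
  exact h2 x y

lemma exp_half_mul (X : H →L[ℝ] H) (a : ℝ) :
    NormedSpace.exp (a • X) = NormedSpace.exp ((a / 2) • X) * NormedSpace.exp ((a / 2) • X) := by
  rw [← exp_add_comm ((Commute.refl X).smul_left _ |>.smul_right _), ← add_smul]
  congr 2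
  ring

/-- The quadratic form of `exp (a X)` is a squared norm. -/
lemma inner_exp_eq_norm_sq (X : H →L[ℝ] H) (hX : ∀ x y, ⟪X x, y⟫ = ⟪x, X y⟫) (a : ℝ) (v : H) :
    ⟪v, NormedSpace.exp (a • X) v⟫ = ‖NormedSpace.exp ((a / 2) • X) v‖ ^ 2 := by
  have hs : ∀ x y, ⟪((a / 2) • X) x, y⟫ = ⟪x, ((a / 2) • X) y⟫ := by
    intro x y
    simp [inner_smul_left, inner_smul_right, hX]
  rw [← real_inner_self_eq_norm_sq, exp_sym _ hs, exp_half_mul]
  rfl

namespace ORep

variable (R : ORep (Bool × P) H)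

lemma half_Lap_apply (b : Bool) (x : H) : (R.half b).Lap x =
    (1 / 2 : ℝ) • ∑ p, ∑ q, (x - R.S (b, p) (b, q) x) := by
  rw [Lap_apply]
  simp only [half_S]

lemma Lap_half_Lap (b : Bool) (x : H) : R.Lap ((R.half b).Lap x) = (R.half b).Lap (R.Lap x) := by
  simp only [half_Lap_apply, map_smul, map_sum, map_sub, R.Lap_S]

lemma commute_Lap_AA : Commute R.Lap R.AA := by
  ext x
  show R.Lap (R.AA x) = R.AA (R.Lap x)
  simp only [AA, add_apply, map_add, Lap_half_Lap]

lemma commute_Lap_Gop : Commute R.sys.Gop R.Lap := by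
  rw [Gop_eq]
  exact ((Commute.refl R.Lap).smul_left _).sub_left R.commute_Lap_AA.symm

end ORep

variable [FiniteDimensional ℝ H]

namespace ORep

variable (R : ORep (Bool × P) H)

/-- The eigenvector case of the key lemma. -/
lemma key_eigen [Nonempty P] {s μ : ℝ} (hs : 0 ≤ s) (hs' : s * (20 * (Fintype.card P : ℝ)) ≤ 1)
    {v : H} (hv : ∀ p, R.tt p v = v) (hD : R.Lap v = μ • v) :
    ⟪v, NormedSpace.exp ((-s) • R.AA) v⟫ ≤
      ⟪v, NormedSpace.exp ((-(s / 2 * (1 - 32 * s))) • R.Lap) v⟫ := by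
  by_cases hv0 : v = 0
  · simp [hv0]
  have hpos : 0 < ‖v‖ ^ 2 := by positivity
  have hμ0 : 0 ≤ μ := by
    have := R.Lap_nonneg v
    rw [hD, inner_smul_right, real_inner_self_eq_norm_sq] at this
    exact nonneg_of_mul_nonneg_left this hpos
  have hμ1 : μ ≤ 4 * (Fintype.card P : ℝ) ^ 2 := by
    have := R.Lap_le v
    rw [hD, inner_smul_right, real_inner_self_eq_norm_sq] at this
    have h2 := le_of_mul_le_mul_right this hpos
    have h3 : (Fintype.card (Bool × P) : ℝ) = 2 * (Fintype.card P : ℝ) := by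
      simp [Fintype.card_prod]
    rw [h3] at h2
    nlinarith
  have hm : (1 : ℝ) ≤ Fintype.card P := by
    have : 1 ≤ Fintype.card P := Fintype.card_pos
    exact_mod_cast this
  have hcond : (8 * (Fintype.card P : ℝ) + 4) * s + 16 * μ * s ^ 2 ≤ 1 := by
    set m : ℝ := (Fintype.card P : ℝ) with hmdef
    have ht : s * m ≤ 1 / 20 := by nlinarith
    have hsm : s ≤ s * m := by nlinarith
    have h1 : 16 * μ * s ^ 2 ≤ 64 * (s * m) ^ 2 := by
      have : 16 * μ * s ^ 2 ≤ 16 * (4 * m ^ 2) * s ^ 2 :=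
        mul_le_mul_of_nonneg_right (by linarith) (by positivity)
      nlinarith
    have h2 : (s * m) ^ 2 ≤ (1 / 20) ^ 2 := pow_le_pow_left₀ (by positivity) ht 2
    nlinarith
  have hM := Sys.lemmaM (S := R.sys) hμ0 hs hv hD hcond
  -- split the exponential
  have hsplit : (-s) • R.AA = s • R.sys.Gop + (-(s / 2)) • R.Lap := by
    rw [Gop_eq, smul_sub, smul_smul, neg_smul, neg_smul]
    have : s * (1 / 2) = s / 2 := by ring
    rw [this]
    abel
  have hcomm : Commute (s • R.sys.Gop) ((-(s / 2)) • R.Lap) :=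
    (R.commute_Lap_Gop.smul_left _).smul_right _
  have hexp : NormedSpace.exp ((-s) • R.AA) =
      NormedSpace.exp (s • R.sys.Gop) * NormedSpace.exp ((-(s / 2)) • R.Lap) := by
    rw [hsplit, exp_add_comm hcomm]
  have h1 : NormedSpace.exp ((-(s / 2)) • R.Lap) v = Real.exp (-(s / 2) * μ) • v := by
    apply exp_apply_of_eigen
    rw [smul_apply, hD, smul_smul]
  have h2 : NormedSpace.exp ((-(s / 2 * (1 - 32 * s))) • R.Lap) v =
      Real.exp (-(s / 2 * (1 - 32 * s)) * μ) • v := by
    apply exp_apply_of_eigen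
    rw [smul_apply, hD, smul_smul]
  rw [hexp, h2]
  show ⟪v, NormedSpace.exp (s • R.sys.Gop) (NormedSpace.exp ((-(s / 2)) • R.Lap) v)⟫ ≤ _
  rw [h1, map_smul, inner_smul_right, inner_smul_right, real_inner_self_eq_norm_sq]
  have hE : 0 < Real.exp (-(s / 2) * μ) := Real.exp_pos _
  calc Real.exp (-(s / 2) * μ) * ⟪v, NormedSpace.exp (s • R.sys.Gop) v⟫
      ≤ Real.exp (-(s / 2) * μ) * (Real.exp (16 * μ * s ^ 2) * ‖v‖ ^ 2) :=
        mul_le_mul_of_nonneg_left hM hE.le
    _ = Real.exp (-(s / 2 * (1 - 32 * s)) * μ) * ‖v‖ ^ 2 := by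
        rw [← mul_assoc, ← Real.exp_add]
        congr 2
        ring

/-- **Key Lemma.** On the subspace fixed by all the pair swaps, the heat kernel of the two half
Laplacians is dominated by a heat kernel of the full Laplacian. -/
theorem keyK [Nonempty P] {s : ℝ} (hs : 0 ≤ s) (hs' : s * (20 * (Fintype.card P : ℝ)) ≤ 1)
    (u : H) (hu : ∀ p, R.tt p u = u) :
    ⟪u, NormedSpace.exp ((-s) • R.AA) u⟫ ≤
      ⟪u, NormedSpace.exp ((-(s / 2 * (1 - 32 * s))) • R.Lap) u⟫ := by
  let K : Submodule ℝ H :=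
    { carrier := {v | ∀ p, R.tt p v = v}
      add_mem' := by
        intro a b ha hb p
        rw [map_add, ha p, hb p]
      zero_mem' := by intro p; simp
      smul_mem' := by
        intro c a ha p
        rw [map_smul, ha p] }
  have hK : ∀ v ∈ K, R.Lap v ∈ K := by
    intro v hv p
    rw [← R.Lap_tt, hv p]
  let B : H →L[ℝ] H := NormedSpace.exp ((-(s / 2 * (1 - 32 * s))) • R.Lap) -
    NormedSpace.exp ((-s) • R.AA)
  have hB : ∀ x, B (R.Lap x) = R.Lap (B x) := by
    intro x
    have c1 : Commute (NormedSpace.exp ((-(s / 2 * (1 - 32 * s))) • R.Lap)) R.Lap :=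
      ((Commute.refl R.Lap).smul_left _).exp_left
    have c2 : Commute (NormedSpace.exp ((-s) • R.AA)) R.Lap :=
      (R.commute_Lap_AA.symm.smul_left _).exp_left
    have c3 := c1.sub_left c2
    exact (congrArg (fun T : H →L[ℝ] H => T x) c3)
  have := quad_nonneg_of_eigen R.Lap B R.Lap_sym hB K hK ?_ u hu
  · simp only [B, sub_apply, inner_sub_right] at this
    linarith
  · intro μ v hv hD
    have := R.key_eigen hs hs' hv hD
    simp only [B, sub_apply, inner_sub_right]
    linarith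

end ORep

end Vale.Agent.P162
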