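import Vale.Agent.P162.Gap
import Vale.Agent.P162.Key

/-!
The heat kernel along the filtration.
-/

open scoped RealInnerProductSpace
open Finset Equiv

namespace Vale.Agent.P162

set_option linter.unusedSectionVars false

variable {H : Type*} [NormedAddCommGroup H] [InnerProductSpace ℝ H] [FiniteDimensional ℝ H]

/-- The quadratic form of a heat kernel on an invariant subspace where the generator is bounded
below. -/
lemma heat_on_invariant (X : H →L[ℝ] H) (hX : ∀ x y, ⟪X x, y⟫ = ⟪x, X y⟫) {τ g : ℝ} (hτ : 0 ≤ τ)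
    (K : Submodule ℝ H) (hK : ∀ v ∈ K, X v ∈ K) (hg : ∀ w ∈ K, g * ‖w‖ ^ 2 ≤ ⟪w, X w⟫)
    (v : H) (hv : v ∈ K) :
    ⟪v, NormedSpace.exp ((-τ) • X) v⟫ ≤ Real.exp (-τ * g) * ‖v‖ ^ 2 := by
  let B : H →L[ℝ] H := Real.exp (-τ * g) • 1 - NormedSpace.exp ((-τ) • X)
  have hB : ∀ x, B (X x) = X (B x) := by
    intro x
    have c1 : Commute (NormedSpace.exp ((-τ) • X)) X :=
      ((Commute.refl X).smul_left _).exp_left
    have c2 : NormedSpace.exp ((-τ) • X) (X x) = X (NormedSpace.exp ((-τ) • X) x) :=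
      congrArg (fun T : H →L[ℝ] H => T x) c1
    simp only [B, sub_apply, smul_apply, one_apply_eq_self, map_sub, map_smul, c2]
  have key := quad_nonneg_of_eigen X B hX hB K hK ?_ v hv
  · simp only [B, sub_apply, smul_apply, one_apply_eq_self, inner_sub_right, inner_smul_right,
      real_inner_self_eq_norm_sq] at key
    linarith
  · intro μ w hw hD
    by_cases hw0 : w = 0
    · simp [hw0]
    have hpos : 0 < ‖w‖ ^ 2 := by positivity
    have hμ : g ≤ μ := by
      have := hg w hw
      rw [hD, inner_smul_right, real_inner_self_eq_norm_sq] at this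
      exact le_of_mul_le_mul_right this hpos
    have hexp : NormedSpace.exp ((-τ) • X) w = Real.exp (-τ * μ) • w := by
      apply exp_apply_of_eigen
      rw [smul_apply, hD, smul_smul]
    simp only [B, sub_apply, smul_apply, one_apply_eq_self, inner_sub_right, inner_smul_right,
      real_inner_self_eq_norm_sq, hexp]
    have : Real.exp (-τ * μ) ≤ Real.exp (-τ * g) := by
      apply Real.exp_le_exp.mpr
      nlinarith
    nlinarith

/-- The filtration estimate. -/
lemma filtration_sum (B : H →L[ℝ] H) (hB : ∀ x y, ⟪B x, y⟫ = ⟪x, B y⟫) (K : ℕ → Submodule ℝ H)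
    (J : ℕ) (hmono : ∀ i, i + 1 ≤ J → K i ≤ K (i + 1))
    (hcomm : ∀ i, Commute B (K i).starProjection) (e : ℕ → ℝ)
    (he0 : ∀ v, ⟪v, B v⟫ ≤ e 0 * ‖v‖ ^ 2)
    (he : ∀ i, i + 1 ≤ J → ∀ v ∈ (K i)ᗮ, ⟪v, B v⟫ ≤ e (i + 1) * ‖v‖ ^ 2)
    (he_nn : ∀ i, 0 ≤ e i) (u : H) :
    ⟪u, B u⟫ ≤ ∑ i ∈ Finset.range J, e i * ‖(K i).starProjection u‖ ^ 2 + e J * ‖u‖ ^ 2 := by
  -- remainders
  let v : ℕ → H := fun m => match m with
    | 0 => u
    | (m + 1) => u - (K m).starProjection u
  have hv0 : v 0 = u := rfl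
  have hvs : ∀ m, v (m + 1) = u - (K m).starProjection u := fun m => rfl
  have hvorth : ∀ m, v (m + 1) ∈ (K m)ᗮ := fun m =>
    Submodule.sub_starProjection_mem_orthogonal u
  have hvnorm : ∀ m, ‖v m‖ ≤ ‖u‖ := by
    intro m
    cases m with
    | zero => exact le_rfl
    | succ m =>
      rw [hvs]
      have h1 : ⟪(K m).starProjection u, u - (K m).starProjection u⟫ = 0 := by
        exact (Submodule.mem_orthogonal _ _).mp (Submodule.sub_starProjection_mem_orthogonal u) _
          (Submodule.starProjection_apply_mem _ _)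
      have h2 : ‖u‖ ^ 2 = ‖(K m).starProjection u‖ ^ 2 + ‖u - (K m).starProjection u‖ ^ 2 := by
        have := norm_add_sq_real ((K m).starProjection u) (u - (K m).starProjection u)
        rw [h1] at this
        simpa using this
      have h3 : ‖u - (K m).starProjection u‖ ^ 2 ≤ ‖u‖ ^ 2 := by
        rw [h2]; nlinarith [sq_nonneg ‖(K m).starProjection u‖]
      exact (sq_le_sq₀ (norm_nonneg _) (norm_nonneg _)).mp h3
  -- one step
  have hstep : ∀ m, m < J → ⟪v m, B (v m)⟫ ≤
      e m * ‖(K m).starProjection u‖ ^ 2 + ⟪v (m + 1), B (v (m + 1))⟫ := by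
    intro m hm
    -- `y` is the increment
    obtain ⟨y, hy1, hy2, hy3, hy4⟩ : ∃ y, v m = y + v (m + 1) ∧ y ∈ K m ∧
        ‖y‖ ^ 2 ≤ ‖(K m).starProjection u‖ ^ 2 ∧ ⟪y, B y⟫ ≤ e m * ‖y‖ ^ 2 := by
      cases m with
      | zero =>
        refine ⟨(K 0).starProjection u, ?_, Submodule.starProjection_apply_mem _ _, le_rfl, he0 _⟩
        rw [hv0, hvs]; abel
      | succ i =>
        have hle : K i ≤ K (i + 1) := hmono i (by omega)
        have hPP : ∀ k ∈ K i, ⟪k, (K (i + 1)).starProjection u⟫ = ⟪k, u⟫ := by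
          intro k hk
          have : ⟪(K (i + 1)).starProjection k, u⟫ = ⟪k, (K (i + 1)).starProjection u⟫ :=
            Submodule.starProjection_isSymmetric (K (i + 1)) k u
          rw [← this, Submodule.starProjection_eq_self_iff.mpr (hle hk)]
        have hP : ∀ k ∈ K i, ⟪k, (K i).starProjection u⟫ = ⟪k, u⟫ := by
          intro k hk
          have : ⟪(K i).starProjection k, u⟫ = ⟪k, (K i).starProjection u⟫ :=
            Submodule.starProjection_isSymmetric (K i) k u
          rw [← this, Submodule.starProjection_eq_self_iff.mpr hk]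
        set y := (K (i + 1)).starProjection u - (K i).starProjection u with hy
        have hyorth : y ∈ (K i)ᗮ := by
          rw [Submodule.mem_orthogonal]
          intro k hk
          rw [hy, inner_sub_right, hPP k hk, hP k hk, sub_self]
        refine ⟨y, ?_, ?_, ?_, he i (by omega) y hyorth⟩
        · rw [hvs, hvs, hy]; abel
        · exact Submodule.sub_mem _ (Submodule.starProjection_apply_mem _ _)
            (hle (Submodule.starProjection_apply_mem _ _))
        · have h0 : ⟪(K i).starProjection u, y⟫ = 0 :=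
            (Submodule.mem_orthogonal _ _).mp hyorth _ (Submodule.starProjection_apply_mem _ _)
          have h1 : (K (i + 1)).starProjection u = (K i).starProjection u + y := by
            rw [hy]; abel
          rw [h1, norm_add_sq_real, h0]
          nlinarith [sq_nonneg ‖(K i).starProjection u‖]
    -- the cross terms vanish
    have hB1 : B (v (m + 1)) ∈ (K m)ᗮ := by
      rw [← Submodule.starProjection_apply_eq_zero_iff]
      have h1 : B ((K m).starProjection (v (m + 1))) = (K m).starProjection (B (v (m + 1))) :=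
        congrArg (fun T : H →L[ℝ] H => T (v (m + 1))) (hcomm m)
      rw [← h1, (Submodule.starProjection_apply_eq_zero_iff _).mpr (hvorth m), map_zero]
    have c1 : ⟪y, B (v (m + 1))⟫ = 0 := (Submodule.mem_orthogonal _ _).mp hB1 y hy2
    have c2 : ⟪v (m + 1), B y⟫ = 0 := by
      rw [← hB, real_inner_comm]; exact c1
    rw [hy1]
    simp only [map_add, inner_add_left, inner_add_right, c1, c2]
    have h5 : ⟪y, B y⟫ ≤ e m * ‖(K m).starProjection u‖ ^ 2 :=
      hy4.trans (mul_le_mul_of_nonneg_left hy3 (he_nn m))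
    linarith
  -- iterate
  have hiter : ∀ m, m ≤ J → ⟪u, B u⟫ ≤
      ∑ i ∈ Finset.range m, e i * ‖(K i).starProjection u‖ ^ 2 + ⟪v m, B (v m)⟫ := by
    intro m
    induction m with
    | zero => intro _; simp [hv0]
    | succ m ih =>
      intro hm
      have h1 := ih (by omega)
      have h2 := hstep m (by omega)
      rw [Finset.sum_range_succ]
      linarith
  have hlast : ⟪v J, B (v J)⟫ ≤ e J * ‖u‖ ^ 2 := by
    have h1 : ⟪v J, B (v J)⟫ ≤ e J * ‖v J‖ ^ 2 := by
      cases hJ : J with
      | zero => exact he0 _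
      | succ m => exact he m (by omega) _ (hvorth m)
    refine h1.trans (mul_le_mul_of_nonneg_left ?_ (he_nn J))
    exact pow_le_pow_left₀ (norm_nonneg _) (hvnorm J) 2
  have := hiter J le_rfl
  linarith

variable {I : Type*} [Fintype I] [DecidableEq I]

namespace ORep

variable (R : ORep I H)

lemma LapOn_univ_orth_inv (i : ℕ) : ∀ v ∈ (R.SubL univ i)ᗮ, R.Lap v ∈ (R.SubL univ i)ᗮ := by
  intro v hv
  rw [Submodule.mem_orthogonal]
  intro k hk
  rw [← R.Lap_sym]
  exact (Submodule.mem_orthogonal _ _).mp hv _ (R.LapOn_mem_SubL (Finset.Subset.refl _) hk)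

/-- **The heat kernel along the filtration**. -/
theorem heat_filtration {τ : ℝ} (hτ : 0 ≤ τ) (u : H) :
    ⟪u, NormedSpace.exp ((-τ) • R.Lap) u⟫ ≤
      ∑ i ∈ Finset.range (Fintype.card I / 2),
        (Real.exp (-τ * ((Fintype.card I : ℝ) / 2))) ^ i * ‖(R.SubL univ i).starProjection u‖ ^ 2 +
      (Real.exp (-τ * ((Fintype.card I : ℝ) / 2))) ^ (Fintype.card I / 2) * ‖u‖ ^ 2 := by
  set n := Fintype.card I with hn
  have hcard : (univ : Finset I).card = n := Finset.card_univ
  have hsym : ∀ x y, ⟪((-τ) • R.Lap) x, y⟫ = ⟪x, ((-τ) • R.Lap) y⟫ := by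
    intro x y
    simp [inner_smul_left, inner_smul_right, R.Lap_sym]
  refine filtration_sum (NormedSpace.exp ((-τ) • R.Lap)) (exp_sym _ hsym)
    (fun i => R.SubL univ i) (n / 2) ?_ ?_
    (fun i => (Real.exp (-τ * ((n : ℝ) / 2))) ^ i) ?_ ?_ (fun i => by positivity) u
  · intro i hi
    exact R.SubL_mono (by rw [hcard]; omega)
  · intro i
    have : Commute R.Lap (R.SubL univ i).starProjection :=
      R.commute_LapOn_proj (Finset.Subset.refl _)
    exact (this.smul_left _).exp_left
  · intro v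
    have := heat_on_invariant R.Lap R.Lap_sym (g := 0) hτ ⊤ (fun _ _ => trivial)
      (fun w _ => by simpa using R.Lap_nonneg w) v trivial
    simpa using this
  · intro i hi v hv
    have hb : ∀ w ∈ (R.SubL univ i)ᗮ, ((((i + 1 : ℕ) : ℝ) * (n : ℝ)) / 2) * ‖w‖ ^ 2 ≤ ⟪w, R.Lap w⟫ := by
      intro w hw
      have := R.star_bound (Z := univ) (n / 2 - (i + 1)) (i + 1) (by rw [hcard]; omega) (by omega)
        w (by simpa using hw)
      rwa [hcard] at this
    have := heat_on_invariant R.Lap R.Lap_sym hτ (R.SubL univ i)ᗮ (R.LapOn_univ_orth_inv i) hb v hv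
    refine this.trans (le_of_eq ?_)
    congr 1
    rw [← Real.exp_nat_mul]
    congr 1
    push_cast
    ring

end ORep

end Vale.Agent.P162
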