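import Vale.Agent.P162.Rep

/-!
Instantiating the abstract core on a representation of `Perm (Bool × P)`.
-/

open scoped RealInnerProductSpace
open Finset Equiv

namespace Vale.Agent.P162

set_option linter.unusedSectionVars false

variable {P H : Type*} [Fintype P] [DecidableEq P] [NormedAddCommGroup H]
  [InnerProductSpace ℝ H]

namespace ORep

variable (R : ORep (Bool × P) H)

/-- The swap of the pair over `p`. -/
noncomputable def tt (p : P) : H →L[ℝ] H := R.S (false, p) (true, p)

/-- The pair operator. -/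
noncomputable def zz (p q : P) : H →L[ℝ] H :=
  R.S (false, p) (true, q) + R.S (true, p) (false, q) - R.S (false, p) (false, q)
    - R.S (true, p) (true, q)

lemma zz_apply (p q : P) (x : H) : R.zz p q x =
    R.S (false, p) (true, q) x + R.S (true, p) (false, q) x - R.S (false, p) (false, q) x
    - R.S (true, p) (true, q) x := rfl

lemma S_conj (a b c d : Bool × P) (x : H) :
    R.S a b (R.S c d x) = R.S (swap a b c) (swap a b d) (R.S a b x) := R.ρ_S _ c d x

lemma tt_sym (p : P) (x y : H) : ⟪R.tt p x, y⟫ = ⟪x, R.tt p y⟫ := R.S_sym _ _ _ _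

lemma tt_sq (p : P) (x : H) : R.tt p (R.tt p x) = x := R.S_sq _ _ _

lemma tt_comm (p q : P) (x : H) : R.tt p (R.tt q x) = R.tt q (R.tt p x) := by
  by_cases h : p = q
  · subst h; rfl
  · have e1 : swap (false, p) (true, p) (false, q) = (false, q) :=
      swap_apply_of_ne_of_ne (by simp [Ne.symm h]) (by simp)
    have e2 : swap (false, p) (true, p) (true, q) = (true, q) :=
      swap_apply_of_ne_of_ne (by simp) (by simp [Ne.symm h])
    show R.S _ _ (R.S _ _ x) = _
    rw [S_conj, e1, e2]
    rfl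

lemma zz_sym (p q : P) (x y : H) : ⟪R.zz p q x, y⟫ = ⟪x, R.zz p q y⟫ := by
  simp only [zz_apply, inner_add_left, inner_sub_left, inner_add_right, inner_sub_right, R.S_sym]

lemma zz_norm (p q : P) (x : H) : ‖R.zz p q x‖ ≤ 4 * ‖x‖ := by
  rw [zz_apply]
  have h1 := norm_sub_le (R.S (false, p) (true, q) x + R.S (true, p) (false, q) x -
    R.S (false, p) (false, q) x) (R.S (true, p) (true, q) x)
  have h2 := norm_sub_le (R.S (false, p) (true, q) x + R.S (true, p) (false, q) x)
    (R.S (false, p) (false, q) x)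
  have h3 := norm_add_le (R.S (false, p) (true, q) x) (R.S (true, p) (false, q) x)
  simp only [R.norm_S] at h1 h2 h3
  linarith

lemma anti1 (p q : P) (h : p ≠ q) (x : H) : R.tt p (R.zz p q x) = -(R.zz p q (R.tt p x)) := by
  have e1 : swap (false, p) (true, p) (false, q) = (false, q) :=
    swap_apply_of_ne_of_ne (by simp [Ne.symm h]) (by simp)
  have e2 : swap (false, p) (true, p) (true, q) = (true, q) :=
    swap_apply_of_ne_of_ne (by simp) (by simp [Ne.symm h])
  have e3 : swap (false, p) (true, p) (false, p) = (true, p) := swap_apply_left _ _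
  have e4 : swap (false, p) (true, p) (true, p) = (false, p) := swap_apply_right _ _
  simp only [zz_apply, map_add, map_sub, tt]
  rw [R.S_conj (false, p) (true, p) (false, p) (true, q) x,
    R.S_conj (false, p) (true, p) (true, p) (false, q) x,
    R.S_conj (false, p) (true, p) (false, p) (false, q) x,
    R.S_conj (false, p) (true, p) (true, p) (true, q) x, e1, e2, e3, e4]
  abel

lemma anti2 (p q : P) (h : p ≠ q) (x : H) : R.tt q (R.zz p q x) = -(R.zz p q (R.tt q x)) := by
  have e1 : swap (false, q) (true, q) (false, p) = (false, p) :=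
    swap_apply_of_ne_of_ne (by simp [h]) (by simp)
  have e2 : swap (false, q) (true, q) (true, p) = (true, p) :=
    swap_apply_of_ne_of_ne (by simp) (by simp [h])
  have e3 : swap (false, q) (true, q) (false, q) = (true, q) := swap_apply_left _ _
  have e4 : swap (false, q) (true, q) (true, q) = (false, q) := swap_apply_right _ _
  simp only [zz_apply, map_add, map_sub, tt]
  rw [R.S_conj (false, q) (true, q) (false, p) (true, q) x,
    R.S_conj (false, q) (true, q) (true, p) (false, q) x,
    R.S_conj (false, q) (true, q) (false, p) (false, q) x,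
    R.S_conj (false, q) (true, q) (true, p) (true, q) x, e1, e2, e3, e4]
  abel

lemma comm3 (p q r : P) (h1 : r ≠ p) (h2 : r ≠ q) (x : H) :
    R.tt r (R.zz p q x) = R.zz p q (R.tt r x) := by
  have e1 : swap (false, r) (true, r) (false, p) = (false, p) :=
    swap_apply_of_ne_of_ne (by simp [Ne.symm h1]) (by simp)
  have e2 : swap (false, r) (true, r) (true, p) = (true, p) :=
    swap_apply_of_ne_of_ne (by simp) (by simp [Ne.symm h1])
  have e3 : swap (false, r) (true, r) (false, q) = (false, q) :=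
    swap_apply_of_ne_of_ne (by simp [Ne.symm h2]) (by simp)
  have e4 : swap (false, r) (true, r) (true, q) = (true, q) :=
    swap_apply_of_ne_of_ne (by simp) (by simp [Ne.symm h2])
  simp only [zz_apply, map_add, map_sub, tt]
  rw [R.S_conj (false, r) (true, r) (false, p) (true, q) x,
    R.S_conj (false, r) (true, r) (true, p) (false, q) x,
    R.S_conj (false, r) (true, r) (false, p) (false, q) x,
    R.S_conj (false, r) (true, r) (true, p) (true, q) x, e1, e2, e3, e4]

lemma Lap_S (a b : Bool × P) (x : H) : R.Lap (R.S a b x) = R.S a b (R.Lap x) := R.Lap_ρ _ _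

lemma Lap_tt (p : P) (x : H) : R.Lap (R.tt p x) = R.tt p (R.Lap x) := R.Lap_S _ _ _

lemma Lap_zz (p q : P) (x : H) : R.Lap (R.zz p q x) = R.zz p q (R.Lap x) := by
  simp only [zz_apply, map_add, map_sub, R.Lap_S]

lemma norm_zz_sq (p q : P) (w : H) : ‖R.zz p q w‖ ^ 2 ≤
    8 * (⟪w, w - R.S (false, p) (true, q) w⟫ + ⟪w, w - R.S (true, p) (false, q) w⟫ +
      ⟪w, w - R.S (false, p) (false, q) w⟫ + ⟪w, w - R.S (true, p) (true, q) w⟫) := by
  have e : R.zz p q w = (w - R.S (false, p) (false, q) w) + (w - R.S (true, p) (true, q) w)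
      - (w - R.S (false, p) (true, q) w) - (w - R.S (true, p) (false, q) w) := by
    rw [zz_apply]; abel
  have h1 := R.norm_sub_S_sq (false, p) (true, q) w
  have h2 := R.norm_sub_S_sq (true, p) (false, q) w
  have h3 := R.norm_sub_S_sq (false, p) (false, q) w
  have h4 := R.norm_sub_S_sq (true, p) (true, q) w
  set a := ‖w - R.S (false, p) (true, q) w‖ with ha
  set b := ‖w - R.S (true, p) (false, q) w‖ with hb
  set c := ‖w - R.S (false, p) (false, q) w‖ with hc
  set d := ‖w - R.S (true, p) (true, q) w‖ with hd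
  have hn : ‖R.zz p q w‖ ≤ c + d + a + b := by
    rw [e]
    have t1 := norm_sub_le ((w - R.S (false, p) (false, q) w) + (w - R.S (true, p) (true, q) w)
      - (w - R.S (false, p) (true, q) w)) (w - R.S (true, p) (false, q) w)
    have t2 := norm_sub_le ((w - R.S (false, p) (false, q) w) + (w - R.S (true, p) (true, q) w))
      (w - R.S (false, p) (true, q) w)
    have t3 := norm_add_le (w - R.S (false, p) (false, q) w) (w - R.S (true, p) (true, q) w)
    linarith
  have hn2 : ‖R.zz p q w‖ ^ 2 ≤ (c + d + a + b) ^ 2 := pow_le_pow_left₀ (norm_nonneg _) hn 2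
  have h5 : (c + d + a + b) ^ 2 ≤ 4 * (a ^ 2 + b ^ 2 + c ^ 2 + d ^ 2) := by
    nlinarith [sq_nonneg (a - b), sq_nonneg (a - c), sq_nonneg (a - d), sq_nonneg (b - c),
      sq_nonneg (b - d), sq_nonneg (c - d)]
  rw [h1, h2, h3, h4] at h5
  linarith

lemma sum_form (w : H) : ∑ a : Bool × P, ∑ b : Bool × P, ⟪w, w - R.S a b w⟫ =
    ∑ p : P, ∑ q : P, (⟪w, w - R.S (false, p) (true, q) w⟫ + ⟪w, w - R.S (true, p) (false, q) w⟫ +
      ⟪w, w - R.S (false, p) (false, q) w⟫ + ⟪w, w - R.S (true, p) (true, q) w⟫) := by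
  simp only [Fintype.sum_prod_type, Fintype.sum_bool, Finset.sum_add_distrib]
  ring

lemma energy (w : H) : ∑ x ∈ (univ : Finset P).offDiag, ‖R.zz x.1 x.2 w‖ ^ 2 ≤
    16 * ⟪w, R.Lap w⟫ := by
  have hnn : ∀ x : P × P, 0 ≤ 8 * (⟪w, w - R.S (false, x.1) (true, x.2) w⟫ +
      ⟪w, w - R.S (true, x.1) (false, x.2) w⟫ + ⟪w, w - R.S (false, x.1) (false, x.2) w⟫ +
      ⟪w, w - R.S (true, x.1) (true, x.2) w⟫) := by
    intro x
    have h1 := R.form_nonneg (false, x.1) (true, x.2) w
    have h2 := R.form_nonneg (true, x.1) (false, x.2) w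
    have h3 := R.form_nonneg (false, x.1) (false, x.2) w
    have h4 := R.form_nonneg (true, x.1) (true, x.2) w
    positivity
  calc ∑ x ∈ (univ : Finset P).offDiag, ‖R.zz x.1 x.2 w‖ ^ 2
      ≤ ∑ x ∈ (univ : Finset P).offDiag, 8 * (⟪w, w - R.S (false, x.1) (true, x.2) w⟫ +
          ⟪w, w - R.S (true, x.1) (false, x.2) w⟫ + ⟪w, w - R.S (false, x.1) (false, x.2) w⟫ +
          ⟪w, w - R.S (true, x.1) (true, x.2) w⟫) :=
        Finset.sum_le_sum fun x _ => R.norm_zz_sq x.1 x.2 w
    _ ≤ ∑ p : P, ∑ q : P, 8 * (⟪w, w - R.S (false, p) (true, q) w⟫ +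
          ⟪w, w - R.S (true, p) (false, q) w⟫ + ⟪w, w - R.S (false, p) (false, q) w⟫ +
          ⟪w, w - R.S (true, p) (true, q) w⟫) :=
        Sys.sum_offDiag_le (fun x : P × P => 8 * (⟪w, w - R.S (false, x.1) (true, x.2) w⟫ +
          ⟪w, w - R.S (true, x.1) (false, x.2) w⟫ + ⟪w, w - R.S (false, x.1) (false, x.2) w⟫ +
          ⟪w, w - R.S (true, x.1) (true, x.2) w⟫)) hnn
    _ = 16 * ⟪w, R.Lap w⟫ := by
        rw [inner_Lap, sum_form]
        simp only [← Finset.mul_sum]
        ring

/-- The abstract system attached to a representation of `Perm (Bool × P)`. -/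
noncomputable def sys : Sys P H where
  τ := R.tt
  Z := R.zz
  D := R.Lap
  τ_sym := R.tt_sym
  τ_sq := R.tt_sq
  τ_comm := R.tt_comm
  Z_sym := R.zz_sym
  Z_norm := R.zz_norm
  anti1 := R.anti1
  anti2 := R.anti2
  comm3 := fun p q r _ h1 h2 x => R.comm3 p q r h1 h2 x
  D_τ := R.Lap_tt
  D_Z := R.Lap_zz
  energy := R.energy

end ORep

/-- The embedding of `Perm P` acting on one half of `Bool × P`. -/
def halfHom (b : Bool) : Perm P →* Perm (Bool × P) where
  toFun g := Perm.prodExtendRight b g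
  map_one' := by
    ext1 ⟨c, x⟩
    by_cases h : c = b
    · subst h; simp
    · rw [Perm.prodExtendRight_apply_ne _ h]; rfl
  map_mul' g g' := by
    ext1 ⟨c, x⟩
    by_cases h : c = b
    · subst h; simp
    · simp [Perm.prodExtendRight_apply_ne _ h]

lemma halfHom_eq (b : Bool) (g : Perm P) (x : P) : halfHom b g (b, x) = (b, g x) :=
  Perm.prodExtendRight_apply_eq _ _ _

lemma halfHom_ne {b c : Bool} (h : c ≠ b) (g : Perm P) (x : P) : halfHom b g (c, x) = (c, x) :=
  Perm.prodExtendRight_apply_ne _ h _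

lemma halfHom_swap (b : Bool) (p q : P) : halfHom b (swap p q) = swap (b, p) (b, q) := by
  ext1 ⟨c, x⟩
  by_cases h : c = b
  · subst h
    rw [halfHom_eq]
    by_cases h1 : x = p
    · subst h1; simp
    · by_cases h2 : x = q
      · subst h2; simp
      · rw [swap_apply_of_ne_of_ne h1 h2, swap_apply_of_ne_of_ne (by simp [h1]) (by simp [h2])]
  · rw [halfHom_ne h, swap_apply_of_ne_of_ne (by simp [h]) (by simp [h])]

lemma halfHom_commute (g g' : Perm P) : halfHom false g * halfHom true g' =
    halfHom true g' * halfHom false g := by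
  ext1 ⟨c, x⟩
  cases c
  · simp [halfHom_eq, halfHom_ne]
  · simp [halfHom_eq, halfHom_ne]

namespace ORep

variable (R : ORep (Bool × P) H)

/-- The restriction of a representation of `Perm (Bool × P)` to one half. -/
def half (b : Bool) : ORep P H where
  ρ := R.ρ.comp (halfHom b)
  adj g x y := by
    have := R.adj (halfHom b g) x y
    simpa [map_inv] using this

lemma half_S (b : Bool) (p q : P) : (R.half b).S p q = R.S (b, p) (b, q) := by
  show R.ρ (halfHom b (swap p q)) = _
  rw [halfHom_swap]; rfl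

lemma half_ρ (b : Bool) (g : Perm P) : (R.half b).ρ g = R.ρ (halfHom b g) := rfl

/-- The sum of the two half Laplacians. -/
noncomputable def AA : H →L[ℝ] H := (R.half false).Lap + (R.half true).Lap

lemma half_Lap_eq (b : Bool) : (R.half b).Lap =
    (1 / 2 : ℝ) • ∑ p, ∑ q, (1 - R.S (b, p) (b, q)) := by
  simp only [Lap, half_S]

lemma Lap_eq : R.Lap = (1 / 2 : ℝ) • ∑ p, ∑ q, ((1 - R.S (false, p) (true, q)) +
    (1 - R.S (true, p) (false, q)) + (1 - R.S (false, p) (false, q)) +
    (1 - R.S (true, p) (true, q))) := by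
  simp only [Lap, Fintype.sum_prod_type, Fintype.sum_bool, Finset.sum_add_distrib]
  congr 1
  abel

lemma sum_sum_split {M : Type*} [AddCommMonoid M] (f : P × P → M) :
    ∑ p, ∑ q, f (p, q) = ∑ x ∈ (univ : Finset P).offDiag, f x + ∑ p, f (p, p) := by
  rw [← Finset.sum_product' (f := fun p q => f (p, q)), ← Finset.diag_union_offDiag,
    Finset.sum_union (Finset.disjoint_diag_offDiag _), Finset.sum_diag, add_comm]

lemma zz_self (p : P) : R.zz p p = (2 : ℝ) • (R.tt p) - 2 • 1 := by
  simp only [zz, tt, S_self]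
  rw [R.S_comm (true, p) (false, p), two_smul, two_smul]
  abel

/-- The identity `G = D / 2 - A`. -/
lemma Gop_eq : R.sys.Gop = (1 / 2 : ℝ) • R.Lap - R.AA := by
  have h1 : R.sys.Gop = (-(1 / 4) : ℝ) • ∑ p, ∑ q, R.zz p q := by
    have := sum_sum_split (fun x : P × P => R.zz x.1 x.2)
    simp only at this
    rw [this, Sys.Gop, Sys.Nt, smul_add, sub_eq_add_neg, add_comm, ← neg_smul]
    congr 1
    rw [Finset.smul_sum]
    refine Finset.sum_congr rfl fun p _ => ?_
    rw [zz_self, Sys.nn]
    show (1 / 2 : ℝ) • (1 - R.tt p) = _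
    module
  rw [h1, AA, half_Lap_eq, half_Lap_eq, Lap_eq]
  have h2 : ∀ (a b c : P → P → (H →L[ℝ] H)), (1 / 2 : ℝ) • (1 / 2 : ℝ) • ∑ p, ∑ q, a p q -
      ((1 / 2 : ℝ) • ∑ p, ∑ q, b p q + (1 / 2 : ℝ) • ∑ p, ∑ q, c p q) =
      ∑ p, ∑ q, ((1 / 4 : ℝ) • a p q - (1 / 2 : ℝ) • b p q - (1 / 2 : ℝ) • c p q) := by
    intro a b c
    simp only [Finset.sum_sub_distrib, ← Finset.smul_sum]
    module
  rw [h2, Finset.smul_sum]
  refine Finset.sum_congr rfl fun p _ => ?_
  rw [Finset.smul_sum]
  refine Finset.sum_congr rfl fun q _ => ?_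
  rw [zz]
  module

end ORep

end Vale.Agent.P162
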