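import Vale.Agent.P162.Key

/-!
The coin layer and the recursive comparison.
-/

open scoped RealInnerProductSpace
open Finset Equiv

namespace Vale.Agent.P162

set_option linter.unusedSectionVars false

variable {P H : Type*} [Fintype P] [DecidableEq P] [NormedAddCommGroup H]
  [InnerProductSpace ℝ H]

/-- The permutation flipping the pair over `p` whenever the coin `c p` says so. -/
def flipPerm (c : P → Bool) : Perm (Bool × P) where
  toFun x := (xor x.1 (c x.2), x.2)
  invFun x := (xor x.1 (c x.2), x.2)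
  left_inv := by rintro ⟨b, p⟩; simp
  right_inv := by rintro ⟨b, p⟩; simp

@[simp] lemma flipPerm_apply (c : P → Bool) (b : Bool) (p : P) :
    flipPerm c (b, p) = (xor b (c p), p) := rfl

/-- Flip one coin. -/
def coinFlip (p : P) : Perm (P → Bool) :=
  Function.Involutive.toPerm (fun c => Function.update c p (!c p)) (by
    intro c
    funext q
    by_cases h : q = p
    · subst h; simp
    · simp [Function.update_of_ne h])

lemma coinFlip_apply (p : P) (c : P → Bool) : coinFlip p c = Function.update c p (!c p) := rfl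

lemma swap_mul_flip (p : P) (c : P → Bool) :
    swap (false, p) (true, p) * flipPerm c = flipPerm (coinFlip p c) := by
  ext1 ⟨b, q⟩
  rw [Perm.mul_apply, flipPerm_apply, flipPerm_apply, coinFlip_apply]
  by_cases h : q = p
  · subst h
    rw [Function.update_self]
    cases b <;> cases hc : c q <;> simp
  · have e1 : (xor b (c q), q) ≠ (false, p) := by simp [h]
    have e2 : (xor b (c q), q) ≠ (true, p) := by simp [h]
    rw [swap_apply_of_ne_of_ne e1 e2, Function.update_of_ne h]

namespace ORep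

/-- Composition of a representation with a group homomorphism between permutation groups. -/
def comp {I J : Type*} (R : ORep I H) (φ : Perm J →* Perm I) : ORep J H where
  ρ := R.ρ.comp φ
  adj g x y := by
    have := R.adj (φ g) x y
    simpa [map_inv] using this

@[simp] lemma comp_ρ {I J : Type*} (R : ORep I H) (φ : Perm J →* Perm I) (g : Perm J) :
    (R.comp φ).ρ g = R.ρ (φ g) := rfl

variable (R : ORep (Bool × P) H)

/-- The coin layer. -/
noncomputable def PiOp : H →L[ℝ] H :=
  ((Fintype.card (P → Bool) : ℝ)⁻¹) • ∑ c : P → Bool, R.ρ (flipPerm c)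

lemma PiOp_apply (x : H) : R.PiOp x =
    ((Fintype.card (P → Bool) : ℝ)⁻¹) • ∑ c : P → Bool, R.ρ (flipPerm c) x := by
  simp [PiOp, _root_.sum_apply]

lemma tt_PiOp (p : P) (x : H) : R.tt p (R.PiOp x) = R.PiOp x := by
  rw [PiOp_apply, map_smul, map_sum]
  congr 1
  have h : ∀ c : P → Bool, R.tt p (R.ρ (flipPerm c) x) = R.ρ (flipPerm (coinFlip p c)) x := by
    intro c
    rw [← swap_mul_flip, R.ρ_mul_apply]
    rfl
  simp only [h]
  exact Equiv.sum_comp (coinFlip p) (fun c => R.ρ (flipPerm c) x)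

lemma norm_PiOp_le (x : H) : ‖R.PiOp x‖ ≤ ‖x‖ := by
  rw [PiOp_apply, norm_smul, norm_inv, Real.norm_of_nonneg (by positivity)]
  have h1 : ‖∑ c : P → Bool, R.ρ (flipPerm c) x‖ ≤ ∑ _c : P → Bool, ‖x‖ := by
    refine (norm_sum_le _ _).trans (le_of_eq ?_)
    simp only [R.norm_ρ]
  simp only [Finset.sum_const, Finset.card_univ, nsmul_eq_mul] at h1
  have hpos : 0 < (Fintype.card (P → Bool) : ℝ) := by
    have : 0 < Fintype.card (P → Bool) := Fintype.card_pos
    exact_mod_cast this
  calc (Fintype.card (P → Bool) : ℝ)⁻¹ * ‖∑ c : P → Bool, R.ρ (flipPerm c) x‖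
      ≤ (Fintype.card (P → Bool) : ℝ)⁻¹ * ((Fintype.card (P → Bool) : ℝ) * ‖x‖) :=
        mul_le_mul_of_nonneg_left h1 (by positivity)
    _ = ‖x‖ := by field_simp

lemma commute_PiOp (C : H →L[ℝ] H) (hC : ∀ g, Commute C (R.ρ g)) : Commute C R.PiOp := by
  refine Commute.smul_right ?_ _
  exact Commute.sum_right _ _ _ fun c _ => hC _

end ORep

namespace ORep

/-- An operator commuting with the representation commutes with its Laplacian. -/
lemma commute_Lap {I : Type*} [Fintype I] [DecidableEq I] (R : ORep I H) (C : H →L[ℝ] H)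
    (hC : ∀ g, Commute C (R.ρ g)) : Commute C R.Lap := by
  refine Commute.smul_right ?_ _
  refine Commute.sum_right _ _ _ fun a _ => Commute.sum_right _ _ _ fun b _ => ?_
  exact (Commute.one_right C).sub_right (hC _)

lemma Lap_commute_ρ {I : Type*} [Fintype I] [DecidableEq I] (R : ORep I H) (g : Perm I) :
    Commute R.Lap (R.ρ g) := by
  ext x
  exact R.Lap_ρ g x

variable (R : ORep (Bool × P) H)

lemma half_commute (g g' : Perm P) :
    Commute ((R.half false).ρ g) ((R.half true).ρ g') := by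
  show R.ρ (halfHom false g) * R.ρ (halfHom true g') = R.ρ (halfHom true g') * R.ρ (halfHom false g)
  rw [← map_mul, ← map_mul, halfHom_commute]

lemma Lap_false_central (g : Perm P) : Commute (R.half false).Lap ((R.half true).ρ g) := by
  apply Commute.symm
  apply commute_Lap
  intro g'
  exact (R.half_commute g' g).symm

lemma Lap_true_central (g : Perm P) : Commute (R.half true).Lap ((R.half false).ρ g) := by
  apply Commute.symm
  apply commute_Lap
  intro g'
  exact R.half_commute g g'

lemma Lap_false_true : Commute (R.half false).Lap (R.half true).Lap :=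
  commute_Lap _ _ R.Lap_false_central

lemma Lap_central_half (b : Bool) (g : Perm P) : Commute R.Lap ((R.half b).ρ g) :=
  R.Lap_commute_ρ _

variable [CompleteSpace H]

/-- The exact splitting of the heat kernel of the sum of the two half Laplacians. -/
lemma exp_AA_form (σ : ℝ) (w : H) :
    ⟪NormedSpace.exp ((-σ / 2) • (R.half false).Lap) w,
      NormedSpace.exp ((-σ) • (R.half true).Lap)
        (NormedSpace.exp ((-σ / 2) • (R.half false).Lap) w)⟫ =
    ⟪w, NormedSpace.exp ((-σ) • R.AA) w⟫ := by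
  set Ef := NormedSpace.exp ((-σ / 2) • (R.half false).Lap) with hEf
  set Et := NormedSpace.exp ((-σ) • (R.half true).Lap) with hEt
  have hsymf : ∀ x y, ⟪((-σ / 2) • (R.half false).Lap) x, y⟫ = ⟪x, ((-σ / 2) • (R.half false).Lap) y⟫ := by
    intro x y
    simp [inner_smul_left, inner_smul_right, (R.half false).Lap_sym]
  have hc1 : Commute ((-σ) • (R.half false).Lap) ((-σ) • (R.half true).Lap) :=
    (R.Lap_false_true.smul_left _).smul_right _
  have hc2 : Commute Et Ef :=
    (((R.Lap_false_true.symm).smul_left _).smul_right _).exp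
  have hAA : NormedSpace.exp ((-σ) • R.AA) = Ef * Ef * Et := by
    rw [AA, smul_add, exp_add_comm hc1, exp_half_mul (R.half false).Lap (-σ)]
  rw [exp_sym _ hsymf, hAA]
  show ⟪w, Ef (Et (Ef w))⟫ = ⟪w, Ef (Ef (Et w))⟫
  have : Et (Ef w) = Ef (Et w) := congrArg (fun T : H →L[ℝ] H => T w) hc2
  rw [this]

variable [FiniteDimensional ℝ H]

/-- **One step of the recursion.** -/
theorem step [Nonempty P] {σ : ℝ} (hσ : 0 ≤ σ) (hσ' : σ * (20 * (Fintype.card P : ℝ)) ≤ 1)
    (Xf Xt : H →L[ℝ] H)
    (hf : ∀ u, ‖Xf u‖ ^ 2 ≤ ⟪u, NormedSpace.exp ((-σ) • (R.half false).Lap) u⟫)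
    (ht : ∀ u, ‖Xt u‖ ^ 2 ≤ ⟪u, NormedSpace.exp ((-σ) • (R.half true).Lap) u⟫)
    (hc : ∀ C : H →L[ℝ] H, (∀ g, Commute C ((R.half true).ρ g)) → Commute C Xt) (v : H) :
    ‖Xf (Xt (R.PiOp v))‖ ^ 2 ≤
      ⟪v, NormedSpace.exp ((-(σ / 2 * (1 - 32 * σ))) • R.Lap) v⟫ := by
  set w := R.PiOp v with hw
  set Ef := NormedSpace.exp ((-σ / 2) • (R.half false).Lap) with hEf
  have hEfc : Commute Ef Xt := by
    apply hc
    intro g
    exact ((R.Lap_false_central g).smul_left _).exp_left
  have h1 : ‖Xf (Xt w)‖ ^ 2 ≤ ‖Ef (Xt w)‖ ^ 2 := by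
    refine (hf _).trans (le_of_eq ?_)
    rw [inner_exp_eq_norm_sq _ (R.half false).Lap_sym]
  have h2 : Ef (Xt w) = Xt (Ef w) := congrArg (fun T : H →L[ℝ] H => T w) hEfc
  have h3 : ‖Xt (Ef w)‖ ^ 2 ≤ ⟪Ef w, NormedSpace.exp ((-σ) • (R.half true).Lap) (Ef w)⟫ := ht _
  have h4 := R.exp_AA_form σ w
  have h5 : ⟪w, NormedSpace.exp ((-σ) • R.AA) w⟫ ≤
      ⟪w, NormedSpace.exp ((-(σ / 2 * (1 - 32 * σ))) • R.Lap) w⟫ :=
    R.keyK hσ hσ' w (fun p => R.tt_PiOp p v)
  rw [h2] at h1
  refine h1.trans (h3.trans ?_)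
  rw [← hEf] at h4
  rw [h4]
  refine h5.trans ?_
  rw [inner_exp_eq_norm_sq _ R.Lap_sym, inner_exp_eq_norm_sq _ R.Lap_sym]
  set a := (-(σ / 2 * (1 - 32 * σ))) / 2 with ha
  have hcomm : Commute (NormedSpace.exp (a • R.Lap)) R.PiOp := by
    apply R.commute_PiOp
    intro g
    exact ((R.Lap_commute_ρ g).smul_left _).exp_left
  have h6 : NormedSpace.exp (a • R.Lap) w = R.PiOp (NormedSpace.exp (a • R.Lap) v) :=
    congrArg (fun T : H →L[ℝ] H => T v) hcomm
  rw [h6]
  exact pow_le_pow_left₀ (norm_nonneg _) (R.norm_PiOp_le _) 2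

end ORep

/-- The binary cube. -/
abbrev Cube (k : ℕ) : Type := Fin k → Bool

/-- The splitting of the cube along its first coordinate. -/
def consE (k : ℕ) : Bool × Cube k ≃ Cube (k + 1) := Fin.consEquiv (fun _ => Bool)

@[simp] lemma consE_apply (k : ℕ) (b : Bool) (p : Cube k) :
    consE k (b, p) = Fin.cons b p := rfl

lemma card_cube (k : ℕ) : Fintype.card (Cube k) = 2 ^ k := by simp

namespace ORep

/-- Transport of a representation of the cube to `Bool × Cube k`. -/
def pull {k : ℕ} (R : ORep (Cube (k + 1)) H) : ORep (Bool × Cube k) H :=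
  R.comp ((consE k).permCongrHom : Perm (Bool × Cube k) →* Perm (Cube (k + 1)))

/-- The two halves of a representation of the cube. -/
def sub {k : ℕ} (R : ORep (Cube (k + 1)) H) (b : Bool) : ORep (Cube k) H := R.pull.half b

lemma Lap_comp_equiv {I J : Type*} [Fintype I] [DecidableEq I] [Fintype J] [DecidableEq J]
    (R : ORep I H) (e : J ≃ I) :
    (R.comp (e.permCongrHom : Perm J →* Perm I)).Lap = R.Lap := by
  have hS : ∀ a b : J, (R.comp (e.permCongrHom : Perm J →* Perm I)).S a b = R.S (e a) (e b) := by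
    intro a b
    simp only [S, comp_ρ]
    congr 1
    ext1 x
    show e (swap a b (e.symm x)) = swap (e a) (e b) x
    by_cases h1 : x = e a
    · subst h1; simp
    · by_cases h2 : x = e b
      · subst h2; simp
      · rw [swap_apply_of_ne_of_ne h1 h2, swap_apply_of_ne_of_ne, Equiv.apply_symm_apply]
        · intro h; apply h1; rw [← h]; simp
        · intro h; apply h2; rw [← h]; simp
  simp only [Lap, hS]
  congr 1
  rw [Equiv.sum_comp e (fun a => ∑ b, (1 - R.S a b)) |>.symm]
  refine Finset.sum_congr rfl fun a _ => ?_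
  exact Equiv.sum_comp e (fun b => (1 - R.S (e a) b))

lemma Lap_pull {k : ℕ} (R : ORep (Cube (k + 1)) H) : R.pull.Lap = R.Lap :=
  R.Lap_comp_equiv (consE k)

end ORep

/-- The reverse butterfly operator. -/
noncomputable def RR : (k : ℕ) → ORep (Cube k) H → (H →L[ℝ] H)
  | 0, _ => 1
  | k + 1, R => RR k (R.sub false) * RR k (R.sub true) * R.pull.PiOp

/-- The rate recursion. -/
noncomputable def sig : ℕ → ℝ
  | 0 => 1 / 128
  | k + 1 => sig k / 2 * (1 - 32 * sig k)

lemma sig_bounds (k : ℕ) : 0 < sig k ∧ sig k * 2 ^ k ≤ 1 / 128 ∧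
    (1 / 128) * (1 / 2 + 1 / 2 ^ (k + 1)) ≤ sig k * 2 ^ k := by
  induction k with
  | zero => simp [sig]; norm_num
  | succ k ih =>
    obtain ⟨h0, h1, h2⟩ := ih
    have hp : (0 : ℝ) < 2 ^ k := by positivity
    have hs : sig k ≤ (1 / 128) / 2 ^ k := by
      rw [le_div_iff₀ hp]; exact h1
    have hs1 : sig k ≤ 1 / 128 := by
      have : (1 / 128 : ℝ) / 2 ^ k ≤ 1 / 128 := div_le_self (by norm_num) (one_le_pow₀ (by norm_num))
      linarith
    have e : sig (k + 1) = sig k / 2 * (1 - 32 * sig k) := rfl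
    have hfac : 0 < 1 - 32 * sig k := by linarith
    refine ⟨?_, ?_, ?_⟩
    · rw [e]; positivity
    · rw [e, pow_succ]
      have : sig k * 2 ^ k * (1 - 32 * sig k) ≤ 1 / 128 * 1 := by
        apply mul_le_mul h1 (by linarith) hfac.le (by norm_num)
      calc sig k / 2 * (1 - 32 * sig k) * (2 ^ k * 2) = sig k * 2 ^ k * (1 - 32 * sig k) := by ring
        _ ≤ _ := by linarith
    · have h3 : 32 * sig k ≤ (1 / 4) / 2 ^ k := by
        rw [le_div_iff₀ hp]; nlinarith
      have e1 : (1 : ℝ) / 2 ^ (k + 1 + 1) = (1 / 2 ^ k) / 4 := by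
        rw [pow_succ, pow_succ]; field_simp; norm_num
      have e2 : (1 : ℝ) / 2 ^ (k + 1) = (1 / 2 ^ k) / 2 := by
        rw [pow_succ 2 k]; field_simp
      have e3 : (1 / 4 : ℝ) / 2 ^ k = (1 / 2 ^ k) / 4 := by ring
      have e4 : sig (k + 1) * 2 ^ (k + 1) = sig k * 2 ^ k * (1 - 32 * sig k) := by
        rw [e, pow_succ]; ring
      rw [e1, e4]
      rw [e3] at h3
      rw [e2] at h2
      set t : ℝ := 1 / 2 ^ k with ht
      have ht0 : 0 < t := by positivity
      have ht1 : t ≤ 1 := by
        rw [ht, div_le_one hp]; exact one_le_pow₀ (by norm_num)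
      have h4 : (1 / 128) * (1 / 2 + t / 2) * (1 - t / 4) ≤
          sig k * 2 ^ k * (1 - 32 * sig k) := by
        apply mul_le_mul h2 (by linarith) (by linarith) (by positivity)
      refine le_trans ?_ h4
      nlinarith

lemma commute_RR (k : ℕ) : ∀ (R : ORep (Cube k) H) (C : H →L[ℝ] H),
    (∀ g, Commute C (R.ρ g)) → Commute C (RR k R) := by
  induction k with
  | zero => intro R C _; exact Commute.one_right C
  | succ k ih =>
    intro R C hC
    refine Commute.mul_right (Commute.mul_right (ih _ C ?_) (ih _ C ?_)) ?_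
    · intro g; exact hC _
    · intro g; exact hC _
    · apply ORep.commute_PiOp
      intro g; exact hC _

lemma Lap_zero_cube [CompleteSpace H] (R : ORep (Cube 0) H) : R.Lap = 0 := by
  have h : ∀ a b : Cube 0, R.S a b = 1 := by
    intro a b
    rw [Subsingleton.elim a b, R.S_self]
  simp [ORep.Lap, h]

variable [CompleteSpace H] [FiniteDimensional ℝ H]

/-- **The main comparison**: the operator `RR k` is dominated in the sense of quadratic forms by
the heat kernel of the random transposition walk, at rate `sig k`. -/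
theorem main_bound (k : ℕ) : ∀ (R : ORep (Cube k) H) (v : H),
    ‖RR k R v‖ ^ 2 ≤ ⟪v, NormedSpace.exp ((-(sig k)) • R.Lap) v⟫ := by
  induction k with
  | zero =>
    intro R v
    rw [Lap_zero_cube]
    simp [RR, real_inner_self_eq_norm_sq]
  | succ k ih =>
    intro R v
    obtain ⟨h0, h1, _⟩ := sig_bounds k
    have hσ' : sig k * (20 * (Fintype.card (Cube k) : ℝ)) ≤ 1 := by
      rw [card_cube]
      push_cast
      nlinarith
    have := R.pull.step h0.le hσ' (RR k (R.sub false)) (RR k (R.sub true)) (ih _) (ih _)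
      (fun C hC => commute_RR k _ C hC) v
    rw [ORep.Lap_pull] at this
    exact this

/-- Iteration of the comparison. -/
theorem iterate_bound (k : ℕ) (R : ORep (Cube k) H) (t : ℕ) : ∀ v : H,
    ‖((RR k R) ^ t) v‖ ^ 2 ≤ ⟪v, NormedSpace.exp ((-((t : ℝ) * sig k)) • R.Lap) v⟫ := by
  induction t with
  | zero =>
    intro v
    simp [real_inner_self_eq_norm_sq]
  | succ t ih =>
    intro v
    rw [pow_succ]
    show ‖((RR k R) ^ t) (RR k R v)‖ ^ 2 ≤ _
    refine (ih _).trans ?_
    rw [inner_exp_eq_norm_sq _ R.Lap_sym]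
    set a := (-((t : ℝ) * sig k)) / 2 with ha
    have hc : Commute (NormedSpace.exp (a • R.Lap)) (RR k R) := by
      apply commute_RR
      intro g
      exact ((R.Lap_commute_ρ g).smul_left _).exp_left
    have h1 : NormedSpace.exp (a • R.Lap) (RR k R v) = RR k R (NormedSpace.exp (a • R.Lap) v) :=
      congrArg (fun T : H →L[ℝ] H => T v) hc
    rw [h1]
    refine (main_bound k R _).trans ?_
    -- combine the exponentials
    set Ea := NormedSpace.exp (a • R.Lap) with hEa
    have hsym : ∀ x y, ⟪(a • R.Lap) x, y⟫ = ⟪x, (a • R.Lap) y⟫ := by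
      intro x y
      simp [inner_smul_left, inner_smul_right, R.Lap_sym]
    rw [hEa, exp_sym _ hsym, ← hEa]
    have hexp : NormedSpace.exp ((-(((t + 1 : ℕ) : ℝ) * sig k)) • R.Lap) =
        Ea * (NormedSpace.exp ((-(sig k)) • R.Lap) * Ea) := by
      have e1 : (-(((t + 1 : ℕ) : ℝ) * sig k)) • R.Lap =
          a • R.Lap + ((-(sig k)) • R.Lap + a • R.Lap) := by
        rw [← add_smul, ← add_smul, ha]
        congr 1
        push_cast
        ring
      have c1 : Commute ((-(sig k)) • R.Lap) (a • R.Lap) :=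
        ((Commute.refl R.Lap).smul_left _).smul_right _
      have c2 : Commute (a • R.Lap) ((-(sig k)) • R.Lap + a • R.Lap) :=
        Commute.add_right (((Commute.refl R.Lap).smul_left _).smul_right _)
          (((Commute.refl R.Lap).smul_left _).smul_right _)
      rw [e1, exp_add_comm c2, exp_add_comm c1]
    rw [hexp]
    rfl

end Vale.Agent.P162
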