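import Mathlib

/-!
Spectral tools on finite dimensional real inner product spaces.
-/

open scoped RealInnerProductSpace
open Finset

namespace Vale.Agent.P162

variable {E : Type*} [NormedAddCommGroup E] [InnerProductSpace ℝ E] [FiniteDimensional ℝ E]

/-- Every vector of an invariant subspace is a finite sum of eigenvectors inside it. -/
lemma exists_eigen_sum (X : E →L[ℝ] E) (hX : ∀ x y, ⟪X x, y⟫ = ⟪x, X y⟫)
    (K : Submodule ℝ E) (hK : ∀ v ∈ K, X v ∈ K) (u : E) (hu : u ∈ K) :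
    ∃ (F : Finset ℝ) (f : ℝ → E), u = ∑ μ ∈ F, f μ ∧ ∀ μ, f μ ∈ K ∧ X (f μ) = μ • f μ := by
  have hsym : (X : E →ₗ[ℝ] E).IsSymmetric := fun x y => hX x y
  have hT := hsym.restrict_invariant (V := K) hK
  let T := (X : E →ₗ[ℝ] E).restrict hK
  let b := hT.eigenvectorBasis (n := Module.finrank ℝ K) rfl
  let lam := hT.eigenvalues (n := Module.finrank ℝ K) rfl
  have hb : ∀ i, X (b i : E) = lam i • (b i : E) := by
    intro i
    have := hT.apply_eigenvectorBasis (n := Module.finrank ℝ K) rfl i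
    have h2 := congrArg (Subtype.val) this
    exact h2
  let u' : K := ⟨u, hu⟩
  have hsum : u = ∑ i, ⟪b i, u'⟫ • (b i : E) := by
    have := b.sum_repr' u'
    have h2 := congrArg (fun y : K => (y : E)) this
    simpa using h2.symm
  refine ⟨Finset.univ.image lam, fun μ => ∑ i ∈ Finset.univ.filter (fun i => lam i = μ),
    ⟪b i, u'⟫ • (b i : E), ?_, ?_⟩
  · rw [Finset.sum_fiberwise_of_maps_to (g := lam)
      (fun i _ => Finset.mem_image_of_mem lam (Finset.mem_univ i))]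
    exact hsum
  · intro μ
    constructor
    · exact K.sum_mem fun i _ => K.smul_mem _ (b i).2
    · rw [map_sum, Finset.smul_sum]
      refine Finset.sum_congr rfl fun i hi => ?_
      have hi' : lam i = μ := (Finset.mem_filter.mp hi).2
      rw [map_smul, hb, hi', smul_comm]

/-- A quadratic form commuting with `X` is nonnegative on an invariant subspace as soon as it is
so on the eigenvectors inside the subspace. -/
lemma quad_nonneg_of_eigen (X B : E →L[ℝ] E) (hX : ∀ x y, ⟪X x, y⟫ = ⟪x, X y⟫)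
    (hB : ∀ x, B (X x) = X (B x)) (K : Submodule ℝ E) (hK : ∀ v ∈ K, X v ∈ K)
    (h : ∀ (μ : ℝ) (v : E), v ∈ K → X v = μ • v → 0 ≤ ⟪v, B v⟫) :
    ∀ u ∈ K, 0 ≤ ⟪u, B u⟫ := by
  intro u hu
  obtain ⟨F, f, hu', hf⟩ := exists_eigen_sum X hX K hK u hu
  have hoff : ∀ μ ∈ F, ∀ ν ∈ F, μ ≠ ν → ⟪f μ, B (f ν)⟫ = 0 := by
    intro μ _ ν _ hne
    have h1 : μ * ⟪f μ, B (f ν)⟫ = ν * ⟪f μ, B (f ν)⟫ := by
      calc μ * ⟪f μ, B (f ν)⟫ = ⟪X (f μ), B (f ν)⟫ := by
            rw [(hf μ).2, inner_smul_left]; simp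
        _ = ⟪f μ, X (B (f ν))⟫ := hX _ _
        _ = ⟪f μ, B (X (f ν))⟫ := by rw [hB]
        _ = ν * ⟪f μ, B (f ν)⟫ := by
            rw [(hf ν).2, map_smul, inner_smul_right]
    have h2 : (μ - ν) * ⟪f μ, B (f ν)⟫ = 0 := by linarith
    exact (mul_eq_zero.mp h2).resolve_left (sub_ne_zero.mpr hne)
  have hexp : ⟪u, B u⟫ = ∑ μ ∈ F, ⟪f μ, B (f μ)⟫ := by
    rw [hu', map_sum, inner_sum]
    simp only [sum_inner]
    rw [Finset.sum_comm]
    refine Finset.sum_congr rfl fun μ hμ => ?_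
    exact Finset.sum_eq_single μ (fun ν hν hne => hoff μ hμ ν hν (Ne.symm hne))
      (fun h => absurd hμ h)
  rw [hexp]
  exact Finset.sum_nonneg fun μ _ => h μ (f μ) (hf μ).1 (hf μ).2

omit [FiniteDimensional ℝ E] in
/-- Eigenvectors are orthogonal for distinct eigenvalues. -/
lemma inner_eq_zero_of_eigen (X : E →L[ℝ] E) (hX : ∀ x y, ⟪X x, y⟫ = ⟪x, X y⟫) {μ ν : ℝ}
    {x y : E} (hx : X x = μ • x) (hy : X y = ν • y) (hne : μ ≠ ν) : ⟪x, y⟫ = 0 := by
  have h1 : μ * ⟪x, y⟫ = ν * ⟪x, y⟫ := by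
    calc μ * ⟪x, y⟫ = ⟪X x, y⟫ := by rw [hx, inner_smul_left]; simp
      _ = ⟪x, X y⟫ := hX _ _
      _ = ν * ⟪x, y⟫ := by rw [hy, inner_smul_right]
  have h2 : (μ - ν) * ⟪x, y⟫ = 0 := by linarith
  exact (mul_eq_zero.mp h2).resolve_left (sub_ne_zero.mpr hne)

end Vale.Agent.P162

namespace Vale.Agent.P162

variable {E : Type*} [NormedAddCommGroup E] [InnerProductSpace ℝ E] [CompleteSpace E]

/-- The exponential of a sum of commuting operators. -/
lemma exp_add_comm {x y : E →L[ℝ] E} (h : Commute x y) :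
    NormedSpace.exp (x + y) = NormedSpace.exp x * NormedSpace.exp y := by
  letI : NormedAlgebra ℚ (E →L[ℝ] E) := NormedAlgebra.restrictScalars ℚ ℝ _
  exact NormedSpace.exp_add_of_commute h

/-- Exponential on an eigenvector. -/
lemma exp_apply_of_eigen (X : E →L[ℝ] E) {μ : ℝ} {v : E} (h : X v = μ • v) :
    NormedSpace.exp X v = Real.exp μ • v := by
  have hpow : ∀ n : ℕ, (X ^ n) v = μ ^ n • v := by
    intro n
    induction n with
    | zero => simp
    | succ n ih =>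
      rw [pow_succ']
      show X ((X ^ n) v) = _
      rw [ih, map_smul, h, smul_smul, pow_succ]
  have h1 := (ContinuousLinearMap.apply ℝ E v).hasSum
    (NormedSpace.exp_series_hasSum_exp' (𝕂 := ℝ) X)
  have h2 := (NormedSpace.exp_series_hasSum_exp' (𝕂 := ℝ) μ).smul_const v
  rw [← Real.exp_eq_exp_ℝ] at h2
  have e : ∀ n : ℕ, (ContinuousLinearMap.apply ℝ E v) (((n.factorial : ℝ)⁻¹) • X ^ n) =
      (((n.factorial : ℝ)⁻¹) • μ ^ n) • v := by
    intro n
    simp [hpow, smul_smul]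
  refine h1.unique ?_
  simp only [e]
  exact h2

end Vale.Agent.P162
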