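import Vale.Agent.P162.Core1b
import Vale.Agent.P162.Tools

/-!
Orthogonal representations of permutation groups and their transposition Laplacian.
-/

open scoped RealInnerProductSpace
open Finset Equiv

namespace Vale.Agent.P162

/-- An orthogonal representation of `Perm I` on `H`. -/
structure ORep (I H : Type*) [NormedAddCommGroup H] [InnerProductSpace ℝ H] where
  ρ : Perm I →* (H →L[ℝ] H)
  adj : ∀ g x y, ⟪ρ g x, y⟫ = ⟪x, ρ g⁻¹ y⟫

variable {I H : Type*} [NormedAddCommGroup H] [InnerProductSpace ℝ H]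

namespace ORep

variable (R : ORep I H)

lemma ρ_inv_apply (g : Perm I) (x : H) : R.ρ g⁻¹ (R.ρ g x) = x := by
  have : R.ρ g⁻¹ * R.ρ g = 1 := by rw [← map_mul, inv_mul_cancel, map_one]
  exact congrArg (fun T : H →L[ℝ] H => T x) this

lemma ρ_apply_inv (g : Perm I) (x : H) : R.ρ g (R.ρ g⁻¹ x) = x := by
  have : R.ρ g * R.ρ g⁻¹ = 1 := by rw [← map_mul, mul_inv_cancel, map_one]
  exact congrArg (fun T : H →L[ℝ] H => T x) this

lemma ρ_mul_apply (g h : Perm I) (x : H) : R.ρ (g * h) x = R.ρ g (R.ρ h x) := by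
  rw [map_mul]; rfl

lemma inner_ρ_ρ (g : Perm I) (x y : H) : ⟪R.ρ g x, R.ρ g y⟫ = ⟪x, y⟫ := by
  rw [R.adj, ρ_inv_apply]

lemma norm_ρ (g : Perm I) (x : H) : ‖R.ρ g x‖ = ‖x‖ := by
  have : ‖R.ρ g x‖ ^ 2 = ‖x‖ ^ 2 := by
    rw [← real_inner_self_eq_norm_sq, ← real_inner_self_eq_norm_sq, inner_ρ_ρ]
  exact (sq_eq_sq₀ (norm_nonneg _) (norm_nonneg _)).mp this

variable [DecidableEq I]

/-- The action of the transposition. -/
noncomputable def S (a b : I) : H →L[ℝ] H := R.ρ (swap a b)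

lemma S_self (a : I) : R.S a a = 1 := by
  rw [S, swap_self]; exact map_one R.ρ

lemma S_comm (a b : I) : R.S a b = R.S b a := by simp [S, swap_comm]

lemma S_sym (a b : I) (x y : H) : ⟪R.S a b x, y⟫ = ⟪x, R.S a b y⟫ := by
  simp [S, R.adj]

lemma S_sq (a b : I) (x : H) : R.S a b (R.S a b x) = x := by
  have := R.ρ_inv_apply (swap a b) x
  simpa [S] using this

lemma norm_S (a b : I) (x : H) : ‖R.S a b x‖ = ‖x‖ := R.norm_ρ _ _

/-- Conjugation of a transposition. -/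
lemma ρ_S (g : Perm I) (a b : I) (x : H) : R.ρ g (R.S a b x) = R.S (g a) (g b) (R.ρ g x) := by
  rw [S, S, ← R.ρ_mul_apply, ← R.ρ_mul_apply, swap_apply_apply]
  simp [mul_assoc]

/-- `2 ⟨w, w - S w⟩ = ‖w - S w‖²`. -/
lemma norm_sub_S_sq (a b : I) (w : H) : ‖w - R.S a b w‖ ^ 2 = 2 * ⟪w, w - R.S a b w⟫ := by
  have h1 : ⟪R.S a b w, R.S a b w⟫ = ⟪w, w⟫ := by rw [S_sym, S_sq]
  have h2 : ⟪R.S a b w, w⟫ = ⟪w, R.S a b w⟫ := S_sym _ _ _ _ _
  rw [← real_inner_self_eq_norm_sq]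
  simp only [inner_sub_left, inner_sub_right, h1, h2]
  ring

lemma form_nonneg (a b : I) (w : H) : 0 ≤ ⟪w, w - R.S a b w⟫ := by
  have := R.norm_sub_S_sq a b w
  have h2 : 0 ≤ ‖w - R.S a b w‖ ^ 2 := by positivity
  linarith

lemma form_le (a b : I) (w : H) : ⟪w, w - R.S a b w⟫ ≤ 2 * ‖w‖ ^ 2 := by
  have h1 := R.norm_sub_S_sq a b w
  have h2 : ‖w - R.S a b w‖ ≤ 2 * ‖w‖ := by
    have := norm_sub_le w (R.S a b w)
    rw [norm_S] at this
    linarith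
  have h3 : ‖w - R.S a b w‖ ^ 2 ≤ (2 * ‖w‖) ^ 2 := pow_le_pow_left₀ (norm_nonneg _) h2 2
  nlinarith [sq_nonneg ‖w‖]

variable [Fintype I]

/-- The transposition Laplacian `D = (1/2) ∑_{a,b} (1 - S a b)`. -/
noncomputable def Lap : H →L[ℝ] H := (1 / 2 : ℝ) • ∑ a, ∑ b, (1 - R.S a b)

lemma Lap_apply (w : H) : R.Lap w = (1 / 2 : ℝ) • ∑ a, ∑ b, (w - R.S a b w) := by
  simp [Lap, _root_.sum_apply, sub_apply]

lemma inner_Lap (w : H) : ⟪w, R.Lap w⟫ = (1 / 2) * ∑ a, ∑ b, ⟪w, w - R.S a b w⟫ := by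
  rw [Lap_apply, inner_smul_right, inner_sum]
  simp only [inner_sum]

lemma Lap_sym (x y : H) : ⟪R.Lap x, y⟫ = ⟪x, R.Lap y⟫ := by
  simp only [Lap_apply, inner_smul_left, inner_smul_right, sum_inner, inner_sum,
    inner_sub_left, inner_sub_right, R.S_sym]
  simp

lemma Lap_nonneg (w : H) : 0 ≤ ⟪w, R.Lap w⟫ := by
  rw [inner_Lap]
  have : 0 ≤ ∑ a, ∑ b, ⟪w, w - R.S a b w⟫ :=
    Finset.sum_nonneg fun a _ => Finset.sum_nonneg fun b _ => R.form_nonneg a b w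
  linarith

lemma Lap_le (w : H) : ⟪w, R.Lap w⟫ ≤ (Fintype.card I : ℝ) ^ 2 * ‖w‖ ^ 2 := by
  rw [inner_Lap]
  have : ∑ a, ∑ b, ⟪w, w - R.S a b w⟫ ≤ ∑ _a : I, ∑ _b : I, 2 * ‖w‖ ^ 2 :=
    Finset.sum_le_sum fun a _ => Finset.sum_le_sum fun b _ => R.form_le a b w
  simp only [Finset.sum_const, Finset.card_univ, nsmul_eq_mul] at this
  nlinarith

/-- `D` commutes with the representation. -/
lemma Lap_ρ (g : Perm I) (w : H) : R.Lap (R.ρ g w) = R.ρ g (R.Lap w) := by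
  simp only [Lap_apply, map_smul, map_sum, map_sub, ρ_S]
  congr 1
  refine ((Equiv.sum_comp g _).symm).trans ?_
  refine Finset.sum_congr rfl fun a _ => ?_
  exact (Equiv.sum_comp g _).symm

end ORep

end Vale.Agent.P162
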